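import Vale.Agent.P021.Struct

/-!
The zero estimate.
-/

namespace Vale.Agent.P021

open MvPolynomial Finset

theorem exists_persistent {R : Type} [CommRing R] [IsDomain R] {n : ℕ}
    (hdim : ringKrullDim R = n) (I : ℕ → Ideal R) (hI : Monotone I) (h0 : I 0 ≠ ⊥)
    {p : Ideal R} (hp : p.IsPrime) (hle : I n ≤ p) :
    ∃ i < n, ∃ q ∈ (I i).minimalPrimes, I (i + 1) ≤ q ∧ q ≤ p := by
  by_contra hcon
  push Not at hcon
  have key : ∀ i ≤ n, ∀ q : Ideal R, q.IsPrime → I i ≤ q → q ≤ p →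
      ((i + 1 : ℕ) : ℕ∞) ≤ q.height := by
    intro i
    induction i with
    | zero =>
      intro _ q _ h1 _
      have : q.height ≠ 0 := fun h => h0 (le_bot_iff.1 (Ideal.height_eq_zero_iff_eq_bot.1 h ▸ h1))
      simpa using Order.one_le_iff_ne_zero.2 this
    | succ i ih =>
      intro hi q hq h1 h2
      obtain ⟨q', hq', hq'q⟩ := Ideal.exists_minimalPrimes_le (J := q)
        ((hI (Nat.le_succ i)).trans h1)
      have hq'p : q'.IsPrime := hq'.1.1
      have hlt : q' < q := lt_of_le_of_ne hq'q fun h =>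
        hcon i (by omega) q' hq' (h ▸ h1) (hq'q.trans h2)
      have h3 := ih (by omega) q' hq'p hq'.1.2 (hq'q.trans h2)
      have h4 := Ideal.height_add_one_le_of_lt_of_isPrime hlt
      calc ((i + 1 + 1 : ℕ) : ℕ∞) = ((i + 1 : ℕ) : ℕ∞) + 1 := by push_cast; rfl
        _ ≤ q'.height + 1 := by gcongr
        _ ≤ _ := h4
  have h1 := key n le_rfl p hp hle le_rfl
  have h2 := Ideal.height_le_ringKrullDim_of_isPrime (I := p)
  rw [hdim] at h2
  have h3 : p.height ≤ (n : ℕ∞) := by exact_mod_cast h2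
  have := h1.trans h3
  norm_cast at this
  omega

variable {m : ℕ}

theorem krull_RR : ringKrullDim (RR m) = ((m + 1 : ℕ) : WithBot ℕ∞) := by
  rw [MvPolynomial.ringKrullDim_of_isNoetherianRing, ringKrullDim_eq_zero_of_field]
  simp

theorem Deg.zero (W : Fin (m + 1) → ℝ) (a : ℝ) : Deg W a (0 : RR m) := by simp [Deg]

theorem Deg.add {W : Fin (m + 1) → ℝ} {a : ℝ} {F G : RR m} (hF : Deg W a F) (hG : Deg W a G) :
    Deg W a (F + G) := fun e he => by
  rcases mem_union.1 (support_add he) with h | h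
  · exact hF e h
  · exact hG e h

theorem Deg.pderiv {W : Fin (m + 1) → ℝ} (hW : ∀ i, 0 ≤ W i) {a : ℝ} {F : RR m}
    (hF : Deg W a F) (i : Fin (m + 1)) : Deg W a (pderiv i F) := fun e he => by
  have := hF _ (mem_support_pderiv.1 he)
  rw [wt_add, wt_single] at this
  have h := hW i
  simp only [Nat.cast_one, mul_one] at this
  linarith

theorem Deg.dd {W : Fin (m + 1) → ℝ} (hW : ∀ i, 0 ≤ W i) {a : ℝ} {F : RR m}
    (hF : Deg W a F) (i : Fin (m + 1)) : Deg W a (dd i F) := by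
  by_cases h : i = 0
  · rw [h, dd_zero]
    refine Deg.add (fun e he => hF e ?_) ?_
    · rw [mem_support_iff, coeff_X_mul_pderiv] at he
      exact mem_support_iff.2 (right_ne_zero_of_mul he)
    · exact sum_induction _ _ (fun _ _ => Deg.add) (Deg.zero W a) fun j _ => hF.pderiv hW _
  · rw [dd_of_ne h]; exact hF.pderiv hW i

theorem Deg.app {W : Fin (m + 1) → ℝ} (hW : ∀ i, 0 ≤ W i) {a : ℝ} (w : List (Fin (m + 1))) :
    ∀ {F : RR m}, Deg W a F → Deg W a (app P021.dd w F) := by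
  induction w with
  | nil => exact id
  | cons i w ih => exact fun hF => ih (hF.dd hW i)

theorem Deg.of_mul {W : Fin (m + 1) → ℝ} (hW : 0 < W 0) {a : ℝ} {Q : RR m}
    (h : Deg W a ((X 0 - 1) * Q)) : Deg W (a - W 0) Q := by
  intro e he
  obtain ⟨e0, he0, hmax⟩ := exists_max_image Q.support (wt W) ⟨e, he⟩
  refine (hmax e he).trans ?_
  have h1 : coeff (e0 + Finsupp.single 0 1) Q = 0 := by
    by_contra h1
    have := hmax _ (mem_support_iff.2 h1)
    rw [wt_add, wt_single] at this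
    simp only [Nat.cast_one, mul_one] at this
    linarith
  have h2 := h (e0 + Finsupp.single 0 1) (by
    rw [mem_support_iff, sub_mul, one_mul, coeff_sub, h1, sub_zero, add_comm e0, coeff_X_mul]
    exact mem_support_iff.1 he0)
  rw [wt_add, wt_single] at h2
  simp only [Nat.cast_one, mul_one] at h2
  linarith

/-- truncated logarithm -/
noncomputable def lt {R : Type} [CommRing R] [Algebra ℂ R] (n : ℕ) (x : R) : R :=
  ∑ i ∈ range n, algebraMap ℂ R ((-1) ^ (i + 1) / i) * x ^ i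

theorem map_lt {R S : Type} [CommRing R] [Algebra ℂ R] [CommRing S] [Algebra ℂ S]
    (f : R →ₐ[ℂ] S) (n : ℕ) (x : R) : f (lt n x) = lt n (f x) := by
  simp [lt, map_sum]

theorem lt_mem {R : Type} [CommRing R] [Algebra ℂ R] {I : Ideal R} (n : ℕ) {x : R} (hx : x ∈ I) :
    lt n x ∈ I := by
  refine Ideal.sum_mem _ fun i _ => ?_
  cases i with
  | zero => simp
  | succ i => exact I.mul_mem_left _ (I.pow_mem_of_mem hx _ (Nat.succ_pos i))

theorem deriv_lt {R : Type} [CommRing R] [Algebra ℂ R] (D : Der R) (n : ℕ) (x : R) :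
    D (lt (n + 1) x) = (∑ i ∈ range n, (-x) ^ i) * D x := by
  induction n with
  | zero => simp [lt]
  | succ n ih =>
    rw [lt, sum_range_succ, ← lt, map_add, ih, sum_range_succ, add_mul]
    congr 1
    rw [Derivation.leibniz, Derivation.map_algebraMap, smul_zero, add_zero, Derivation.leibniz_pow,
      smul_eq_mul, smul_eq_mul, nsmul_eq_mul, ← mul_assoc, ← mul_assoc]
    congr 1
    have e1 : ((n + 1 : ℕ) : R) = algebraMap ℂ R ((n + 1 : ℕ) : ℂ) := by simp
    rw [e1, ← map_mul, div_mul_cancel₀ _ (Nat.cast_ne_zero.2 (Nat.succ_ne_zero n)), neg_pow x]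
    simp [pow_succ]

/-- expansion at a point in the truncated logarithmic coordinates -/
noncomputable def Phi (pt : Fin (m + 1) → ℂ) (n : Fin (m + 1) → ℕ) : RR m →ₐ[ℂ] RR m :=
  aeval fun i => if i = 0 then 1 + X 0 else C (pt i) + X i + lt (n i + 1) (X 0)

/-- local coordinates -/
noncomputable def loc (pt : Fin (m + 1) → ℂ) (n : Fin (m + 1) → ℕ) (i : Fin (m + 1)) : RR m :=
  if i = 0 then X 0 - 1 else X i - C (pt i) - lt (n i + 1) (X 0 - 1)

theorem aeval_loc_Phi (pt : Fin (m + 1) → ℂ) (n : Fin (m + 1) → ℕ) (F : RR m) :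
    aeval (loc pt n) (Phi pt n F) = F := by
  have : (aeval (loc pt n)).comp (Phi pt n) = AlgHom.id ℂ (RR m) := by
    ext i : 1
    simp only [AlgHom.comp_apply, Phi, aeval_X, AlgHom.id_apply]
    split_ifs with h
    · simp [h, loc]
    · simp [h, loc, map_lt]; ring
  exact DFunLike.congr_fun this F

/-- the maximal ideal of a point -/
noncomputable def mx (pt : Fin (m + 1) → ℂ) : Ideal (RR m) := RingHom.ker (eval pt)

theorem mem_mx {pt : Fin (m + 1) → ℂ} {F : RR m} : F ∈ mx pt ↔ eval pt F = 0 := Iff.rfl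

theorem mx_prime (pt : Fin (m + 1) → ℂ) : (mx pt).IsPrime := RingHom.ker_isPrime _

theorem dd_X_sub (i : Fin (m + 1)) : dd i (X 0 - 1 : RR m) = if i = 0 then X 0 else 0 := by
  split_ifs with h
  · rw [h, dd_zero]; simp [pderiv_X_of_ne (Fin.succ_ne_zero _).symm]
  · rw [dd_of_ne h]; simp [pderiv_X_of_ne (Ne.symm h)]

theorem dd_X {j : Fin (m + 1)} (hj : j ≠ 0) (i : Fin (m + 1)) :
    dd i (X j : RR m) = if i = 0 ∨ i = j then 1 else 0 := by
  by_cases h : i = 0
  · rw [h, dd_zero, pderiv_X_of_ne hj]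
    obtain ⟨k, rfl⟩ := Fin.exists_succ_eq.2 hj
    rw [sum_eq_single k]
    · simp
    · intro l _ hl
      exact pderiv_X_of_ne fun h => hl (Fin.succ_injective _ h).symm
    · simp
  · rw [dd_of_ne h]
    by_cases h' : i = j
    · simp [h']
    · simp [h, h', pderiv_X_of_ne (Ne.symm h')]

theorem dd_C (i : Fin (m + 1)) (z : ℂ) : dd i (C z : RR m) = 0 :=
  Derivation.map_algebraMap (dd i) z

theorem dd_loc (pt : Fin (m + 1) → ℂ) (n : Fin (m + 1) → ℕ) {j : Fin (m + 1)} (hj : j ≠ 0)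
    (i : Fin (m + 1)) : dd i (loc pt n j) =
      if i = 0 then (-(X 0 - 1)) ^ n j else if i = j then 1 else 0 := by
  rw [loc, if_neg hj, map_sub, map_sub, deriv_lt, dd_X_sub, dd_X hj, dd_C]
  by_cases h : i = 0
  · simp only [h, true_or, if_true, sub_zero]
    have := mul_neg_geom_sum (-(X 0 - 1) : RR m) (n j)
    rw [sub_neg_eq_add, add_sub_cancel] at this
    rw [mul_comm, this]; ring
  · simp [h]

theorem loc_mem_mx {pt : Fin (m + 1) → ℂ} (hpt : pt 0 = 1) (n : Fin (m + 1) → ℕ)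
    (i : Fin (m + 1)) : loc pt n i ∈ mx pt := by
  have h0 : (X 0 - 1 : RR m) ∈ mx pt := by simp [mem_mx, hpt]
  rw [loc]
  split_ifs
  · exact h0
  · exact sub_mem (by simp [mem_mx]) (lt_mem _ h0)

theorem loc_mem_ord {c : Fin (m + 1) → ℝ} {hc : ∀ i, 0 ≤ c i} {pt : Fin (m + 1) → ℂ}
    (hpt : pt 0 = 1) {n : Fin (m + 1) → ℕ} (h0 : ∀ i, c 0 ≤ c i)
    (hn : ∀ j, c j ≤ (n j + 1) * c 0) (j : Fin (m + 1)) :
    loc pt n j ∈ ord dd c hc (mx pt) (c j) := by
  have h1 : loc pt n 0 ∈ ord dd c hc (mx pt) (c 0) := mem_ord_of_le h0 (loc_mem_mx hpt n 0)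
  by_cases hj : j = 0
  · rw [hj]; exact h1
  refine mem_ord_of_deriv (loc_mem_mx hpt n j) fun i => ?_
  rw [dd_loc pt n hj]
  split_ifs with h h'
  · rw [loc, if_pos rfl] at h1
    refine ord_anti ?_ (pow_mem_ord (neg_mem h1) (n j))
    have := hn j
    rw [h]; linarith
  · exact mem_ord_of_nonpos (by simp [h']) _
  · exact zero_mem _

theorem aeval_loc_monomial (pt : Fin (m + 1) → ℂ) (n : Fin (m + 1) → ℕ) (e : Fin (m + 1) →₀ ℕ)
    (z : ℂ) : aeval (loc pt n) (monomial e z) = C z * ∏ i, loc pt n i ^ e i := by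
  rw [aeval_monomial, Finsupp.prod_fintype _ _ (by simp)]; rfl

theorem prod_loc_mem_ord {c : Fin (m + 1) → ℝ} {hc : ∀ i, 0 ≤ c i} {pt : Fin (m + 1) → ℂ}
    (hpt : pt 0 = 1) {n : Fin (m + 1) → ℕ} (h0 : ∀ i, c 0 ≤ c i)
    (hn : ∀ j, c j ≤ (n j + 1) * c 0) (e : Fin (m + 1) →₀ ℕ) :
    ∏ i, loc pt n i ^ e i ∈ ord dd c hc (mx pt) (wt c e) :=
  prod_mem_ord _ _ _ fun i _ => pow_mem_ord (loc_mem_ord hpt h0 hn i) _

theorem mem_ord_of_coeff {c : Fin (m + 1) → ℝ} {hc : ∀ i, 0 ≤ c i} {pt : Fin (m + 1) → ℂ}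
    (hpt : pt 0 = 1) {n : Fin (m + 1) → ℕ} (h0 : ∀ i, c 0 ≤ c i)
    (hn : ∀ j, c j ≤ (n j + 1) * c 0) {P : RR m} {b : ℝ}
    (hP : ∀ e, wt c e ≤ b → coeff e (Phi pt n P) = 0) : P ∈ ord dd c hc (mx pt) b := by
  rw [← aeval_loc_Phi pt n P, (Phi pt n P).as_sum, map_sum]
  refine Ideal.sum_mem _ fun e he => ?_
  rw [aeval_loc_monomial]
  refine Ideal.mul_mem_left _ _ (ord_anti ?_ (prod_loc_mem_ord hpt h0 hn e))
  by_contra h
  exact mem_support_iff.1 he (hP e (not_le.1 h).le)

theorem indep_loc {pt : Fin (m + 1) → ℂ} (hpt : pt 0 = 1) :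
    Indep (mx pt) dd (loc pt fun _ => 1) := by
  refine ⟨loc_mem_mx hpt _, fun v hv l => ?_⟩
  have := hv l
  rw [mem_mx, map_sum, sum_eq_single l] at this
  · rw [map_mul] at this
    refine (mul_eq_zero.1 this).resolve_left ?_
    by_cases h : l = 0
    · rw [h, loc, if_pos rfl, dd_X_sub]; simp [hpt]
    · rw [dd_loc _ _ h]; simp [h]
  · intro l' _ hl'
    rw [map_mul]
    refine mul_eq_zero_of_left ?_ _
    by_cases h : l' = 0
    · rw [h, loc, if_pos rfl, dd_X_sub, if_neg (by rintro rfl; exact hl' h)]; simp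
    · rw [dd_loc _ _ h]
      split_ifs with h1 h2
      · simp [hpt]
      · exact absurd h2.symm hl'
      · simp
  · simp

theorem sup_ord_eq_top {c : Fin (m + 1) → ℝ} {hc : ∀ i, 0 ≤ c i} (hc0 : 0 < c 0)
    (h0 : ∀ i, c 0 ≤ c i) {pt : Fin (m + 1) → ℂ} {p : Ideal (RR m)} {f : RR m} (hf : f ∈ p)
    (hf' : f ∉ mx pt) (s : ℝ) : hq ℂ (p ⊔ ord dd c hc (mx pt) s) = 0 := by
  have h1 : algebraMap ℂ (RR m) (eval pt f) - f ∈ mx pt := by simp [mem_mx]
  obtain ⟨k, hk⟩ := exists_pow_mem_ord (d := dd) (hc := hc) hc0 h0 h1 s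
  refine hq_eq_zero (z := eval pt f ^ k) (pow_ne_zero _ hf') ?_
  have h3 : (algebraMap ℂ (RR m) (eval pt f)) ^ k -
      (algebraMap ℂ (RR m) (eval pt f) - f) ^ k ∈ p := by
    refine p.mem_of_dvd (sub_dvd_pow_sub_pow _ _ k) ?_
    rwa [sub_sub_cancel]
  rw [map_pow, ← sub_add_cancel ((algebraMap ℂ (RR m) (eval pt f)) ^ k)
    ((algebraMap ℂ (RR m) (eval pt f) - f) ^ k)]
  exact add_mem (Ideal.mem_sup_left h3) (Ideal.mem_sup_right hk)

theorem hq_le_hv_of {A R : Type} [CommRing A] [CommRing R] [Algebra A R] {I J : Ideal R}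
    (hIJ : I ≤ J) (V : Submodule A R) (h : ∀ f, ∃ g ∈ V, f - g ∈ J) : hq A J ≤ hv I V := by
  refine LinearMap.rank_le_of_surjective
    ((Ideal.Quotient.factorₐ A hIJ).toLinearMap.domRestrict _) fun x => ?_
  obtain ⟨f, rfl⟩ := Ideal.Quotient.mk_surjective x
  obtain ⟨g, hg, hfg⟩ := h f
  exact ⟨⟨Ideal.Quotient.mk I g, g, hg, rfl⟩, (Ideal.Quotient.eq.2 hfg).symm⟩

theorem prod_mem_Vx' {A R ι β : Type} [CommRing A] [CommRing R] [Algebra A R] [Fintype ι]
    {x : ι → R} {W : ι → ℝ} (S : Finset β) (s : β → ℝ) (f : β → R)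
    (h : ∀ b ∈ S, f b ∈ Vx A x W (s b)) : ∏ b ∈ S, f b ∈ Vx A x W (∑ b ∈ S, s b) := by
  classical
  induction S using Finset.induction_on with
  | empty => simpa using prod_mem_Vx (A := A) x (W := W) (s := 0) (e := 0) (wt_zero W).le
  | insert b S hb ih =>
    rw [sum_insert hb, prod_insert hb, add_comm]
    exact mul_mem_Vx (h b (mem_insert_self b S)) (ih fun b' hb' => h b' (mem_insert_of_mem hb'))

theorem single_point {c W : Fin (m + 1) → ℝ} {hc : ∀ i, 0 ≤ c i} (hW : ∀ i, i ≠ 0 → W i = c i)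
    {pt : Fin (m + 1) → ℂ} (hpt : pt 0 = 1) {n : Fin (m + 1) → ℕ} (h0 : ∀ i, c 0 ≤ c i)
    (hn : ∀ j, c j ≤ (n j + 1) * c 0) {p : Ideal (RR m)} (hy : (X 0 - 1 : RR m) ∈ p) (s : ℝ) :
    hq ℂ (p ⊔ ord dd c hc (mx pt) s) ≤ hv p (Vx ℂ (X : Fin (m + 1) → RR m) W s) := by
  refine hq_le_hv_of le_sup_left _ fun f => ?_
  rw [← aeval_loc_Phi pt n f]
  generalize Phi pt n f = G
  induction G using MvPolynomial.induction_on' with
  | add G G' h h' =>
    obtain ⟨g, hg, h⟩ := h
    obtain ⟨g', hg', h'⟩ := h'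
    exact ⟨g + g', add_mem hg hg', by rw [map_add, add_sub_add_comm]; exact add_mem h h'⟩
  | monomial e z =>
    rw [aeval_loc_monomial]
    by_cases h1 : s ≤ wt c e
    · exact ⟨0, zero_mem _, by
        rw [sub_zero]
        exact Ideal.mem_sup_right (Ideal.mul_mem_left _ _
          (ord_anti h1 (prod_loc_mem_ord hpt h0 hn e)))⟩
    by_cases h2 : e 0 = 0
    · refine ⟨C z * ∏ i, (X i - C (pt i)) ^ e i, ?_, ?_⟩
      · rw [← smul_eq_C_mul]
        refine Submodule.smul_mem _ _ (Vx_mono _ _ (not_le.1 h1).le ?_)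
        refine prod_mem_Vx' _ _ _ fun i _ => ?_
        by_cases hi : i = 0
        · rw [hi, h2]
          simpa using prod_mem_Vx (A := ℂ) (X : Fin (m + 1) → RR m) (W := W) (s := 0) (e := 0)
            (wt_zero W).le
        · have h3 : (X i - C (pt i) : RR m) ∈ Vx ℂ (X : Fin (m + 1) → RR m) W (c i) := by
            refine sub_mem (Deg.mem_Vx fun e he => ?_) (Deg.mem_Vx fun e he => ?_)
            · rw [support_X, mem_singleton] at he
              rw [he, wt_single, hW i hi]; simp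
            · rw [← monomial_zero'] at he
              rw [mem_singleton.1 (support_monomial_subset he), wt_zero]
              exact hc i
          have := prod_mem_Vx' (range (e i)) (fun _ => c i) (fun _ => X i - C (pt i))
            fun _ _ => h3
          simpa [mul_comm] using this
      · refine Ideal.mem_sup_left ?_
        rw [← mul_sub]
        refine p.mul_mem_left _ (Ideal.Quotient.eq.1 ?_)
        rw [map_prod, map_prod]
        refine prod_congr rfl fun i _ => ?_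
        by_cases hi : i = 0
        · rw [hi, h2, pow_zero, pow_zero]
        · rw [map_pow, map_pow]
          congr 1
          rw [Ideal.Quotient.eq, loc, if_neg hi, sub_sub_cancel_left]
          exact neg_mem (lt_mem _ hy)
    · refine ⟨0, zero_mem _, Ideal.mem_sup_left ?_⟩
      rw [sub_zero, Fin.prod_univ_succ, loc, if_pos rfl]
      exact p.mul_mem_left _ (p.mul_mem_right _ (p.pow_mem_of_mem hy _ (Nat.pos_of_ne_zero h2)))

theorem zero_main {c W : Fin (m + 1) → ℝ} (hcpos : ∀ i, 0 < c i) (hW : ∀ i, i ≠ 0 → W i = c i)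
    (hW0 : c 0 ≤ W 0) {η ρ ρ1 : ℝ} (hη : 0 < η) (hη1 : η ≤ 1)
    (hsep : ∀ i j, i < j → c i < η ^ (m + 1) * c j) (hρ1 : 0 < ρ1)
    (hρ : ρ1 + (m + 1) * η ≤ ρ) (hρ' : ρ ≤ 1) {K : ℕ} (pt : Fin K → Fin (m + 1) → ℂ)
    (hpt : ∀ k, pt k 0 = 1) (hinj : ∀ j, j ≠ 0 → ∀ k k', pt k j = pt k' j → k = k')
    {n : Fin (m + 1) → ℕ} (hn : ∀ j, c j ≤ (n j + 1) * c 0) {a : ℝ} (ha : 0 < a) {P : RR m}
    (hdeg : Deg W a P) (hord : ∀ k, P ∈ ord dd c (fun i => (hcpos i).le) (mx (pt k)) (ρ * a))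
    (hP : res P ≠ 0) : K * ρ1 ^ (m + 1) * W 0 ≤ c 0 := by
  have hc : ∀ i, 0 ≤ c i := fun i => (hcpos i).le
  have h0 : ∀ i, c 0 ≤ c i := by
    intro i
    rcases (Fin.zero_le i).eq_or_lt with h | h
    · rw [← h]
    · have h1 := hsep 0 i h
      have h2 : η ^ (m + 1) ≤ 1 := pow_le_one₀ hη.le hη1
      nlinarith [hcpos i]
  have hWpos : ∀ i, 0 < W i := fun i => by
    by_cases h : i = 0
    · rw [h]; exact (hcpos 0).trans_le hW0
    · rw [hW i h]; exact hcpos i
  have hP0 : P ≠ 0 := by rintro rfl; exact hP (map_zero _)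
  set 𝓓 : ℕ → Set (RR m) := fun i => {F | ∃ w, wcost c w ≤ i * (η * a) ∧ F = app dd w P}
    with h𝓓
  have hDmono : Monotone 𝓓 := by
    rintro i j hij F ⟨w, h1, h2⟩
    refine ⟨w, h1.trans ?_, h2⟩
    have : (i : ℝ) ≤ j := by exact_mod_cast hij
    gcongr
  have hDP : P ∈ 𝓓 0 := ⟨[], by simp, rfl⟩
  have hDdeg : ∀ i, ∀ F ∈ 𝓓 i, Deg W a F := by
    rintro i F ⟨w, _, rfl⟩
    exact Deg.app (fun i => (hWpos i).le) w hdeg
  have hgood := good_of_primes (A := ℂ) (Vx ℂ (X : Fin (m + 1) → RR m) W) (Vx_mono _ _)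
    (fun f => by
      obtain ⟨c, hc0, hc⟩ := exists_deg W f
      exact ⟨c, hc0, fun s x hx => mul_mem_Vx hc.mem_Vx hx⟩)
    (fun (k : Fin K) u => ord dd c hc (mx (pt k)) (ρ1 * a * u)) (fun _ => by simp [ord_zero]) a
    (fun p hp => by
      by_cases hall : ∀ F ∈ 𝓓 (m + 1), F ∈ p
      · left
        refine ⟨0, fun u => ?_⟩
        by_cases hk : ∃ k0, p ≤ mx (pt k0)
        · obtain ⟨k0, hk0⟩ := hk
          obtain ⟨i, _, q, hq, hq1, hq2⟩ := exists_persistent krull_RR
            (fun i => Ideal.span (𝓓 i)) (fun i j hij => Ideal.span_mono (hDmono hij))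
            (fun h => hP0 (by
              have := Ideal.subset_span (s := 𝓓 0) hDP
              rwa [h] at this)) hp (Ideal.span_le.2 hall)
          obtain ⟨hy, j, hj0, hj⟩ := struct_thm c W hcpos hW hW0 hη hη1 ha hsep hq (hDdeg i)
            (by
              rintro F ⟨w, h1, rfl⟩ w' hw'
              rw [← app_append]
              refine hq1 (Ideal.subset_span ⟨_, ?_, rfl⟩)
              rw [wcost_append]
              push_cast
              linarith) (hpt k0) (fun F hF => hk0 (hq2 hF))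
            (hq.1.2 (Ideal.subset_span (hDmono (Nat.zero_le i) hDP))) hP
          rw [sum_eq_single k0]
          · refine (single_point hW (hpt k0) h0 hn (hq2 hy) _).trans (hv_mono _ (Vx_mono _ _ ?_))
            have h1 : ρ1 ≤ 1 := by
              have : 0 ≤ ((m : ℝ) + 1) * η := by positivity
              linarith
            have h2 : 0 ≤ a * u := by positivity
            nlinarith
          · intro k _ hk
            refine sup_ord_eq_top (hcpos 0) h0 (hq2 hj) (fun h => hk ?_) _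
            rw [mem_mx] at h
            simp only [map_sub, eval_X, eval_C, sub_eq_zero] at h
            exact hinj j hj0 _ _ h
          · simp
        · push Not at hk
          rw [sum_eq_zero]
          · exact zero_le
          · intro k _
            obtain ⟨f, hf, hf'⟩ := SetLike.not_le_iff_exists.1 (hk k)
            exact sup_ord_eq_top (hcpos 0) h0 hf hf' _
      · right
        push Not at hall
        obtain ⟨F, hF, hFp⟩ := hall
        refine ⟨F, hFp, fun s x hx => mul_mem_Vx (hDdeg _ F hF).mem_Vx hx, fun k u x hx => ?_⟩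
        obtain ⟨w, h1, rfl⟩ := hF
        refine ord_anti ?_ (mul_mem_ord (app_mem_ord (hord k) w) hx)
        push_cast at h1 ⊢
        nlinarith) ⊥
  obtain ⟨c1, hc1⟩ := Good.bot_card (A := ℂ) (κ := Fin K) (R := RR m)
    (x := (X : Fin (m + 1) → RR m)) (W := W) hWpos
    (J := fun (k : Fin K) u => ord dd c hc (mx (pt k)) (ρ1 * a * u)) (a := a) hgood
  have h1 := vol_ineq W c hWpos hcpos (Fintype.card (Fin K)) (c := c1) (mul_pos hρ1 ha) ha.le
    (fun u S hS => hc1 u _ fun k =>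
      card_le_hq_ord' (A := ℂ) (d := dd) (c := c) (hc := hc) (mx_prime (pt k))
        (fun z hz => by simpa [mem_mx] using hz) id (indep_loc (hpt k)) (ρ1 * a * u) S hS)
  rw [Fintype.card_fin, Fintype.card_fin, Fin.prod_univ_succ, Fin.prod_univ_succ,
    prod_congr rfl fun (j : Fin m) _ => hW j.succ (Fin.succ_ne_zero j), mul_pow] at h1
  have h2 : 0 < a ^ (m + 1) * ∏ j : Fin m, c j.succ :=
    mul_pos (pow_pos ha _) (prod_pos fun j _ => hcpos _)
  refine le_of_mul_le_mul_right ?_ h2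
  calc _ = K * (ρ1 ^ (m + 1) * a ^ (m + 1)) * (W 0 * ∏ j : Fin m, c j.succ) := by ring
    _ ≤ _ := h1
    _ = _ := by ring

theorem zero_estimate {c W : Fin (m + 1) → ℝ} (hcpos : ∀ i, 0 < c i)
    (hW : ∀ i, i ≠ 0 → W i = c i) {η ρ ρ1 : ℝ} (hη : 0 < η) (hη1 : η ≤ 1)
    (hsep : ∀ i j, i < j → c i < η ^ (m + 1) * c j) (hρ1 : 0 < ρ1)
    (hρ : ρ1 + (m + 1) * η ≤ ρ) (hρ' : ρ ≤ 1) (hW0 : c 0 ≤ ρ * W 0) {K : ℕ}
    (pt : Fin K → Fin (m + 1) → ℂ)
    (hpt : ∀ k, pt k 0 = 1) (hinj : ∀ j, j ≠ 0 → ∀ k k', pt k j = pt k' j → k = k')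
    {n : Fin (m + 1) → ℕ} (hn : ∀ j, c j ≤ (n j + 1) * c 0)
    (hvol : c 0 < K * ρ1 ^ (m + 1) * W 0) {a : ℝ} {P : RR m} (hdeg : Deg W a P)
    (hord : ∀ k e, wt c e ≤ ρ * a → coeff e (Phi (pt k) n P) = 0) : P = 0 := by
  have hρ0 : 0 < ρ := by
    have : 0 ≤ ((m : ℝ) + 1) * η := by positivity
    linarith
  have hW00 : 0 < W 0 := (mul_pos_iff_of_pos_left hρ0).1 ((hcpos 0).trans_le hW0)
  have hW0' : c 0 ≤ W 0 := hW0.trans (by nlinarith)
  have hWpos : ∀ i, 0 < W i := fun i => by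
    by_cases h : i = 0
    · rw [h]; exact hW00
    · rw [hW i h]; exact hcpos i
  have h0 : ∀ i, c 0 ≤ c i := by
    intro i
    rcases (Fin.zero_le i).eq_or_lt with h | h
    · rw [← h]
    · have h1 := hsep 0 i h
      have h2 : η ^ (m + 1) ≤ 1 := pow_le_one₀ hη.le hη1
      nlinarith [hcpos i]
  have hK : 0 < K := by
    rcases Nat.eq_zero_or_pos K with rfl | h
    · simp at hvol; linarith [hcpos 0]
    · exact h
  obtain ⟨N, hN⟩ := exists_nat_gt (a / W 0)
  rw [div_lt_iff₀ hW00] at hN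
  induction N generalizing a P with
  | zero =>
    by_contra hP
    obtain ⟨e, he⟩ := support_nonempty.2 hP
    have := (wt_nonneg (fun i => (hWpos i).le) e).trans (hdeg e he)
    simp at hN; linarith
  | succ N ih =>
    by_cases hP : res P = 0
    · have h1 := sub_res_mem P
      rw [hP, sub_zero] at h1
      obtain ⟨Q, rfl⟩ := Ideal.mem_span_singleton.1 h1
      rw [ih (hdeg.of_mul hW00) (fun k e he => ?_) (by push_cast at hN; linarith), mul_zero]
      have := hord k (Finsupp.single 0 1 + e) (by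
        rw [wt_add, wt_single]; simp only [Nat.cast_one, mul_one]; nlinarith)
      have e1 : Phi (pt k) n (X 0 - 1) = X 0 := by simp [Phi]
      rwa [map_mul, e1, coeff_X_mul] at this
    · exfalso
      rcases lt_or_ge 0 a with ha | ha
      · have := zero_main hcpos hW hW0' hη hη1 hsep hρ1 hρ hρ' pt hpt hinj hn ha hdeg
          (fun k => mem_ord_of_coeff (hpt k) h0 hn (hord k)) hP
        linarith
      · have hP0 : P ≠ 0 := by rintro rfl; exact hP (map_zero _)
        have hsupp : ∀ e ∈ P.support, e = 0 := by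
          intro e he
          have h1 := (hdeg e he).trans ha
          ext i
          have h2 : W i * (e i : ℝ) ≤ wt W e := single_le_sum (f := fun i => W i * (e i : ℝ))
            (fun j _ => mul_nonneg (hWpos j).le (Nat.cast_nonneg _)) (mem_univ i)
          have h3 : (e i : ℝ) ≤ 0 := by
            by_contra h
            have := mul_pos (hWpos i) (not_le.1 h)
            linarith
          exact Nat.le_zero.1 (by exact_mod_cast h3)
        obtain ⟨e, he⟩ := support_nonempty.2 hP0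
        have ha0 : 0 ≤ a := by
          have := hdeg e he
          rwa [hsupp e he, wt_zero] at this
        have hC : P = C (coeff 0 P) := by
          ext e'
          rw [coeff_C]
          split_ifs with h
          · rw [← h]
          · by_contra h'
            exact h (hsupp e' (mem_support_iff.2 h')).symm
        have := hord ⟨0, hK⟩ 0 (by rw [wt_zero]; positivity)
        rw [hC, algHom_C, algebraMap_eq, coeff_zero_C] at this
        rw [this, C_0] at hC
        exact hP0 hC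

end Vale.Agent.P021
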