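import Vale.Agent.P021.Det
import Vale.Agent.P021.Zero

/-!
Coefficient extraction by discrete Fourier inversion and the arithmetic lower bound.
-/

namespace Vale.Agent.P021

open Finset MvPolynomial

theorem root_sum {M : ℕ} {ζ : ℂ} (hζ : IsPrimitiveRoot ζ M) {a e : ℕ} (ha : a < M) (he : e < M) :
    ∑ l : Fin M, (ζ ^ (l : ℕ)) ^ a / (ζ ^ (l : ℕ)) ^ e = if a = e then (M : ℂ) else 0 := by
  have hM : M ≠ 0 := by omega
  have hζ0 : ζ ≠ 0 := hζ.ne_zero hM
  have h1 : ∀ l : ℕ, (ζ ^ l) ^ a / (ζ ^ l) ^ e = (ζ ^ a / ζ ^ e) ^ l := fun l => by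
    rw [div_pow, pow_right_comm ζ l a, pow_right_comm ζ l e]
  simp only [h1]
  rw [Fin.sum_univ_eq_sum_range (fun l => (ζ ^ a / ζ ^ e) ^ l)]
  split_ifs with h
  · simp [h, hζ0]
  · rw [geom_sum_eq, ← h1, hζ.pow_eq_one]
    · simp
    · intro h'
      exact h (hζ.pow_inj ha he ((div_eq_one_iff_eq (pow_ne_zero _ hζ0)).1 h'))

section Fourier
variable {σ : Type} [Fintype σ] [DecidableEq σ]

theorem coeff_eq_fourier {M : ℕ} {ζ : ℂ} (hζ : IsPrimitiveRoot ζ M) (R : σ → ℂ)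
    (hR : ∀ i, R i ≠ 0) (G : MvPolynomial σ ℂ) (hG : ∀ a ∈ G.support, ∀ i, a i < M)
    (e : σ →₀ ℕ) (he : ∀ i, e i < M) :
    coeff e G = ∑ l : σ → Fin M, (∏ i, ((M : ℂ) * (R i * ζ ^ (l i : ℕ)) ^ e i)⁻¹) *
      eval (fun i => R i * ζ ^ (l i : ℕ)) G := by
  simp only [eval_eq', mul_sum]
  rw [sum_comm]
  have key : ∀ a ∈ G.support, ∑ l : σ → Fin M, (∏ i, ((M : ℂ) * (R i * ζ ^ (l i : ℕ)) ^ e i)⁻¹) *
      (coeff a G * ∏ i, (R i * ζ ^ (l i : ℕ)) ^ a i) = if a = e then coeff a G else 0 := by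
    intro a ha
    have h1 : ∀ l : σ → Fin M, (∏ i, ((M : ℂ) * (R i * ζ ^ (l i : ℕ)) ^ e i)⁻¹) *
        (coeff a G * ∏ i, (R i * ζ ^ (l i : ℕ)) ^ a i) = coeff a G *
        ∏ i, ((M : ℂ)⁻¹ * (R i ^ a i / R i ^ e i) *
          ((ζ ^ (l i : ℕ)) ^ a i / (ζ ^ (l i : ℕ)) ^ e i)) := by
      intro l
      rw [mul_left_comm, ← prod_mul_distrib]
      congr 1
      refine prod_congr rfl fun i _ => ?_
      rw [mul_pow, mul_pow, mul_inv, mul_inv]
      ring
    simp only [h1]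
    rw [← mul_sum, ← Fintype.piFinset_univ, ← prod_univ_sum (fun _ : σ => (univ : Finset (Fin M)))
      (fun i (l : Fin M) => (M : ℂ)⁻¹ * (R i ^ a i / R i ^ e i) *
          ((ζ ^ (l : ℕ)) ^ a i / (ζ ^ (l : ℕ)) ^ e i))]
    simp only [← mul_sum, root_sum hζ (hG a ha _) (he _)]
    split_ifs with h
    · rw [prod_eq_one, mul_one]
      intro i _
      have hM : (M : ℂ) ≠ 0 := Nat.cast_ne_zero.2 (by have := he i; omega)
      simp [h, hM, hR i]
    · obtain ⟨i, hi⟩ : ∃ i, a i ≠ e i := by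
        by_contra hcon
        push Not at hcon
        exact h (Finsupp.ext hcon)
      rw [prod_eq_zero (mem_univ i) (by simp [hi]), mul_zero]
  rw [sum_congr rfl key, sum_ite_eq']
  split_ifs with h
  · rfl
  · exact notMem_support_iff.1 h

theorem norm_det_coeff_le {ι : Type} [Fintype ι] [DecidableEq ι] (G : ι → ι → MvPolynomial σ ℂ)
    (e : ι → σ →₀ ℕ) (R : σ → ℝ) (hR : ∀ i, 0 < R i) {Y : ℝ}
    (h : ∀ x : ι → σ → ℂ, (∀ r i, ‖x r i‖ = R i) →
      ‖(Matrix.of fun r c => eval (x r) (G r c)).det‖ ≤ Y) :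
    ‖(Matrix.of fun r c => coeff (e r) (G r c)).det‖ ≤ Y * ∏ r, ∏ i, (R i ^ e r i)⁻¹ := by
  obtain ⟨M, hM0, hM1, hM2⟩ : ∃ M : ℕ, M ≠ 0 ∧ (∀ r c, ∀ a ∈ (G r c).support, ∀ i, a i < M) ∧
      ∀ r i, e r i < M := by
    refine ⟨(∑ r, ∑ c, (G r c).totalDegree) + (∑ r, ∑ i, e r i) + 1, by omega, ?_, ?_⟩
    · intro r c a ha i
      have h1 : a i ≤ (G r c).totalDegree :=
        (monomial_le_degreeOf i ha).trans (degreeOf_le_totalDegree _ _)
      have h2 : (G r c).totalDegree ≤ ∑ c, (G r c).totalDegree :=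
        single_le_sum (f := fun c => (G r c).totalDegree) (fun _ _ => Nat.zero_le _) (mem_univ c)
      have h3 : ∑ c, (G r c).totalDegree ≤ ∑ r, ∑ c, (G r c).totalDegree :=
        single_le_sum (f := fun r => ∑ c, (G r c).totalDegree) (fun _ _ => Nat.zero_le _)
          (mem_univ r)
      omega
    · intro r i
      have h2 : e r i ≤ ∑ i, e r i :=
        single_le_sum (f := fun i => e r i) (fun _ _ => Nat.zero_le _) (mem_univ i)
      have h3 : ∑ i, e r i ≤ ∑ r, ∑ i, e r i :=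
        single_le_sum (f := fun r => ∑ i, e r i) (fun _ _ => Nat.zero_le _) (mem_univ r)
      omega
  have hζ := Complex.isPrimitiveRoot_exp M hM0
  set ζ := Complex.exp (2 * Real.pi * Complex.I / M)
  have hζn : ‖ζ‖ = 1 := hζ.norm'_eq_one hM0
  have hR' : ∀ i, (R i : ℂ) ≠ 0 := fun i => Complex.ofReal_ne_zero.2 (hR i).ne'
  simp only [fun r c => coeff_eq_fourier hζ (fun i => (R i : ℂ)) hR' (G r c) (hM1 r c) (e r)
    (hM2 r)]
  refine (norm_det_expand_le _ _ (fun _ => ∏ _i : σ, (M : ℝ)⁻¹)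
    (Y := Y * ∏ r, ∏ i, (R i ^ e r i)⁻¹) fun f => ?_).trans (le_of_eq ?_)
  · have hn : ∀ r i, ‖(R i : ℂ) * ζ ^ (f r i : ℕ)‖ = R i := fun r i => by
      rw [norm_mul, norm_pow, hζn, one_pow, mul_one, Complex.norm_real, Real.norm_eq_abs,
        abs_of_pos (hR i)]
    have h1 := h (fun r i => (R i : ℂ) * ζ ^ (f r i : ℕ)) hn
    rw [norm_mul, mul_comm, mul_assoc]
    refine mul_le_mul h1 (le_of_eq ?_) (norm_nonneg _) ((norm_nonneg _).trans h1)
    rw [norm_prod, ← prod_mul_distrib]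
    refine prod_congr rfl fun r _ => ?_
    rw [norm_prod, ← prod_mul_distrib]
    refine prod_congr rfl fun i _ => ?_
    rw [norm_inv, norm_mul, norm_pow, hn, Complex.norm_natCast, mul_inv, mul_comm]
  · have hM : (M : ℝ) ≠ 0 := Nat.cast_ne_zero.2 hM0
    simp [hM]

omit [DecidableEq σ] in
theorem coeff_scale (Q : σ → ℂ) (G : MvPolynomial σ ℂ) (e : σ →₀ ℕ) :
    coeff e (aeval (fun i => C (Q i) * X i) G) = (∏ i, Q i ^ e i) * coeff e G := by
  classical
  induction G using MvPolynomial.induction_on' with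
  | add G G' h h' => rw [map_add, coeff_add, coeff_add, h, h', mul_add]
  | monomial a z =>
    have : aeval (fun i => C (Q i) * X i) (monomial a z) =
        (monomial a ((∏ i, Q i ^ a i) * z) : MvPolynomial σ ℂ) := by
      rw [aeval_monomial, monomial_eq, Finsupp.prod_fintype _ _ (by simp),
        Finsupp.prod_fintype _ _ (by simp)]
      simp only [mul_pow, prod_mul_distrib, map_mul, map_prod, map_pow, algebraMap_eq]
      ring
    rw [this, coeff_monomial, coeff_monomial]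
    split_ifs with h
    · rw [h]
    · simp

end Fourier

/-- the Gaussian integers -/
noncomputable def OO : Subring ℂ := GaussianInt.toComplex.range

theorem one_le_norm_of_mem {z : ℂ} (hz : z ∈ OO) (h0 : z ≠ 0) : 1 ≤ ‖z‖ := by
  obtain ⟨x, rfl⟩ := hz
  have h1 : 0 < x.norm := GaussianInt.norm_pos.2 (by rintro rfl; simp at h0)
  have h2 : (1 : ℝ) ≤ Complex.normSq (GaussianInt.toComplex x) := by
    rw [← GaussianInt.intCast_real_norm]; exact_mod_cast h1
  rw [Complex.normSq_eq_norm_sq] at h2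
  nlinarith [norm_nonneg (GaussianInt.toComplex x)]

theorem I_mem_OO : Complex.I ∈ OO := ⟨⟨0, 1⟩, by simp [GaussianInt.toComplex_def']⟩

theorem arith_lower {ι : Type} [Fintype ι] [DecidableEq ι] (M : ι → ι → ℂ) (u v : ι → ℝ)
    (hu : ∀ c, 0 ≤ u c) (hv : ∀ r, 0 < v r) (h : ∀ r c, ∃ o ∈ OO, u c * M r c = v r * o)
    (hu' : ∀ c, u c ≠ 0)
    (hdet : (Matrix.of M).det ≠ 0) : ∏ r, v r ≤ (∏ c, u c) * ‖(Matrix.of M).det‖ := by
  choose o ho ho' using h
  have h1 : (∏ c, (u c : ℂ)) * (Matrix.of M).det = (∏ r, (v r : ℂ)) * (Matrix.of o).det := by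
    rw [← Matrix.det_mul_row, ← Matrix.det_mul_column]
    congr 1
    ext r c
    exact ho' r c
  have h2 : (Matrix.of o).det ∈ OO := by
    rw [Matrix.det_apply']
    exact sum_mem fun σ _ => mul_mem (intCast_mem _ _) (prod_mem fun i _ => ho _ _)
  have h3 : (Matrix.of o).det ≠ 0 := by
    intro h
    rw [h, mul_zero] at h1
    exact hdet ((mul_eq_zero.1 h1).resolve_left
      (prod_ne_zero_iff.2 fun c _ => Complex.ofReal_ne_zero.2 (hu' c)))
  have h4 := one_le_norm_of_mem h2 h3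
  have h5 := congrArg norm h1
  rw [norm_mul, norm_mul, ← Complex.ofReal_prod, ← Complex.ofReal_prod, Complex.norm_real,
    Complex.norm_real, Real.norm_eq_abs, Real.norm_eq_abs,
    abs_of_nonneg (prod_nonneg fun c _ => hu c), abs_of_pos (prod_pos fun r _ => hv r)] at h5
  rw [h5]
  exact le_mul_of_one_le_right (prod_pos fun r _ => hv r).le h4

variable {m : ℕ}

theorem coeff_Phi_integral (pt : Fin (m + 1) → ℂ) (n : Fin (m + 1) → ℕ) (Q : Fin (m + 1) → ℂ)
    (hQ0 : Q 0 = 1) (hQ : ∀ j, j ≠ 0 → Q j * pt j ∈ OO)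
    (hQ' : ∀ j, j ≠ 0 → ∀ i ≤ n j, Q j / i ∈ OO) (a e : Fin (m + 1) →₀ ℕ) :
    ∃ o ∈ OO, (∏ i, Q i ^ a i) * coeff e (Phi pt n (monomial a 1)) = (∏ i, Q i ^ e i) * o := by
  set G : Fin (m + 1) → RR m := fun i =>
    if i = 0 then 1 + X 0 else C (Q i * pt i) + X i + C (Q i) * lt (n i + 1) (X 0) with hG
  set S := (MvPolynomial.map (σ := Fin (m + 1)) OO.subtype).range with hS
  have hC : ∀ z ∈ OO, (C z : RR m) ∈ S := fun z hz => ⟨C ⟨z, hz⟩, by simp⟩
  have hX : ∀ i, (X i : RR m) ∈ S := fun i => ⟨X i, by simp⟩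
  have hGS : ∀ i, G i ∈ S := by
    intro i
    simp only [hG]
    split_ifs with h
    · exact add_mem (one_mem _) (hX 0)
    · refine add_mem (add_mem (hC _ (hQ i h)) (hX i)) ?_
      rw [lt, mul_sum]
      refine sum_mem fun l hl => ?_
      rw [← mul_assoc, algebraMap_eq, ← C_mul]
      refine mul_mem (hC _ ?_) (pow_mem (hX 0) _)
      rw [mul_div_left_comm]
      exact mul_mem (pow_mem (neg_mem (one_mem _)) _)
        (hQ' i h l (Nat.lt_succ_iff.1 (mem_range.1 hl)))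
  obtain ⟨H, hH⟩ : ∏ i, G i ^ a i ∈ S := prod_mem fun i _ => pow_mem (hGS i) _
  refine ⟨coeff e (∏ i, G i ^ a i), by rw [← hH, coeff_map]; exact (coeff e H).2, ?_⟩
  rw [← coeff_scale, ← coeff_C_mul]
  congr 1
  rw [Phi, aeval_monomial, Finsupp.prod_fintype _ _ (by simp), map_one, one_mul, map_prod,
    map_prod, ← prod_mul_distrib]
  refine prod_congr rfl fun i _ => ?_
  rw [map_pow, map_pow, ← mul_pow]
  congr 1
  simp only [hG]
  split_ifs with h
  · simp [h, hQ0]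
  · simp [map_lt, hQ0]
    ring

theorem lt_eq_logTaylor (n : ℕ) (z : ℂ) : lt n z = Complex.logTaylor n z := by
  simp only [lt, Complex.logTaylor, Algebra.algebraMap_self, RingHom.id_apply]
  exact sum_congr rfl fun i _ => by ring

theorem eval_Phi_monomial (pt : Fin (m + 1) → ℂ) (n : Fin (m + 1) → ℕ) (a : Fin (m + 1) →₀ ℕ)
    (x : Fin (m + 1) → ℂ) : eval x (Phi pt n (monomial a 1)) = (1 + x 0) ^ a 0 *
      ∏ j : Fin m, (pt j.succ + x j.succ + Complex.logTaylor (n j.succ + 1) (x 0)) ^ a j.succ := by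
  rw [Phi, aeval_monomial, Finsupp.prod_fintype _ _ (by simp), map_one, one_mul, map_prod,
    Fin.prod_univ_succ]
  have : ∀ k, eval x (lt k (X 0 : RR m)) = Complex.logTaylor k (x 0) := fun k => by
    rw [← lt_eq_logTaylor, ← coe_aeval_eq_eval]
    exact (map_lt (aeval x) k (X 0)).trans (by simp)
  simp [this]

end Vale.Agent.P021
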