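import Vale.Agent.P021.Arith

/-!
The interpolation determinant: combination of the zero estimate with the upper and lower bounds.
-/

namespace Vale.Agent.P021

open Finset MvPolynomial

variable {m : ℕ}

theorem cons_pos {a : ℝ} {L : Fin m → ℝ} (ha : 0 < a) (hL : ∀ j, 0 < L j) (i : Fin (m + 1)) :
    0 < (Fin.cons a L : Fin (m + 1) → ℝ) i := by
  refine Fin.cases ?_ (fun j => ?_) i
  · simpa using ha
  · simpa using hL j

theorem wt_cons (a : ℝ) (L : Fin m → ℝ) (e : Fin (m + 1) →₀ ℕ) :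
    wt (Fin.cons a L : Fin (m + 1) → ℝ) e = a * e 0 + ∑ j, L j * e j.succ := by
  simp [wt, Fin.sum_univ_succ]

theorem exists_nonzero_minor {c W : Fin (m + 1) → ℝ} (hc : ∀ i, 0 < c i) (hW : ∀ i, 0 < W i)
    {K : ℕ} (pt : Fin K → Fin (m + 1) → ℂ) (n : Fin (m + 1) → ℕ) (D b : ℝ)
    (h : ∀ P : RR m, Deg W D P → (∀ k e, wt c e ≤ b → coeff e (Phi (pt k) n P) = 0) → P = 0) :
    ∃ (k : simplex W hW D → Fin K) (e : simplex W hW D → Fin (m + 1) →₀ ℕ),
      (∀ r, wt c (e r) ≤ b) ∧ (Matrix.of fun (r a : simplex W hW D) =>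
        coeff (e r) (Phi (pt (k r)) n (monomial a.1 1))).det ≠ 0 := by
  obtain ⟨f, hf⟩ := exists_rows (ι := simplex W hW D) (P := Fin K × simplex c hc b)
    (fun p a => coeff p.2.1 (Phi (pt p.1) n (monomial a.1 1))) (fun v hv => by
      have h1 := h (∑ a : simplex W hW D, v a • monomial a.1 1) (fun e he => by
          obtain ⟨a, _, ha⟩ := mem_biUnion.1 (support_sum he)
          rw [mem_singleton.1 (support_monomial_subset (support_smul ha))]
          exact mem_simplex.1 a.2)
        (fun k e he => by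
          rw [map_sum, coeff_sum, ← hv (k, ⟨e, mem_simplex.2 he⟩)]
          exact sum_congr rfl fun a _ => by rw [map_smul, coeff_smul, smul_eq_mul, mul_comm])
      ext a
      have h2 := congrArg (coeff a.1) h1
      rw [coeff_sum, sum_eq_single a] at h2
      · simpa using h2
      · intro a' _ ha'
        rw [coeff_smul, coeff_monomial, if_neg (fun h => ha' (Subtype.ext h)), smul_zero]
      · simp)
  exact ⟨fun r => (f r).1, fun r => (f r).2.1, fun r => mem_simplex.1 (f r).2.2, hf⟩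

/-- the algebraic points -/
noncomputable def ptk (p : Fin m → ℤ) (q : Fin m → ℕ) (k : ℕ) : Fin (m + 1) → ℂ :=
  Fin.cons 1 fun j => k * (2 * Complex.I * (p j / q j))

theorem eval_bound {ι : Type} [Fintype ι] [DecidableEq ι] (p : Fin m → ℤ) (q : Fin m → ℕ)
    (n : Fin (m + 1) → ℕ) {K : ℕ} (k : ι → Fin K) (a : ι → Fin (m + 1) →₀ ℕ) (A : ℕ)
    (ha : ∀ c, ∑ j : Fin m, a c j.succ ≤ A) {B : ℝ} (hb : ∀ c, (a c 0 : ℝ) ≤ B)
    (g : Fin (m + 1) → ℝ) (hg : ∀ i, 0 < g i) (hg0 : g 0 = 1) {κ : ℝ} (hκ : 1 ≤ κ)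
    (happ : ∀ j, |Real.pi - p j / q j| ≤ Real.exp (-g j.succ))
    (hn : ∀ j : Fin m, g j.succ ≤ κ * n j.succ) {G : ℝ} (hG : 0 ≤ G)
    (x : ι → Fin (m + 1) → ℂ) (hx0 : ∀ r, ‖x r 0‖ = Real.exp (-κ))
    (hx : ∀ r (j : Fin m), ‖x r j.succ‖ = Real.exp (-g j.succ)) :
    ‖(Matrix.of fun r c => eval (x r) (Phi (ptk p q (k r)) n (monomial (a c) 1))).det‖ ≤
      (Fintype.card ι).factorial *
        Real.exp (-(G * (Fintype.card ι - (simplex g hg G).card))) *
        ((2 * K + 3) ^ (m * A) * (12 * (8 * K + 1)) ^ A * Real.exp (B * (6 * (8 * K + 1))) *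
          (2 * (A + 1) ^ m)) ^ Fintype.card ι := by
  have hϱ : Real.exp (-κ) ≤ 1 / 2 := by
    have h1 : Real.exp (-κ) ≤ Real.exp (-1) := by gcongr
    have h2 := Real.exp_neg_one_lt_half
    linarith
  have hK0 : (0 : ℝ) ≤ K := Nat.cast_nonneg K
  set z : ι → ℂ := fun r => (k r : ℕ) * (2 * Real.pi * Complex.I) + Complex.log (1 + x r 0)
    with hz
  have h1x : ∀ r, 1 + x r 0 ≠ 0 := by
    intro r h
    have : x r 0 = -1 := by linear_combination h
    have h2 := hx0 r
    rw [this, norm_neg, norm_one] at h2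
    linarith
  have hk : ∀ r, ((k r : ℕ) : ℝ) ≤ K := fun r => by exact_mod_cast (k r).2.le
  have := analytic_bound A (fun c j => a c j.succ) ha (fun c => (a c 0 : ℝ))
    (fun c => Nat.cast_nonneg _) hb z
    (fun r j => ptk p q (k r) j.succ + x r j.succ +
      Complex.logTaylor (n j.succ + 1) (x r 0) - z r) (ρ0 := 8 * K + 1) (E := 2 * K + 3)
    (by linarith) (by linarith) g hg hg0 (fun r => by
      refine (norm_add_le _ _).trans (add_le_add ?_ ?_)
      · rw [norm_mul, norm_mul, norm_mul, Complex.norm_natCast, Complex.norm_I, Complex.norm_real,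
          Real.norm_eq_abs, abs_of_pos Real.pi_pos, Complex.norm_ofNat]
        have := Real.pi_le_four
        have := hk r
        have := Real.pi_pos
        nlinarith
      · have := Complex.norm_log_one_add_half_le_self (z := x r 0) (by rw [hx0]; exact hϱ)
        rw [hx0] at this
        linarith)
    (fun r j => by
      have e1 : ptk p q (k r) j.succ + x r j.succ +
          Complex.logTaylor (n j.succ + 1) (x r 0) - z r =
          x r j.succ - (k r : ℕ) * (2 * Complex.I * ((Real.pi - p j / q j : ℝ) : ℂ)) -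
            (Complex.log (1 + x r 0) - Complex.logTaylor (n j.succ + 1) (x r 0)) := by
        simp only [ptk, hz, Fin.cons_succ]
        push_cast
        ring
      rw [e1]
      refine (norm_sub_le _ _).trans ((add_le_add (norm_sub_le _ _) le_rfl).trans ?_)
      have h2 := Complex.norm_log_sub_logTaylor_le (n j.succ) (z := x r 0)
        (by rw [hx0]; linarith)
      rw [hx0] at h2
      have h3 : Real.exp (-κ) ^ (n j.succ + 1) ≤ Real.exp (-g j.succ) := by
        rw [← Real.exp_nat_mul]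
        gcongr
        have := hn j
        push_cast
        nlinarith
      have h4 : (1 - Real.exp (-κ))⁻¹ ≤ 2 := by
        rw [inv_le_comm₀ (by linarith) (by norm_num)]; linarith
      have h5 : Real.exp (-κ) ^ (n j.succ + 1) * (1 - Real.exp (-κ))⁻¹ / (n j.succ + 1) ≤
          Real.exp (-g j.succ) * 2 := by
        refine (div_le_self (mul_nonneg (by positivity) (inv_nonneg.2 (by linarith)))
          (by linarith [(Nat.cast_nonneg (n j.succ) : (0 : ℝ) ≤ _)])).trans ?_
        exact mul_le_mul h3 h4 (inv_nonneg.2 (by linarith)) (by positivity)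
      rw [hx, norm_mul, norm_mul, norm_mul, Complex.norm_natCast, Complex.norm_I,
        Complex.norm_real, Real.norm_eq_abs, Complex.norm_ofNat]
      have h6 : ((k r : ℕ) : ℝ) * (2 * 1 * |Real.pi - p j / q j|) ≤
          K * (2 * 1 * Real.exp (-g j.succ)) := by
        have := happ j
        have := hk r
        gcongr
      nlinarith) hG
  convert this using 4 with r c
  ext r c
  rw [eval_Phi_monomial]
  congr 1
  · rw [Complex.ofReal_natCast, Complex.exp_nat_mul, hz, Complex.exp_add,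
      Complex.exp_nat_mul_two_pi_mul_I, one_mul, Complex.exp_log (h1x r)]
  · exact prod_congr rfl fun j _ => by rw [add_sub_cancel]

theorem core_ineq {ν κ ω lam ρ ρ1 η η1 ℓ D G : ℝ} {K : ℕ} (p : Fin m → ℤ) (q : Fin m → ℕ)
    (hν : 1 ≤ ν) (hκ : 1 ≤ κ) (hω : 0 < ω) (hκω : κ ≤ ν * ω) (hη : 0 < η) (hη1 : η ≤ 1)
    (hρ1 : 0 < ρ1) (hρ : ρ1 + (m + 1) * η ≤ ρ) (hρ' : ρ ≤ 1) (hlam : ω ≤ ρ * lam)
    (hlam0 : 0 < lam) (hvol : ω < K * ρ1 ^ (m + 1) * lam) (hℓ : 0 < ℓ)
    (hL : ∀ j, ℓ ≤ Real.log (q j)) (hL0 : ∀ j, 0 < Real.log (q j))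
    (hsep0 : ∀ j, ω < η ^ (m + 1) * Real.log (q j))
    (hsep : ∀ i j, i < j → Real.log (q i) < η ^ (m + 1) * Real.log (q j))
    (happ : ∀ j, |Real.pi - p j / q j| ≤ Real.exp (-(ν * Real.log (q j))))
    (hden : ∀ j, 6 * (ν * Real.log (q j) / κ + 1) ≤ η1 * Real.log (q j)) (hη10 : 0 ≤ η1)
    (hD : 0 ≤ D) (hG : 0 ≤ G) {N NG A : ℕ}
    (hN : N = (simplex (Fin.cons lam fun j => Real.log (q j)) (cons_pos hlam0 hL0) D).card)
    (hNG : NG = (simplex (Fin.cons 1 fun j => ν * Real.log (q j))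
      (cons_pos one_pos fun j => mul_pos (by linarith) (hL0 j)) G).card)
    (hA : A = ⌊D / ℓ⌋₊) :
    Real.exp (G * (N - NG)) ≤ (Real.exp ((1 + η1 + κ / ω + (ν - 1) * ρ) * D) * N *
      ((2 * K + 3) ^ (m * A) * (12 * (8 * K + 1)) ^ A * Real.exp (D / lam * (6 * (8 * K + 1))) *
          (2 * (A + 1) ^ m))) ^ N := by
  set L : Fin m → ℝ := fun j => Real.log (q j) with hLdef
  set c : Fin (m + 1) → ℝ := Fin.cons ω L with hc
  set W : Fin (m + 1) → ℝ := Fin.cons lam L with hW
  set g : Fin (m + 1) → ℝ := Fin.cons 1 fun j => ν * L j with hg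
  set n : Fin (m + 1) → ℕ := Fin.cons 0 fun j => ⌈ν * L j / κ⌉₊ with hn
  have hcpos : ∀ i, 0 < c i := cons_pos hω hL0
  have hWpos : ∀ i, 0 < W i := cons_pos hlam0 hL0
  have hgpos : ∀ i, 0 < g i := cons_pos one_pos fun j => mul_pos (by linarith) (hL0 j)
  have hκ0 : 0 < κ := by linarith
  have hρ0 : 0 < ρ := by
    have : 0 ≤ ((m : ℝ) + 1) * η := by positivity
    linarith
  have hq0 : ∀ j, 0 < q j := fun j => Nat.pos_of_ne_zero fun h => by simpa [hLdef, h] using hL0 j
  have hq0' : ∀ j, (0 : ℝ) < q j := fun j => by exact_mod_cast hq0 j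
  have hp0 : ∀ j, p j ≠ 0 := by
    intro j h
    have h1 := happ j
    rw [h, Int.cast_zero, zero_div, sub_zero, abs_of_pos Real.pi_pos] at h1
    have h2 : Real.exp (-(ν * Real.log (q j))) ≤ 1 :=
      Real.exp_le_one_iff.2 (neg_nonpos.2 (mul_nonneg (by linarith) (hL0 j).le))
    linarith [Real.pi_gt_three]
  have hng : ∀ j : Fin m, g j.succ ≤ κ * n j.succ := fun j => by
    simp only [hg, hn, Fin.cons_succ]
    rw [mul_comm κ, ← div_le_iff₀ hκ0]
    exact Nat.le_ceil _
  obtain ⟨k, e, he, hdet⟩ := exists_nonzero_minor hcpos hWpos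
    (fun k : Fin K => ptk p q k) n D (ρ * D) (fun P hP hP' =>
      zero_estimate hcpos (fun i => Fin.cases (fun h => absurd rfl h) (fun j _ => rfl) i) hη hη1
        (fun i j hij => by
          obtain ⟨j, rfl⟩ := Fin.exists_succ_eq.2 (lt_of_le_of_lt (Fin.zero_le i) hij).ne'
          refine Fin.cases (fun _ => hsep0 j) (fun i h => hsep i j (Fin.succ_lt_succ_iff.1 h)) i hij)
        hρ1 hρ hρ' hlam _ (fun k => rfl) (fun j hj k k' h => by
          obtain ⟨j, rfl⟩ := Fin.exists_succ_eq.2 hj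
          simp only [ptk, Fin.cons_succ] at h
          have h1 : (2 * Complex.I * (p j / q j) : ℂ) ≠ 0 :=
            mul_ne_zero (mul_ne_zero two_ne_zero Complex.I_ne_zero)
              (div_ne_zero (Int.cast_ne_zero.2 (hp0 j)) (Nat.cast_ne_zero.2 (hq0 j).ne'))
          exact Fin.ext (Nat.cast_injective (mul_right_cancel₀ h1 h)))
        (fun i => Fin.cases (by simp [hn]) (fun j => by
          have h1 := hng j
          simp only [hg, Fin.cons_succ] at h1
          change L j ≤ (n j.succ + 1) * ω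
          have h2 : (0 : ℝ) ≤ n j.succ := Nat.cast_nonneg _
          have h3 : ν * L j ≤ ν * (n j.succ * ω) := by nlinarith
          have h4 := le_of_mul_le_mul_left h3 (by linarith)
          nlinarith) i) hvol hP hP')
  have hcard : Fintype.card (simplex W hWpos D) = N := by rw [hN, Fintype.card_coe]
  set Q : Fin (m + 1) → ℕ := Fin.cons 1 fun j => q j * Nat.lcmUpto (n j.succ) with hQ
  have hQl : ∀ j : Fin m, Real.exp (L j) ≤ Q j.succ := fun j => by
    simp only [hQ, hLdef, Fin.cons_succ]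
    rw [Real.exp_log (hq0' j)]
    exact_mod_cast Nat.le_mul_of_pos_right _ (Nat.lcmUpto_pos _)
  have hQu : ∀ j : Fin m, (Q j.succ : ℝ) ≤ Real.exp ((1 + η1) * L j) := fun j => by
    simp only [hQ, Fin.cons_succ]
    have h1 := Chebyshev.psi_le_const_mul_self (x := (n j.succ : ℝ)) (Nat.cast_nonneg _)
    rw [Chebyshev.psi_eq_log_lcmUpto] at h1
    have h2 : Real.log 4 ≤ 2 := by
      rw [show (4 : ℝ) = 2 ^ 2 by norm_num, Real.log_pow]
      have := Real.log_two_lt_d9
      push_cast; linarith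
    have h3 : (n j.succ : ℝ) ≤ ν * L j / κ + 1 := by
      simp only [hn, Fin.cons_succ]
      exact (Nat.ceil_lt_add_one (by have := hL0 j; positivity)).le
    have h4 := hden j
    have h5 : (0 : ℝ) ≤ n j.succ := Nat.cast_nonneg _
    rw [add_mul, one_mul, Real.exp_add, Real.exp_log (hq0' j)]
    push_cast
    gcongr
    rw [← Real.log_le_iff_le_exp (by exact_mod_cast Nat.lcmUpto_pos _)]
    nlinarith
  have hQpos : ∀ i, (0 : ℝ) < Q i := fun i => Fin.cases (by simp [hQ])
    (fun j => (Real.exp_pos _).trans_le (hQl j)) i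
  have hlow := arith_lower (fun (r a : simplex W hWpos D) =>
      coeff (e r) (Phi (ptk p q (k r)) n (monomial a.1 1)))
    (fun a => ∏ i, (Q i : ℝ) ^ a.1 i) (fun r => ∏ i, (Q i : ℝ) ^ e r i)
    (fun a => by positivity) (fun r => prod_pos fun i _ => pow_pos (hQpos i) _)
    (fun r a => by
      have := coeff_Phi_integral (ptk p q (k r)) n (fun i => (Q i : ℂ)) (by simp [hQ])
        (fun j hj => by
          obtain ⟨j, rfl⟩ := Fin.exists_succ_eq.2 hj
          have : ((Q j.succ : ℕ) : ℂ) * ptk p q (k r) j.succ =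
              ((Nat.lcmUpto (n j.succ) * (k r : ℕ) * 2 * p j : ℤ) : ℂ) * Complex.I := by
            have : (q j : ℂ) ≠ 0 := Nat.cast_ne_zero.2 (hq0 j).ne'
            simp only [hQ, ptk, Fin.cons_succ]
            push_cast
            field_simp
          rw [this]
          exact mul_mem (intCast_mem _ _) I_mem_OO)
        (fun j hj i hi => by
          obtain ⟨j, rfl⟩ := Fin.exists_succ_eq.2 hj
          rcases Nat.eq_zero_or_pos i with rfl | hi0
          · simp
          obtain ⟨t, ht⟩ : i ∣ Nat.lcmUpto (n j.succ) :=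
            Finset.dvd_lcm (f := id) (mem_Icc.2 ⟨hi0, hi⟩)
          have : ((Q j.succ : ℕ) : ℂ) / i = ((q j * t : ℕ) : ℂ) := by
            have : (i : ℂ) ≠ 0 := Nat.cast_ne_zero.2 hi0.ne'
            simp only [hQ, Fin.cons_succ, ht]
            push_cast
            field_simp
          rw [this]
          exact natCast_mem _ _) a.1 (e r)
      simpa using this)
    (fun a => (prod_pos fun i _ => pow_pos (hQpos i) _).ne') hdet
  have hcol : ∀ a : simplex W hWpos D, lam * a.1 0 + ∑ j, L j * a.1 j.succ ≤ D := fun a => by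
    have := mem_simplex.1 a.2
    rwa [wt_cons] at this
  have hsum0 : ∀ e : Fin (m + 1) →₀ ℕ, 0 ≤ ∑ j, L j * e j.succ := fun e =>
    sum_nonneg fun j _ => mul_nonneg (hL0 j).le (Nat.cast_nonneg _)
  have hup := norm_det_coeff_le (fun (r a : simplex W hWpos D) =>
      Phi (ptk p q (k r)) n (monomial a.1 1)) e
    (Fin.cons (Real.exp (-κ)) fun j => Real.exp (-g j.succ))
    (cons_pos (Real.exp_pos _) fun j => Real.exp_pos _) (fun x hx =>
      eval_bound p q n k (fun a => a.1) A (fun a => by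
          rw [hA]
          apply Nat.le_floor
          rw [le_div_iff₀ hℓ, Nat.cast_sum, sum_mul]
          have h1 := hcol a
          have h2 : 0 ≤ lam * a.1 0 := by positivity
          refine le_trans (sum_le_sum fun j _ => ?_) (by linarith : ∑ j, L j * a.1 j.succ ≤ D)
          rw [mul_comm]
          exact mul_le_mul_of_nonneg_right (hL j) (Nat.cast_nonneg _))
        (B := D / lam) (fun a => by
          rw [le_div_iff₀ hlam0]
          linarith [hcol a, hsum0 a.1]) g hgpos rfl hκ happ hng hG x (fun r => hx r 0)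
        (fun r j => hx r j.succ))
  rw [hcard, ← hNG] at hup
  set Γ := ((2 * K + 3) ^ (m * A) * (12 * (8 * K + 1)) ^ A *
    Real.exp (D / lam * (6 * (8 * K + 1))) * (2 * (A + 1) ^ m) : ℝ) with hΓ
  have hΓ0 : 0 < Γ := by positivity
  have h1 : ∀ a : simplex W hWpos D, ∏ i, (Q i : ℝ) ^ a.1 i ≤ Real.exp ((1 + η1) * D) := by
    intro a
    rw [Fin.prod_univ_succ]
    have e0 : (Q 0 : ℝ) = 1 := by simp [hQ]
    rw [e0, one_pow, one_mul]
    refine (prod_le_prod (fun j _ => by positivity) fun j _ =>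
      pow_le_pow_left₀ (hQpos _).le (hQu j) _).trans ?_
    simp only [← Real.exp_nat_mul]
    rw [← Real.exp_sum]
    gcongr
    have h2 : 0 ≤ lam * a.1 0 := by positivity
    calc _ = (1 + η1) * ∑ j, L j * a.1 j.succ := by
          rw [mul_sum]; exact sum_congr rfl fun j _ => by ring
      _ ≤ _ := by gcongr; linarith [hcol a]
  have h2 : ∀ r, ∏ i, ((Fin.cons (Real.exp (-κ)) fun j => Real.exp (-g j.succ) :
      Fin (m + 1) → ℝ) i ^ e r i)⁻¹ ≤
      Real.exp ((κ / ω + (ν - 1) * ρ) * D) * ∏ i, (Q i : ℝ) ^ e r i := by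
    intro r
    have h3 := he r
    rw [wt_cons] at h3
    have h4 : Real.exp (∑ j, L j * e r j.succ) ≤ ∏ i, (Q i : ℝ) ^ e r i := by
      rw [Fin.prod_univ_succ]
      have e0 : (Q 0 : ℝ) = 1 := by simp [hQ]
      rw [e0, one_pow, one_mul, Real.exp_sum]
      refine prod_le_prod (fun j _ => by positivity) fun j _ => ?_
      rw [mul_comm, Real.exp_nat_mul]
      exact pow_le_pow_left₀ (by positivity) (hQl j) _
    refine le_trans ?_ (mul_le_mul_of_nonneg_left h4 (by positivity))
    rw [Fin.prod_univ_succ]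
    simp only [Fin.cons_zero, Fin.cons_succ, hg, ← Real.exp_nat_mul, ← Real.exp_neg]
    rw [← Real.exp_sum, ← Real.exp_add, ← Real.exp_add, Real.exp_le_exp]
    have h5 : ∑ j, -((e r j.succ : ℝ) * -(ν * L j)) = ν * ∑ j, L j * e r j.succ := by
      rw [mul_sum]; exact sum_congr rfl fun j _ => by ring
    rw [h5]
    have h6 := hsum0 (e r)
    have h7 : (e r 0 : ℝ) ≤ D / ω := by
      rw [le_div_iff₀ hω]; nlinarith
    have h8 : ∑ j, L j * e r j.succ ≤ ρ * D := by
      have : 0 ≤ ω * e r 0 := by positivity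
      linarith
    have h9 : (ν - 1) * ∑ j, L j * e r j.succ ≤ (ν - 1) * (ρ * D) := by gcongr
    have h10 : κ * (e r 0 : ℝ) ≤ κ * (D / ω) := by gcongr
    have e1 : (κ / ω + (ν - 1) * ρ) * D = κ * (D / ω) + (ν - 1) * (ρ * D) := by ring
    rw [e1]
    linarith
  have h3 := prod_le_prod (s := univ) (fun a _ => by positivity) fun a _ => h1 a
  have h4 := prod_le_prod (s := univ) (fun r _ => prod_nonneg fun i _ => inv_nonneg.2
    (pow_nonneg (cons_pos (Real.exp_pos _) (fun j => Real.exp_pos _) i).le _)) fun r _ => h2 r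
  rw [prod_const, card_univ, hcard] at h3
  rw [prod_mul_distrib, prod_const, card_univ, hcard] at h4
  have hv : 0 < ∏ r, ∏ i, (Q i : ℝ) ^ e r i :=
    prod_pos fun r _ => prod_pos fun i _ => pow_pos (hQpos i) _
  generalize ∏ r, ∏ i, (Q i : ℝ) ^ e r i = V at hlow h4 hv
  have h5 : (N.factorial : ℝ) ≤ N ^ N := by exact_mod_cast Nat.factorial_le_pow N
  have h6 : V ≤ Real.exp ((1 + η1) * D) ^ N * ((N : ℝ) ^ N * Real.exp (-(G * (N - NG))) * Γ ^ N *
      (Real.exp ((κ / ω + (ν - 1) * ρ) * D) ^ N * V)) := by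
    refine hlow.trans (mul_le_mul h3 (hup.trans ?_) (norm_nonneg _) (by positivity))
    refine mul_le_mul ?_ h4 (prod_nonneg fun r _ => prod_nonneg fun i _ => inv_nonneg.2
      (pow_nonneg (cons_pos (Real.exp_pos _) (fun j => Real.exp_pos _) i).le _)) (by positivity)
    gcongr
  have e1 : (1 + η1 + κ / ω + (ν - 1) * ρ) * D = (1 + η1) * D + (κ / ω + (ν - 1) * ρ) * D := by
    ring
  rw [e1, Real.exp_add, mul_pow, mul_pow, mul_pow]
  rw [Real.exp_neg] at h6
  have hE := Real.exp_pos (G * (N - NG))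
  refine le_of_mul_le_mul_right ?_ (mul_pos (inv_pos.2 hE) hv)
  rw [← mul_assoc, mul_inv_cancel₀ hE.ne', one_mul]
  refine h6.trans (le_of_eq ?_)
  ring

end Vale.Agent.P021
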