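import Mathlib

namespace Vale.Agent.P021

/-- The pairs `(p, q)` of coprime integers with `q ≥ 2` and `0 < |x - p/q| < q^(-ν)`. -/
def approxPairs (x ν : ℝ) : Set (ℤ × ℤ) :=
  {a | IsCoprime a.1 a.2 ∧ 2 ≤ a.2 ∧ 0 < |x - (a.1 : ℝ) / (a.2 : ℝ)| ∧
    |x - (a.1 : ℝ) / (a.2 : ℝ)| < (a.2 : ℝ) ^ (-ν)}

/-- The exponents `ν > 0` for which there are infinitely many such pairs. -/
def exponentSet (x : ℝ) : Set ℝ := {ν | 0 < ν ∧ (approxPairs x ν).Infinite}

/-- The irrationality exponent: the supremum of `exponentSet x`, taken in the extended reals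
(so that it is `⊤` when the set is unbounded). -/
noncomputable def irrationalityExponent (x : ℝ) : EReal :=
  sSup ((fun ν : ℝ => (ν : EReal)) '' exponentSet x)

end Vale.Agent.P021
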