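import Vale.Agent.P021.Simplex

/-!
Determinant expansions and the analytic upper bound.
-/

namespace Vale.Agent.P021

open Finset

section Expand
variable {ι : Type} [Fintype ι] [DecidableEq ι]

theorem det_expand {P : Type} [Fintype P] (C : ι → P → ℂ) (G : ι → P → ι → ℂ) :
    (Matrix.of fun r c => ∑ p, C r p * G r p c).det =
      ∑ f : ι → P, (∏ r, C r (f r)) * (Matrix.of fun r c => G r (f r) c).det := by
  have h1 := (Matrix.detRowAlternating (n := ι) (R := ℂ)).toMultilinearMap.map_sum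
    (fun r p => C r p • G r p)
  have h2 : (Matrix.of fun r c => ∑ p, C r p * G r p c) = fun r => ∑ p, C r p • G r p := by
    ext r c
    simp [Finset.sum_apply]
  rw [h2]
  refine h1.trans (sum_congr rfl fun f _ => ?_)
  exact (Matrix.detRowAlternating (n := ι) (R := ℂ)).toMultilinearMap.map_smul_univ
    (fun r => C r (f r)) (fun r => G r (f r))

theorem exists_rows {P : Type} [Fintype P] (M : P → ι → ℂ)
    (h : ∀ v : ι → ℂ, (∀ p, ∑ c, M p c * v c = 0) → v = 0) :
    ∃ f : ι → P, (Matrix.of fun r c => M (f r) c).det ≠ 0 := by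
  classical
  obtain ⟨g, hg⟩ := LinearMap.exists_leftInverse_of_injective (Matrix.of M).mulVecLin
    (LinearMap.ker_eq_bot'.2 fun v hv => h v fun p => congrFun hv p)
  have h1 : LinearMap.toMatrix' g * Matrix.of M = 1 := by
    have := congrArg LinearMap.toMatrix' hg
    rwa [LinearMap.toMatrix'_comp, LinearMap.toMatrix'_id, ← Matrix.toLin'_apply',
      LinearMap.toMatrix'_toLin'] at this
  have h2 := det_expand (fun r p => LinearMap.toMatrix' g r p) (fun _ p c => M p c)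
  have h3 : (Matrix.of fun r c => ∑ p, LinearMap.toMatrix' g r p * M p c) = 1 := h1
  rw [h3, Matrix.det_one] at h2
  by_contra hcon
  push Not at hcon
  simp [hcon] at h2

theorem norm_det_le (M : ι → ι → ℂ) (b : ι → ℝ) (h : ∀ r c, ‖M r c‖ ≤ b r) :
    ‖(Matrix.of M).det‖ ≤ (Fintype.card ι).factorial * ∏ r, b r := by
  rw [Matrix.det_apply]
  refine (norm_sum_le _ _).trans ?_
  rw [← Fintype.card_perm, ← nsmul_eq_mul, ← card_univ, ← sum_const]
  refine sum_le_sum fun σ _ => ?_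
  have : ‖Equiv.Perm.sign σ • ∏ i, Matrix.of M (σ i) i‖ = ‖∏ i, Matrix.of M (σ i) i‖ := by
    rcases Int.units_eq_one_or (Equiv.Perm.sign σ) with h | h <;> simp [h]
  rw [this, norm_prod, ← Equiv.prod_comp σ b]
  exact prod_le_prod (fun _ _ => norm_nonneg _) fun i _ => h _ _

theorem norm_det_expand_le {P : Type} [Fintype P] (C : ι → P → ℂ) (G : ι → P → ι → ℂ)
    (b : P → ℝ) {Y : ℝ}
    (h : ∀ f : ι → P, ‖(∏ r, C r (f r)) * (Matrix.of fun r c => G r (f r) c).det‖ ≤
      Y * ∏ r, b (f r)) :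
    ‖(Matrix.of fun r c => ∑ p, C r p * G r p c).det‖ ≤ Y * (∑ p, b p) ^ Fintype.card ι := by
  rw [det_expand]
  refine (norm_sum_le _ _).trans ((sum_le_sum fun f _ => h f).trans (le_of_eq ?_))
  rw [← mul_sum, ← card_univ, ← prod_const, prod_univ_sum]
  simp

end Expand

/-- coefficients of a shifted truncated exponential series -/
noncomputable def gco (M d n : ℕ) (b : ℝ) : ℝ :=
  if d ≤ n ∧ n < d + M then b ^ (n - d) / (n - d).factorial else 0

theorem shift_exp (M A d : ℕ) (hd : d ≤ A) (b : ℝ) (z : ℂ) :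
    z ^ d * ∑ i ∈ range M, (b * z) ^ i / i.factorial =
      ∑ n : Fin (A + M), z ^ (n : ℕ) * (gco M d n b : ℂ) := by
  rw [Fin.sum_univ_eq_sum_range (fun n => z ^ n * (gco M d n b : ℂ))]
  have h1 : Ico d (d + M) ⊆ range (A + M) := fun n hn => by
    simp only [mem_Ico, mem_range] at hn ⊢; omega
  rw [← sum_subset h1, sum_Ico_eq_sum_range, Nat.add_sub_cancel_left, mul_sum]
  · refine sum_congr rfl fun i hi => ?_
    have hi' := mem_range.1 hi
    rw [gco, if_pos (by omega), Nat.add_sub_cancel_left]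
    push_cast
    ring
  · intro n _ hn
    rw [gco, if_neg (by simpa using hn)]
    simp

theorem gco_le (M d n : ℕ) {b ρ : ℝ} (hb : 0 ≤ b) (hρ : 0 < ρ) :
    |gco M d n b| ≤ Real.exp (b * ρ) * ρ ^ d / ρ ^ n := by
  rw [gco]
  split_ifs with h
  · obtain ⟨i, rfl⟩ := Nat.exists_eq_add_of_le h.1
    rw [Nat.add_sub_cancel_left, abs_of_nonneg (by positivity), pow_add,
      mul_comm (Real.exp _), mul_div_mul_left _ _ (by positivity), le_div_iff₀ (by positivity)]
    have := Real.pow_div_factorial_le_exp (b * ρ) (by positivity) i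
    calc _ = (b * ρ) ^ i / i.factorial := by ring
      _ ≤ _ := this
  · simp only [abs_zero]; positivity

theorem add_pow_fin (A a : ℕ) (ha : a ≤ A) (z w : ℂ) :
    (z + w) ^ a = ∑ i : Fin (A + 1), w ^ (i : ℕ) * (z ^ (a - i) * a.choose i) := by
  rw [Fin.sum_univ_eq_sum_range (fun i => w ^ i * (z ^ (a - i) * (a.choose i : ℂ))), add_comm,
    add_pow]
  refine (sum_congr rfl fun i _ => mul_assoc _ _ _).trans (sum_subset (range_mono (by omega)) ?_)
  intro i _ hi
  rw [Nat.choose_eq_zero_of_lt (by simpa using hi)]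
  simp

variable {m : ℕ}

theorem entry_expand (M A : ℕ) (a : Fin m → ℕ) (ha : ∑ j, a j ≤ A) (b : ℝ) (z : ℂ)
    (w : Fin m → ℂ) :
    (∑ i ∈ range M, (b * z) ^ i / i.factorial) * ∏ j, (z + w j) ^ a j =
      ∑ p : (Fin m → Fin (A + 1)) × Fin (A + M), ((∏ j, w j ^ (p.1 j : ℕ)) * z ^ (p.2 : ℕ)) *
        (((∏ j, (a j).choose (p.1 j) : ℕ) : ℂ) * (gco M (∑ j, (a j - p.1 j)) p.2 b : ℂ)) := by
  have h1 : ∀ j, a j ≤ A := fun j =>
    (single_le_sum (f := a) (fun _ _ => Nat.zero_le _) (mem_univ j)).trans ha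
  rw [prod_congr rfl fun j _ => add_pow_fin A (a j) (h1 j) z (w j), prod_univ_sum,
    Fintype.piFinset_univ, mul_sum, Fintype.sum_prod_type]
  refine sum_congr rfl fun q _ => ?_
  have h2 := shift_exp M A (∑ j, (a j - q j))
    ((sum_le_sum fun j _ => Nat.sub_le _ _).trans ha) b z
  rw [prod_mul_distrib, prod_mul_distrib, prod_pow_eq_pow_sum]
  calc _ = (∏ j, w j ^ (q j : ℕ)) * (∏ j, ((a j).choose (q j) : ℂ)) *
        (z ^ (∑ j, (a j - q j)) * ∑ i ∈ range M, (b * z) ^ i / i.factorial) := by ring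
    _ = _ := by
      rw [h2, mul_sum]
      refine sum_congr rfl fun n _ => ?_
      push_cast
      ring

theorem sum_ge_of_injective {ι : Type} [Fintype ι] (g : Fin (m + 1) → ℝ) (hg : ∀ i, 0 < g i)
    {G : ℝ} (hG : 0 ≤ G) (φ : ι → (Fin (m + 1) →₀ ℕ)) (hφ : Function.Injective φ) :
    G * (Fintype.card ι - (simplex g hg G).card) ≤ ∑ r, wt g (φ r) := by
  classical
  have h1 : (univ.filter fun r => wt g (φ r) ≤ G).card ≤ (simplex g hg G).card :=
    card_le_card_of_injOn φ (fun r hr => mem_coe.2 (mem_simplex.2 (mem_filter.1 hr).2))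
      hφ.injOn
  have h2 := card_filter_add_card_filter_not (s := (univ : Finset ι))
    (fun r => wt g (φ r) ≤ G)
  rw [card_univ] at h2
  have h3 : G * ((univ.filter fun r => ¬ wt g (φ r) ≤ G).card : ℝ) ≤ ∑ r, wt g (φ r) := by
    rw [mul_comm, ← nsmul_eq_mul, ← sum_const]
    refine (sum_le_sum fun r hr => (not_le.1 (mem_filter.1 hr).2).le).trans ?_
    exact sum_le_sum_of_subset_of_nonneg (filter_subset _ _)
      fun r _ _ => wt_nonneg (fun i => (hg i).le) _
  refine le_trans ?_ h3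
  have h4 : (Fintype.card ι : ℝ) - (simplex g hg G).card ≤
      ((univ.filter fun r => ¬ wt g (φ r) ≤ G).card : ℝ) := by
    rw [← h2]
    have : ((univ.filter fun r => wt g (φ r) ≤ G).card : ℝ) ≤ (simplex g hg G).card := by
      exact_mod_cast h1
    push_cast
    linarith
  gcongr

theorem analytic_trunc {ι : Type} [Fintype ι] [DecidableEq ι] (M A : ℕ) (a : ι → Fin m → ℕ)
    (ha : ∀ c, ∑ j, a c j ≤ A) (b : ι → ℝ) {B : ℝ} (hb0 : ∀ c, 0 ≤ b c) (hb : ∀ c, b c ≤ B)
    (z : ι → ℂ) (w : ι → Fin m → ℂ) {ρ0 E : ℝ} (hρ0 : 1 ≤ ρ0) (hE : 1 ≤ E)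
    (g : Fin (m + 1) → ℝ) (hg : ∀ i, 0 < g i) (hg0 : g 0 = 1) (hz : ∀ r, ‖z r‖ ≤ ρ0)
    (hw : ∀ r j, ‖w r j‖ ≤ E * Real.exp (-g j.succ)) {G : ℝ} (hG : 0 ≤ G) :
    ‖(Matrix.of fun r c => (∑ i ∈ range M, (b c * z r) ^ i / i.factorial) *
        ∏ j, (z r + w r j) ^ a c j).det‖ ≤
      (Fintype.card ι).factorial *
        Real.exp (-(G * (Fintype.card ι - (simplex g hg G).card))) *
        (E ^ (m * A) * (12 * ρ0) ^ A * Real.exp (B * (6 * ρ0)) * (2 * (A + 1) ^ m)) ^
          Fintype.card ι := by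
  have hρ : 0 < 6 * ρ0 := by linarith
  simp only [entry_expand M A _ (ha _)]
  set Γ := E ^ (m * A) * (12 * ρ0) ^ A * Real.exp (B * (6 * ρ0)) with hΓ
  have hΓ0 : 0 < Γ := by positivity
  refine (norm_det_expand_le _ _ (fun p => Γ * (1 / 2) ^ (p.2 : ℕ))
    (Y := (Fintype.card ι).factorial *
        Real.exp (-(G * (Fintype.card ι - (simplex g hg G).card))))
    fun f => ?_).trans ?_
  · by_cases hf : Function.Injective f
    · set φ : (Fin m → Fin (A + 1)) × Fin (A + M) → (Fin (m + 1) →₀ ℕ) := fun p =>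
        Finsupp.equivFunOnFinite.symm (Fin.cons (p.2 : ℕ) fun j => (p.1 j : ℕ)) with hφ
      have hφi : Function.Injective φ := by
        rintro ⟨p, n⟩ ⟨p', n'⟩ h
        obtain ⟨h1, h2⟩ := Fin.cons_inj.1 (Finsupp.equivFunOnFinite.symm.injective h)
        exact Prod.ext (funext fun j => Fin.ext (congrFun h2 j)) (Fin.ext h1)
      have hs := sum_ge_of_injective g hg hG (φ ∘ f) (hφi.comp hf)
      have hd := norm_det_le (fun r c => (((∏ j, (a c j).choose ((f r).1 j) : ℕ) : ℂ) *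
          (gco M (∑ j, (a c j - (f r).1 j)) (f r).2 (b c) : ℂ)))
        (fun r => (12 * ρ0) ^ A * Real.exp (B * (6 * ρ0)) / (6 * ρ0) ^ ((f r).2 : ℕ)) (by
          intro r c
          rw [norm_mul, Complex.norm_natCast, Complex.norm_real, Real.norm_eq_abs]
          have h1 : ((∏ j, (a c j).choose ((f r).1 j) : ℕ) : ℝ) ≤ 2 ^ A := by
            have : ∏ j, (a c j).choose ((f r).1 j) ≤ 2 ^ A :=
              (prod_le_prod' fun j _ => Nat.choose_le_two_pow _ _).trans (by
                rw [prod_pow_eq_pow_sum]; exact Nat.pow_le_pow_right (by norm_num) (ha c))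
            exact_mod_cast this
          have h2 := gco_le M (∑ j, (a c j - (f r).1 j)) (f r).2 (hb0 c) hρ
          have h3 : (6 * ρ0) ^ (∑ j, (a c j - (f r).1 j)) ≤ (6 * ρ0) ^ A :=
            pow_le_pow_right₀ (by linarith) ((sum_le_sum fun j _ => Nat.sub_le _ _).trans (ha c))
          have h4 : Real.exp (b c * (6 * ρ0)) ≤ Real.exp (B * (6 * ρ0)) := by
            gcongr; exact hb c
          calc _ ≤ 2 ^ A * (Real.exp (B * (6 * ρ0)) * (6 * ρ0) ^ A / (6 * ρ0) ^ ((f r).2 : ℕ)) := by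
                refine mul_le_mul h1 (h2.trans ?_) (abs_nonneg _) (by positivity)
                gcongr
            _ = _ := by rw [show 12 * ρ0 = 2 * (6 * ρ0) by ring, mul_pow 2]; ring)
      have hrow : ∀ r, ‖(∏ j, w r j ^ ((f r).1 j : ℕ)) * z r ^ ((f r).2 : ℕ)‖ *
          ((12 * ρ0) ^ A * Real.exp (B * (6 * ρ0)) / (6 * ρ0) ^ ((f r).2 : ℕ)) ≤
          Real.exp (-wt g (φ (f r))) * (Γ * (1 / 2) ^ ((f r).2 : ℕ)) := by
        intro r
        set n : ℕ := ((f r).2 : ℕ) with hn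
        have h1 : ‖∏ j, w r j ^ ((f r).1 j : ℕ)‖ ≤
            E ^ (m * A) * Real.exp (-∑ j : Fin m, g j.succ * ((f r).1 j : ℕ)) := by
          rw [norm_prod, ← sum_neg_distrib, Real.exp_sum, mul_comm m, pow_mul]
          rw [← Fin.prod_const, ← prod_mul_distrib]
          refine prod_le_prod (fun _ _ => norm_nonneg _) fun j _ => ?_
          rw [norm_pow]
          refine (pow_le_pow_left₀ (norm_nonneg _) (hw r j) _).trans ?_
          rw [mul_pow, ← Real.exp_nat_mul, mul_comm (((f r).1 j : ℕ) : ℝ), neg_mul]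
          gcongr
          exact Nat.lt_succ_iff.1 ((f r).1 j).2
        have h2 : ‖z r ^ n‖ ≤ ρ0 ^ n := by rw [norm_pow]; gcongr; exact hz r
        have h3 : wt g (φ (f r)) = n + ∑ j : Fin m, g j.succ * ((f r).1 j : ℕ) := by
          simp [wt, hφ, Fin.sum_univ_succ, hg0, n]
        have h4 : ρ0 ^ n / (6 * ρ0) ^ n ≤ Real.exp (-n) * (1 / 2) ^ n := by
          rw [← div_pow, ← mul_neg_one, Real.exp_nat_mul, ← mul_pow]
          refine pow_le_pow_left₀ (by positivity) ?_ n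
          rw [Real.exp_neg, div_le_iff₀ hρ]
          have := Real.exp_one_lt_three
          have h5 : 1 / 3 ≤ (Real.exp 1)⁻¹ := by
            rw [one_div]; exact inv_anti₀ (Real.exp_pos 1) this.le
          nlinarith
        rw [norm_mul, h3, neg_add, Real.exp_add]
        calc _ ≤ (E ^ (m * A) * Real.exp (-∑ j : Fin m, g j.succ * ((f r).1 j : ℕ))) * ρ0 ^ n *
            ((12 * ρ0) ^ A * Real.exp (B * (6 * ρ0)) / (6 * ρ0) ^ n) := by gcongr
          _ = Real.exp (-∑ j : Fin m, g j.succ * ((f r).1 j : ℕ)) * Γ *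
            (ρ0 ^ n / (6 * ρ0) ^ n) := by rw [hΓ]; ring
          _ ≤ Real.exp (-∑ j : Fin m, g j.succ * ((f r).1 j : ℕ)) * Γ *
            (Real.exp (-n) * (1 / 2) ^ n) := by gcongr
          _ = _ := by ring
      have hprod := prod_le_prod (s := univ) (fun r _ => by positivity) fun r _ => hrow r
      rw [prod_mul_distrib, prod_mul_distrib, ← Real.exp_sum, sum_neg_distrib, ← norm_prod]
        at hprod
      rw [norm_mul]
      calc _ ≤ ‖∏ r, (∏ j, w r j ^ ((f r).1 j : ℕ)) * z r ^ ((f r).2 : ℕ)‖ *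
            ((Fintype.card ι).factorial * ∏ r, ((12 * ρ0) ^ A * Real.exp (B * (6 * ρ0)) /
              (6 * ρ0) ^ ((f r).2 : ℕ))) := by gcongr
        _ = (Fintype.card ι).factorial *
            (‖∏ r, (∏ j, w r j ^ ((f r).1 j : ℕ)) * z r ^ ((f r).2 : ℕ)‖ *
            ∏ r, ((12 * ρ0) ^ A * Real.exp (B * (6 * ρ0)) / (6 * ρ0) ^ ((f r).2 : ℕ))) := by ring
        _ ≤ (Fintype.card ι).factorial * (Real.exp (-∑ r, wt g (φ (f r))) *
            ∏ r, (Γ * (1 / 2) ^ ((f r).2 : ℕ))) := by gcongr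
        _ ≤ (Fintype.card ι).factorial *
            (Real.exp (-(G * (Fintype.card ι - (simplex g hg G).card))) *
            ∏ r, (Γ * (1 / 2) ^ ((f r).2 : ℕ))) := by gcongr; exact hs
        _ = _ := by ring
    · obtain ⟨r, r', h1, h2⟩ := Function.not_injective_iff.1 hf
      rw [Matrix.det_zero_of_row_eq h2 (by ext c; simp [h1]), mul_zero, norm_zero]
      positivity
  · gcongr
    rw [← mul_sum, Fintype.sum_prod_type]
    gcongr
    simp only [sum_const, card_univ, Fintype.card_pi, Fintype.card_fin, prod_const, nsmul_eq_mul]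
    rw [Fin.sum_univ_eq_sum_range (fun n => (1 / 2 : ℝ) ^ n), mul_comm]
    push_cast
    gcongr
    exact sum_geometric_two_le _

theorem analytic_bound {ι : Type} [Fintype ι] [DecidableEq ι] (A : ℕ) (a : ι → Fin m → ℕ)
    (ha : ∀ c, ∑ j, a c j ≤ A) (b : ι → ℝ) {B : ℝ} (hb0 : ∀ c, 0 ≤ b c) (hb : ∀ c, b c ≤ B)
    (z : ι → ℂ) (w : ι → Fin m → ℂ) {ρ0 E : ℝ} (hρ0 : 1 ≤ ρ0) (hE : 1 ≤ E)
    (g : Fin (m + 1) → ℝ) (hg : ∀ i, 0 < g i) (hg0 : g 0 = 1) (hz : ∀ r, ‖z r‖ ≤ ρ0)
    (hw : ∀ r j, ‖w r j‖ ≤ E * Real.exp (-g j.succ)) {G : ℝ} (hG : 0 ≤ G) :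
    ‖(Matrix.of fun r c => Complex.exp (b c * z r) * ∏ j, (z r + w r j) ^ a c j).det‖ ≤
      (Fintype.card ι).factorial *
        Real.exp (-(G * (Fintype.card ι - (simplex g hg G).card))) *
        (E ^ (m * A) * (12 * ρ0) ^ A * Real.exp (B * (6 * ρ0)) * (2 * (A + 1) ^ m)) ^
          Fintype.card ι := by
  refine le_of_tendsto' (x := Filter.atTop) ?_ fun M =>
    analytic_trunc M A a ha b hb0 hb z w hρ0 hE g hg hg0 hz hw hG
  refine (continuous_norm.tendsto _).comp
    (((continuous_id (X := Matrix ι ι ℂ)).matrix_det.tendsto _).comp ?_)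
  refine tendsto_pi_nhds.2 fun r => tendsto_pi_nhds.2 fun c => ?_
  refine Filter.Tendsto.mul_const _ ?_
  rw [Complex.exp_eq_exp_ℂ]
  exact (NormedSpace.expSeries_div_hasSum_exp (b c * z r)).tendsto_sum_nat

end Vale.Agent.P021
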