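import Mathlib

/-!
An elementary Bezout-type inequality, proved by Noetherian induction on ideals:
the colengths of local order filtrations are bounded by the Hilbert function of a degree filtration.
-/

namespace Vale.Agent.P021

open Module

section HF
variable {A R : Type} [CommRing A] [CommRing R] [Algebra A R]

/-- rank of a quotient ring -/
noncomputable def hq (A : Type) [CommRing A] [Algebra A R] (I : Ideal R) : Cardinal :=
  Module.rank A (R ⧸ I)

/-- rank of the image of a submodule in a quotient ring -/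
noncomputable def hv (I : Ideal R) (V : Submodule A R) : Cardinal :=
  Module.rank A (V.map (Ideal.Quotient.mkₐ A I).toLinearMap)

/-- multiplication by `f` between quotients -/
noncomputable def mulQ (A : Type) [CommRing A] [Algebra A R] (I1 I2 : Ideal R) (f : R)
    (h : ∀ x ∈ I1, f * x ∈ I2) : (R ⧸ I1) →ₗ[A] (R ⧸ I2) :=
  (Submodule.mapQ I1 I2 (LinearMap.mulLeft R f) (fun x hx => h x hx)).restrictScalars A

theorem mulQ_mk (I1 I2 : Ideal R) (f : R) (h : ∀ x ∈ I1, f * x ∈ I2) (x : R) :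
    mulQ A I1 I2 f h (Ideal.Quotient.mk I1 x) = Ideal.Quotient.mk I2 (f * x) := rfl

theorem hv_mono (I : Ideal R) {V W : Submodule A R} (h : V ≤ W) : hv I V ≤ hv I W :=
  Submodule.rank_mono (Submodule.map_mono h)

variable [IsDomain A]

theorem hq_top : hq A (⊤ : Ideal R) = 0 := by
  unfold hq
  have : Subsingleton (R ⧸ (⊤ : Ideal R)) := Ideal.Quotient.subsingleton_iff.2 rfl
  exact rank_subsingleton' A _

theorem hq_le_add (I1 I2 I3 : Ideal R) (f : R) (h12 : ∀ x ∈ I1, f * x ∈ I2) (h23 : I2 ≤ I3)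
    (h3 : I3 ≤ I2 ⊔ Ideal.span {f}) : hq A I2 ≤ hq A I1 + hq A I3 := by
  unfold hq
  set π : (R ⧸ I2) →ₗ[A] (R ⧸ I3) := (Ideal.Quotient.factorₐ A h23).toLinearMap with hπ
  have h1 := LinearMap.rank_range_add_rank_ker π
  have h2 : Module.rank A (LinearMap.range π) ≤ Module.rank A (R ⧸ I3) := Submodule.rank_le _
  have h4 : LinearMap.ker π ≤ LinearMap.range (mulQ A I1 I2 f h12) := by
    intro x hx
    obtain ⟨x, rfl⟩ := Ideal.Quotient.mk_surjective x
    have hx3 : x ∈ I3 := by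
      rw [LinearMap.mem_ker] at hx
      exact Ideal.Quotient.eq_zero_iff_mem.1 hx
    obtain ⟨y, hy, z, hz, rfl⟩ := Submodule.mem_sup.1 (h3 hx3)
    obtain ⟨g, rfl⟩ := Ideal.mem_span_singleton'.1 hz
    refine ⟨Ideal.Quotient.mk I1 g, ?_⟩
    rw [mulQ_mk, map_add, Ideal.Quotient.eq_zero_iff_mem.2 hy, zero_add, mul_comm]
  have h5 : Module.rank A (LinearMap.ker π) ≤ Module.rank A (R ⧸ I1) :=
    (Submodule.rank_mono h4).trans (rank_range_le _)
  rw [← h1, add_comm]
  exact add_le_add h5 h2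

theorem hv_add_le (I1 I2 I3 : Ideal R) (f : R) (h12 : ∀ x, f * x ∈ I2 ↔ x ∈ I1) (h23 : I2 ≤ I3)
    (hf : f ∈ I3) (V V' : Submodule A R) (hV : ∀ x ∈ V, f * x ∈ V') :
    hv I1 V + hv I3 V' ≤ hv I2 V' := by
  unfold hv
  set W' := V'.map (Ideal.Quotient.mkₐ A I2).toLinearMap with hW'
  set π : (R ⧸ I2) →ₗ[A] (R ⧸ I3) := (Ideal.Quotient.factorₐ A h23).toLinearMap with hπ
  have h1 := LinearMap.rank_range_add_rank_ker (π.domRestrict W')
  have h2 : V'.map (Ideal.Quotient.mkₐ A I3).toLinearMap ≤ LinearMap.range (π.domRestrict W') := by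
    rintro _ ⟨x, hx, rfl⟩
    exact ⟨⟨Ideal.Quotient.mk I2 x, x, hx, rfl⟩, rfl⟩
  set μ := mulQ A I1 I2 f (fun x hx => (h12 x).2 hx) with hμ
  set W := V.map (Ideal.Quotient.mkₐ A I1).toLinearMap with hW
  have hm1 : ∀ x : W, μ.domRestrict W x ∈ W' := by
    rintro ⟨_, x, hx, rfl⟩
    exact ⟨f * x, hV x hx, rfl⟩
  have hm2 : ∀ x : W, ((μ.domRestrict W).codRestrict W' hm1) x ∈
      LinearMap.ker (π.domRestrict W') := by
    rintro ⟨_, x, hx, rfl⟩
    rw [LinearMap.mem_ker]
    exact Ideal.Quotient.eq_zero_iff_mem.2 (I3.mul_mem_right x hf)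
  have hinj : Function.Injective
      (((μ.domRestrict W).codRestrict W' hm1).codRestrict _ hm2) := by
    rw [injective_iff_map_eq_zero]
    rintro ⟨_, x, hx, rfl⟩ h0
    have h00 : Ideal.Quotient.mk I2 (f * x) = 0 :=
      congrArg (fun z : LinearMap.ker (π.domRestrict W') => ((z : W') : R ⧸ I2)) h0
    apply Subtype.ext
    exact Ideal.Quotient.eq_zero_iff_mem.2 ((h12 x).1 (Ideal.Quotient.eq_zero_iff_mem.1 h00))
  have h3 := LinearMap.rank_le_of_injective _ hinj
  rw [← h1, add_comm]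
  exact add_le_add (Submodule.rank_mono h2) h3

/-- the Hilbert function inequality for an ideal -/
def Good {ι : Type} [Fintype ι] (V : ℝ → Submodule A R) (J : ι → ℕ → Ideal R) (a : ℝ)
    (I : Ideal R) : Prop :=
  ∃ c : ℝ, ∀ u : ℕ, ∑ k, hq A (I ⊔ J k u) ≤ hv I (V (a * u + c))

theorem good_of_primes [IsNoetherianRing R] {ι : Type} [Fintype ι] (V : ℝ → Submodule A R)
    (hmono : Monotone V)
    (hV : ∀ f : R, ∃ c : ℝ, 0 ≤ c ∧ ∀ s, ∀ x ∈ V s, f * x ∈ V (s + c))
    (J : ι → ℕ → Ideal R) (hJ0 : ∀ k, J k 0 = ⊤) (a : ℝ)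
    (hp : ∀ p : Ideal R, p.IsPrime → Good V J a p ∨ ∃ F, F ∉ p ∧
      (∀ s, ∀ x ∈ V s, F * x ∈ V (s + a)) ∧ ∀ k u, ∀ x ∈ J k u, F * x ∈ J k (u + 1))
    (I : Ideal R) : Good V J a I := by
  induction I using WellFoundedGT.induction with
  | ind I ih =>
  by_cases hI : I.IsPrime
  · rcases hp I hI with hg | ⟨F, hF, hFV, hFJ⟩
    · exact hg
    have hlt : I < I ⊔ Ideal.span {F} := by
      refine lt_of_le_of_ne le_sup_left (fun h => hF ?_)
      rw [h]
      exact Ideal.mem_sup_right (Ideal.mem_span_singleton_self F)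
    obtain ⟨c, hc⟩ := ih _ hlt
    refine ⟨c, fun u => ?_⟩
    induction u with
    | zero => simp [hJ0, hq_top]
    | succ u ihu =>
      have e1 : ∀ k, hq A (I ⊔ J k (u + 1)) ≤
          hq A (I ⊔ J k u) + hq A ((I ⊔ Ideal.span {F}) ⊔ J k (u + 1)) := by
        intro k
        refine hq_le_add _ _ _ F ?_ (sup_le_sup_right le_sup_left _) ?_
        · intro x hx
          obtain ⟨y, hy, z, hz, rfl⟩ := Submodule.mem_sup.1 hx
          rw [mul_add]
          exact add_mem (Ideal.mem_sup_left (I.mul_mem_left F hy))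
            (Ideal.mem_sup_right (hFJ k u z hz))
        · rw [sup_right_comm]
      have e2 := hv_add_le (A := A) I I (I ⊔ Ideal.span {F}) F
        (fun x => ⟨fun h => (hI.mem_or_mem h).resolve_left hF, fun h => I.mul_mem_left F h⟩)
        le_sup_left (Ideal.mem_sup_right (Ideal.mem_span_singleton_self F))
        (V (a * u + c)) (V (a * ((u + 1 : ℕ) : ℝ) + c)) (by
          intro x hx
          have := hFV _ x hx
          have e : a * u + c + a = a * ((u + 1 : ℕ) : ℝ) + c := by push_cast; ring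
          rwa [e] at this)
      calc ∑ k, hq A (I ⊔ J k (u + 1))
          ≤ ∑ k, (hq A (I ⊔ J k u) + hq A ((I ⊔ Ideal.span {F}) ⊔ J k (u + 1))) :=
            Finset.sum_le_sum (fun k _ => e1 k)
        _ = ∑ k, hq A (I ⊔ J k u) + ∑ k, hq A ((I ⊔ Ideal.span {F}) ⊔ J k (u + 1)) :=
            Finset.sum_add_distrib
        _ ≤ _ := add_le_add ihu (hc (u + 1))
        _ ≤ _ := e2
  · rcases Ideal.not_isPrime_iff.1 hI with rfl | ⟨f, hf, g, hg, hfg⟩
    · exact ⟨0, fun u => by simp [hq_top]⟩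
    set I' : Ideal R := I.colon {f} with hI'
    have hmem : ∀ x, f * x ∈ I ↔ x ∈ I' := by
      intro x
      rw [hI', Submodule.mem_colon_singleton, smul_eq_mul, mul_comm]
    have hlt1 : I < I' := by
      refine lt_of_le_of_ne (fun x hx => (hmem x).1 (I.mul_mem_left f hx)) (fun h => hg ?_)
      rw [h]
      exact (hmem g).1 hfg
    have hlt2 : I < I ⊔ Ideal.span {f} := by
      refine lt_of_le_of_ne le_sup_left (fun h => hf ?_)
      rw [h]
      exact Ideal.mem_sup_right (Ideal.mem_span_singleton_self f)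
    obtain ⟨c1, hc1⟩ := ih _ hlt1
    obtain ⟨c2, hc2⟩ := ih _ hlt2
    obtain ⟨c, hc0, hc⟩ := hV f
    refine ⟨max c1 c2 + c, fun u => ?_⟩
    have e1 : ∀ k, hq A (I ⊔ J k u) ≤
        hq A (I' ⊔ J k u) + hq A ((I ⊔ Ideal.span {f}) ⊔ J k u) := by
      intro k
      refine hq_le_add _ _ _ f ?_ (sup_le_sup_right le_sup_left _) ?_
      · intro x hx
        obtain ⟨y, hy, z, hz, rfl⟩ := Submodule.mem_sup.1 hx
        rw [mul_add]
        exact add_mem (Ideal.mem_sup_left ((hmem y).2 hy))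
          (Ideal.mem_sup_right ((J k u).mul_mem_left f hz))
      · rw [sup_right_comm]
    have e2 := hv_add_le (A := A) I' I (I ⊔ Ideal.span {f}) f hmem
      le_sup_left (Ideal.mem_sup_right (Ideal.mem_span_singleton_self f))
      (V (a * u + max c1 c2)) (V (a * u + (max c1 c2 + c))) (by
        intro x hx
        have := hc _ x hx
        rwa [add_assoc] at this)
    calc ∑ k, hq A (I ⊔ J k u)
        ≤ ∑ k, (hq A (I' ⊔ J k u) + hq A ((I ⊔ Ideal.span {f}) ⊔ J k u)) :=
          Finset.sum_le_sum (fun k _ => e1 k)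
      _ = ∑ k, hq A (I' ⊔ J k u) + ∑ k, hq A ((I ⊔ Ideal.span {f}) ⊔ J k u) :=
          Finset.sum_add_distrib
      _ ≤ _ := add_le_add (hc1 u) (hc2 u)
      _ ≤ _ := add_le_add (hv_mono _ (hmono (by linarith [le_max_left c1 c2])))
          (hv_mono _ (hmono (by linarith [le_max_right c1 c2])))
      _ ≤ _ := e2

end HF

end Vale.Agent.P021
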