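import Vale.Agent.P021.Simplex

/-!
The numerical core of the product theorem.
-/

namespace Vale.Agent.P021

open MvPolynomial Finset

section Vx
variable (A : Type) {R : Type} [CommRing A] [CommRing R] [Algebra A R] {ι : Type} [Fintype ι]

/-- span of the monomials of weight at most `s` -/
noncomputable def Vx (x : ι → R) (W : ι → ℝ) (s : ℝ) : Submodule A R :=
  Submodule.span A ((fun e : ι →₀ ℕ => ∏ i, x i ^ e i) '' {e | wt W e ≤ s})

variable {A}

theorem Vx_mono (x : ι → R) (W : ι → ℝ) : Monotone (Vx A x W) := fun _ _ h =>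
  Submodule.span_mono (Set.image_mono fun _ he => le_trans he h)

theorem prod_mem_Vx (x : ι → R) {W : ι → ℝ} {s : ℝ} {e : ι →₀ ℕ} (h : wt W e ≤ s) :
    ∏ i, x i ^ e i ∈ Vx A x W s := Submodule.subset_span ⟨e, h, rfl⟩

theorem mul_mem_Vx {x : ι → R} {W : ι → ℝ} {s s' : ℝ} {f g : R} (hf : f ∈ Vx A x W s)
    (hg : g ∈ Vx A x W s') : f * g ∈ Vx A x W (s' + s) := by
  induction hf using Submodule.span_induction with
  | zero => simp
  | add f f' _ _ h h' => rw [add_mul]; exact add_mem h h'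
  | smul z f _ h => rw [smul_mul_assoc]; exact Submodule.smul_mem _ _ h
  | mem f hf =>
    obtain ⟨e, he, rfl⟩ := hf
    induction hg using Submodule.span_induction with
    | zero => simp
    | add g g' _ _ h h' => rw [mul_add]; exact add_mem h h'
    | smul z g _ h => rw [mul_smul_comm]; exact Submodule.smul_mem _ _ h
    | mem g hg =>
      obtain ⟨e', he', rfl⟩ := hg
      have := prod_mem_Vx (A := A) x (W := W) (s := s' + s) (e := e + e') (by
        rw [wt_add]; simp only [Set.mem_ofPred_eq] at he he'; linarith)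
      simpa [pow_add, prod_mul_distrib] using this

theorem hv_Vx_le [IsDomain A] (I : Ideal R) (x : ι → R) {W : ι → ℝ} (hW : ∀ i, 0 < W i)
    (s : ℝ) : hv I (Vx A x W s) ≤ (simplex W hW s).card := by
  classical
  refine (rank_map_le _ _).trans ?_
  have : ((fun e : ι →₀ ℕ => ∏ i, x i ^ e i) '' {e | wt W e ≤ s}) =
      ((simplex W hW s).image fun e : ι →₀ ℕ => ∏ i, x i ^ e i : Finset R) := by
    ext f
    simp [mem_simplex]
  unfold Vx
  rw [this]
  refine (rank_span_finset_le _).trans ?_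
  exact_mod_cast card_image_le

theorem Good.bot_card [IsDomain A] {κ : Type} [Fintype κ] {x : ι → R} {W : ι → ℝ}
    (hW : ∀ i, 0 < W i) {J : κ → ℕ → Ideal R} {a : ℝ} (h : Good (Vx A x W) J a ⊥) :
    ∃ c : ℝ, ∀ (u n : ℕ), (∀ k, (n : Cardinal) ≤ hq A (J k u)) →
      Fintype.card κ * n ≤ (simplex W hW (a * u + c)).card := by
  obtain ⟨c, hc⟩ := h
  refine ⟨c, fun u n hn => ?_⟩
  have h2 := (hc u).trans (hv_Vx_le _ _ hW _)
  simp only [bot_sup_eq] at h2
  have h3 := (sum_le_sum fun k (_ : k ∈ univ) => hn k).trans h2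
  rw [sum_const, card_univ, nsmul_eq_mul] at h3
  exact_mod_cast h3

theorem hq_anti {I J : Ideal R} (h : I ≤ J) : hq A J ≤ hq A I :=
  LinearMap.rank_le_of_surjective (Ideal.Quotient.factorₐ A h).toLinearMap
    (Ideal.Quotient.factor_surjective h)

theorem hq_eq_zero [IsDomain A] {I : Ideal R} {z : A} (hz : z ≠ 0) (h : algebraMap A R z ∈ I) :
    hq A I = 0 := by
  unfold hq
  rw [rank_eq_zero_iff]
  intro x
  obtain ⟨x, rfl⟩ := Ideal.Quotient.mk_surjective x
  refine ⟨z, hz, ?_⟩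
  change Ideal.Quotient.mk I (z • x) = 0
  rw [Ideal.Quotient.eq_zero_iff_mem, Algebra.smul_def]
  exact I.mul_mem_right _ h

theorem rank_le_of_torsion [IsDomain A] {M : Type} [AddCommGroup M] [Module A M]
    (N : Submodule A M) (h : ∀ x, ∃ z : A, z ≠ 0 ∧ z • x ∈ N) :
    Module.rank A M ≤ Module.rank A N := by
  rw [← Submodule.rank_quotient_add_rank N]
  have : Module.rank A (M ⧸ N) = 0 := by
    rw [rank_eq_zero_iff]
    intro x
    obtain ⟨x, rfl⟩ := Submodule.Quotient.mk_surjective N x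
    obtain ⟨z, hz, hx⟩ := h x
    exact ⟨z, hz, by rw [← Submodule.Quotient.mk_smul, Submodule.Quotient.mk_eq_zero]; exact hx⟩
  rw [this, zero_add]

theorem exists_hq_le_hv [IsDomain A] (q : Ideal R) [Algebra.IsAlgebraic A (R ⧸ q)]
    (hfin : Algebra.FiniteType A R) (V : ℝ → Submodule A R) (hmono : Monotone V)
    (hV : ∀ f, ∃ c, f ∈ V c) : ∃ c, hq A q ≤ hv q (V c) := by
  classical
  obtain ⟨s, hs⟩ : (⊤ : Subalgebra A (R ⧸ q)).FG :=
    (Algebra.FiniteType.of_surjective (Ideal.Quotient.mkₐ A q)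
      (Ideal.Quotient.mkₐ_surjective A q)).out
  obtain ⟨y, hy, hint⟩ := Algebra.IsAlgebraic.exists_integral_multiples A s
  set B' := Algebra.adjoin A ((s.image fun z => y • z : Finset (R ⧸ q)) : Set (R ⧸ q)) with hB'
  have hfg : (Subalgebra.toSubmodule B').FG := by
    apply fg_adjoin_of_finite (Finset.finite_toSet _)
    intro z hz
    obtain ⟨z, hz', rfl⟩ := mem_image.1 (mem_coe.1 hz)
    exact hint z hz'
  obtain ⟨t, ht⟩ := hfg
  have hall : ∀ b : R ⧸ q, ∃ c, b ∈ (V c).map (Ideal.Quotient.mkₐ A q).toLinearMap := by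
    intro b
    obtain ⟨f, rfl⟩ := Ideal.Quotient.mk_surjective b
    obtain ⟨c, hc⟩ := hV f
    exact ⟨c, f, hc, rfl⟩
  choose cf hcf using hall
  obtain ⟨c, hc⟩ := (t.image cf).bddAbove
  refine ⟨c, rank_le_of_torsion _ fun b => ?_⟩
  have hle : Subalgebra.toSubmodule B' ≤ (V c).map (Ideal.Quotient.mkₐ A q).toLinearMap := by
    rw [← ht, Submodule.span_le]
    intro b hb
    exact Submodule.map_mono (hmono (hc (mem_coe.2 (mem_image_of_mem cf hb)))) (hcf b)
  have hb : b ∈ Algebra.adjoin A (s : Set (R ⧸ q)) := by rw [hs]; trivial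
  suffices h : ∃ z : A, z ≠ 0 ∧ z • b ∈ B' by
    obtain ⟨z, hz, h⟩ := h
    exact ⟨z, hz, hle h⟩
  induction hb using Algebra.adjoin_induction with
  | mem b hb => exact ⟨y, hy, Algebra.subset_adjoin (mem_coe.2 (mem_image_of_mem _ hb))⟩
  | algebraMap r => exact ⟨1, one_ne_zero, by rw [one_smul]; exact B'.algebraMap_mem r⟩
  | add b b' _ _ h h' =>
    obtain ⟨z, hz, h⟩ := h
    obtain ⟨z', hz', h'⟩ := h'
    refine ⟨z * z', mul_ne_zero hz hz', ?_⟩
    rw [smul_add, mul_smul z z' b', mul_comm z z', mul_smul]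
    exact add_mem (B'.smul_mem h _) (B'.smul_mem h' _)
  | mul b b' _ _ h h' =>
    obtain ⟨z, hz, h⟩ := h
    obtain ⟨z', hz', h'⟩ := h'
    refine ⟨z * z', mul_ne_zero hz hz', ?_⟩
    rw [← smul_mul_smul_comm]
    exact mul_mem h h'

end Vx

theorem exists_dual {R : Type} [CommRing R] [Algebra ℂ R] {ι : Type} [Fintype ι] [DecidableEq ι]
    (q : Ideal R) (hqp : q.IsPrime) (D : ι → Der R) (F : ι → R) (hF : ∀ l, F l ∈ q)
    (hind : ∀ v : ι → R, (∀ i, ∑ l, D i (F l) * v l ∈ q) → ∀ l, v l ∈ q) :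
    ∃ (g : ι → R) (γ : R), (∀ l, g l ∈ q) ∧ γ ∉ q ∧
      ∀ i l, D i (g l) - (if i = l then γ else 0) ∈ q := by
  set M : Matrix ι ι R := Matrix.of fun i l => D i (F l) with hM
  refine ⟨fun l => ∑ l', F l' * M.adjugate l' l, M.det,
    fun l => Ideal.sum_mem _ fun l' _ => q.mul_mem_right _ (hF l'), ?_, ?_⟩
  · intro hdet
    have h1 : (M.map (Ideal.Quotient.mk q)).det = 0 := by
      have := (Ideal.Quotient.mk q).map_det M
      rw [RingHom.mapMatrix_apply] at this
      rw [← this, Ideal.Quotient.eq_zero_iff_mem]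
      exact hdet
    obtain ⟨v, hv0, hv⟩ := Matrix.exists_mulVec_eq_zero_iff.2 h1
    choose v' hv' using fun l => Ideal.Quotient.mk_surjective (v l)
    apply hv0
    ext l
    rw [← hv', Pi.zero_apply, Ideal.Quotient.eq_zero_iff_mem]
    refine hind v' (fun i => ?_) l
    rw [← Ideal.Quotient.eq_zero_iff_mem, map_sum]
    have := congrFun hv i
    simp only [Matrix.mulVec, dotProduct, Matrix.map_apply, hM, Matrix.of_apply,
      Pi.zero_apply] at this
    rw [← this]
    exact sum_congr rfl fun l _ => by rw [map_mul, hv']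
  · intro i l
    have h1 := congrFun (congrFun (Matrix.mul_adjugate M) i) l
    simp only [Matrix.mul_apply, Matrix.smul_apply, Matrix.one_apply, smul_eq_mul, mul_ite,
      mul_one, mul_zero] at h1
    rw [← h1, map_sum, ← sum_sub_distrib]
    refine Ideal.sum_mem _ fun l' _ => ?_
    rw [Derivation.leibniz, smul_eq_mul, smul_eq_mul, hM, Matrix.of_apply, mul_comm (D i (F l')),
      add_sub_cancel_right]
    exact q.mul_mem_right _ (hF l')

/-- independence of a family of derivations on the conormal space -/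
def Indep {R : Type} [CommRing R] [Algebra ℂ R] {ι : Type} [Fintype ι]
    (q : Ideal R) (D : ι → Der R) (F : ι → R) : Prop :=
  (∀ l, F l ∈ q) ∧ ∀ v : ι → R, (∀ i, ∑ l, D i (F l) * v l ∈ q) → ∀ l, v l ∈ q

theorem card_le_hq_ord' {R : Type} [CommRing R] [Algebra ℂ R] {α : Type} {d : α → Der R}
    {c : α → ℝ} {hc : ∀ i, 0 ≤ c i} {q : Ideal R} {A : Type} [CommRing A] [IsDomain A]
    [Algebra A R] (hq' : q.IsPrime) (hA : ∀ z : A, algebraMap A R z ∈ q → z = 0)
    {ι : Type} [Fintype ι] (e : ι → α) {F : ι → R} (hF : Indep q (fun i => d (e i)) F) (s : ℝ)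
    (S : Finset (ι →₀ ℕ)) (hS : ∀ β ∈ S, wt (fun i => c (e i)) β < s) :
    (S.card : Cardinal) ≤ hq A (ord d c hc q s) := by
  classical
  obtain ⟨g, γ, h1, h2, h3⟩ := exists_dual q hq' _ F hF.1 hF.2
  exact card_le_hq_ord hq' hA e h1 h2 h3 s S hS

section Poly
variable {σ : Type} [Fintype σ]

/-- weighted degree at most `a` -/
def Deg (W : σ → ℝ) (a : ℝ) (F : MvPolynomial σ ℂ) : Prop := ∀ e ∈ F.support, wt W e ≤ a

theorem exists_deg (W : σ → ℝ) (F : MvPolynomial σ ℂ) : ∃ a, 0 ≤ a ∧ Deg W a F := by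
  obtain ⟨c, hc⟩ := (F.support.image (wt W)).bddAbove
  exact ⟨max c 0, le_max_right _ _, fun e he =>
    (hc (mem_coe.2 (mem_image_of_mem _ he))).trans (le_max_left _ _)⟩

theorem Deg.mem_Vx {W : σ → ℝ} {a : ℝ} {F : MvPolynomial σ ℂ} (h : Deg W a F) :
    F ∈ Vx ℂ (X : σ → MvPolynomial σ ℂ) W a := by
  rw [F.as_sum]
  refine Submodule.sum_mem _ fun e he => ?_
  rw [monomial_eq, Finsupp.prod_fintype _ _ (by simp), ← smul_eq_C_mul]
  exact Submodule.smul_mem _ _ (prod_mem_Vx _ (h e he))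

variable [DecidableEq σ]

theorem Deg.mem_Vx_sub {W : σ → ℝ} (hW : ∀ i, 0 ≤ W i) {a : ℝ} {F : MvPolynomial σ ℂ}
    (h : Deg W a F) (T : Finset σ) :
    F ∈ Vx (supported ℂ (T : Set σ)) (fun i : {i // i ∉ T} => (X i : MvPolynomial σ ℂ))
      (fun i => W i) a := by
  rw [F.as_sum]
  refine Submodule.sum_mem _ fun e he => ?_
  have hmem : C (coeff e F) * ∏ i ∈ T, X i ^ e i ∈ supported ℂ (T : Set σ) := by
    refine mul_mem (Subalgebra.algebraMap_mem _ _) (prod_mem fun i hi => pow_mem ?_ _)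
    exact X_mem_supported.2 hi
  have h1 := prod_mem_Vx (A := supported ℂ (T : Set σ))
    (fun i : {i // i ∉ T} => (X i : MvPolynomial σ ℂ)) (W := fun i => W i) (s := a)
    (e := Finsupp.equivFunOnFinite.symm fun i => e i) (by
      refine le_trans ?_ (h e he)
      unfold wt
      simp only [Finsupp.equivFunOnFinite_symm_apply_apply]
      rw [← sum_subtype (s := Tᶜ) (p := fun i => i ∉ T) (by simp) (fun i => W i * (e i : ℝ))]
      exact sum_le_sum_of_subset_of_nonneg (subset_univ _) fun i _ _ =>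
        mul_nonneg (hW i) (Nat.cast_nonneg _))
  have h2 := Submodule.smul_mem _ (⟨_, hmem⟩ : supported ℂ (T : Set σ)) h1
  convert h2 using 1
  rw [monomial_eq, Finsupp.prod_fintype _ _ (by simp), ← prod_mul_prod_compl T]
  simp only [Finsupp.equivFunOnFinite_symm_apply_apply]
  rw [← prod_subtype (s := Tᶜ) (p := fun i => i ∉ T) (by simp)
    (fun i => (X i : MvPolynomial σ ℂ) ^ e i), ← mul_assoc]
  rfl

omit [Fintype σ] in
theorem isAlgebraic_quot (q : Ideal (MvPolynomial σ ℂ)) (T : Finset σ)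
    (halg : ∀ j ∉ T, ∃ F, F ≠ 0 ∧ F ∈ q ∧ F ∈ supported ℂ (insert j (T : Set σ))) :
    Algebra.IsAlgebraic (supported ℂ (T : Set σ)) (MvPolynomial σ ℂ ⧸ q) := by
  set A := supported ℂ (T : Set σ) with hA
  have hX : ∀ j, IsAlgebraic A (Ideal.Quotient.mk q (X j)) := by
    intro j
    by_cases hj : j ∈ T
    · exact isAlgebraic_algebraMap (R := A) (⟨X j, X_mem_supported.2 hj⟩ : A)
    obtain ⟨F, hF0, hFq, hF⟩ := halg j hj
    have : ∃ p : Polynomial A, Polynomial.aeval (X j : MvPolynomial σ ℂ) p = F := by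
      rw [supported_eq_adjoin_X] at hF
      clear hF0 hFq
      induction hF using Algebra.adjoin_induction with
      | mem f hf =>
        obtain ⟨i, hi, rfl⟩ := hf
        rcases hi with rfl | hi
        · exact ⟨Polynomial.X, by simp⟩
        · exact ⟨Polynomial.C ⟨X i, X_mem_supported.2 hi⟩, by simp⟩
      | algebraMap r => exact ⟨Polynomial.C (algebraMap ℂ A r), by simp⟩
      | add f g _ _ h h' =>
        obtain ⟨p, rfl⟩ := h
        obtain ⟨p', rfl⟩ := h'
        exact ⟨p + p', by simp⟩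
      | mul f g _ _ h h' =>
        obtain ⟨p, rfl⟩ := h
        obtain ⟨p', rfl⟩ := h'
        exact ⟨p * p', by simp⟩
    obtain ⟨p, rfl⟩ := this
    refine ⟨p, by rintro rfl; simp at hF0, ?_⟩
    have := Polynomial.aeval_algHom_apply (Ideal.Quotient.mkₐ A q) (X j) p
    rw [Ideal.Quotient.mkₐ_eq_mk] at this
    rw [this]
    exact Ideal.Quotient.eq_zero_iff_mem.2 hFq
  refine ⟨fun b => ?_⟩
  obtain ⟨f, rfl⟩ := Ideal.Quotient.mk_surjective b
  change _ ∈ Subalgebra.algebraicClosure A (MvPolynomial σ ℂ ⧸ q)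
  induction f using MvPolynomial.induction_on with
  | C z => exact isAlgebraic_algebraMap (R := A) (algebraMap ℂ A z)
  | add f g h h' => rw [map_add]; exact add_mem h h'
  | mul_X f i h => rw [map_mul]; exact mul_mem h (hX i)

theorem key_good {α : Type} (d : α → Der (MvPolynomial σ ℂ))
    (c : α → ℝ) (hc : ∀ i, 0 ≤ c i) {c0 : ℝ} (hc0 : 0 < c0) (h0 : ∀ i, c0 ≤ c i)
    (W : σ → ℝ) (hW : ∀ i, 0 < W i) (q : Ideal (MvPolynomial σ ℂ)) (T : Finset σ)
    (halg : ∀ j ∉ T, ∃ F, F ≠ 0 ∧ F ∈ q ∧ F ∈ supported ℂ (insert j (T : Set σ)))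
    (𝓕 : Set (MvPolynomial σ ℂ)) (hmin : q ∈ (Ideal.span 𝓕).minimalPrimes) {a η : ℝ}
    (ha : 0 ≤ a) (hdeg : ∀ F ∈ 𝓕, Deg W a F) (hord : ∀ F ∈ 𝓕, F ∈ ord d c hc q η) :
    Good (ι := Unit) (Vx (supported ℂ (T : Set σ))
      (fun i : {i // i ∉ T} => (X i : MvPolynomial σ ℂ)) (fun i => W i))
      (fun _ u => ord d c hc q (η * u)) a ⊥ := by
  have hqp : q.IsPrime := hmin.1.1
  have halg' := isAlgebraic_quot q T halg
  set A := supported ℂ (T : Set σ) with hA
  set V := Vx A (fun i : {i // i ∉ T} => (X i : MvPolynomial σ ℂ)) (fun i => W i) with hV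
  have hVex : ∀ f, ∃ c, 0 ≤ c ∧ f ∈ V c := by
    intro f
    obtain ⟨c, hc0, hc⟩ := exists_deg W f
    exact ⟨c, hc0, hc.mem_Vx_sub (fun i => (hW i).le) T⟩
  exact good_of_primes (ι := Unit) V (Vx_mono _ _) (fun f => by
      obtain ⟨c, hc0, hc⟩ := hVex f
      exact ⟨c, hc0, fun s x hx => mul_mem_Vx hc hx⟩)
    (fun _ u => ord d c hc q (η * u)) (fun _ => by simp [ord_zero]) a (fun p hp => by
      by_cases hall : ∀ F ∈ 𝓕, F ∈ p
      · left
        by_cases hpq : p ≤ q
        · have hqp' : q ≤ p := hmin.2 ⟨hp, Ideal.span_le.2 hall⟩ hpq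
          obtain rfl : p = q := le_antisymm hpq hqp'
          obtain ⟨c1, hc1⟩ := exists_hq_le_hv (A := A) p
            (Algebra.FiniteType.of_restrictScalars_finiteType ℂ A _) V (Vx_mono _ _)
            (fun f => (hVex f).imp fun _ h => h.2)
          refine ⟨c1, fun u => ?_⟩
          simp only [univ_unique, sum_const, card_singleton, one_smul]
          refine (hq_anti le_sup_left).trans (hc1.trans (hv_mono _ (Vx_mono _ _ ?_)))
          have : 0 ≤ a * u := by positivity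
          linarith
        · obtain ⟨f, hfp, hfq⟩ := SetLike.not_le_iff_exists.1 hpq
          refine ⟨0, fun u => ?_⟩
          obtain ⟨z, hz, b, hb⟩ := (halg'.1 (Ideal.Quotient.mk q f)).exists_nonzero_dvd
            (mem_nonZeroDivisors_of_ne_zero (by rwa [Ne, Ideal.Quotient.eq_zero_iff_mem]))
          obtain ⟨b, rfl⟩ := Ideal.Quotient.mk_surjective b
          have h1 : algebraMap A (MvPolynomial σ ℂ) z - f * b ∈ q := by
            rw [← Ideal.Quotient.eq, map_mul, ← hb]; rfl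
          obtain ⟨n, hn⟩ := exists_pow_mem_ord (d := d) (hc := hc) hc0 h0 h1 (η * u)
          have h2 : algebraMap A (MvPolynomial σ ℂ) (z ^ n) ∈ p ⊔ ord d c hc q (η * u) := by
            have h3 : (algebraMap A (MvPolynomial σ ℂ) z) ^ n -
                (algebraMap A (MvPolynomial σ ℂ) z - f * b) ^ n ∈ p := by
              refine p.mem_of_dvd (sub_dvd_pow_sub_pow _ _ n) ?_
              rw [sub_sub_cancel]
              exact p.mul_mem_right _ hfp
            rw [map_pow, ← sub_add_cancel ((algebraMap A (MvPolynomial σ ℂ) z) ^ n)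
              ((algebraMap A (MvPolynomial σ ℂ) z - f * b) ^ n)]
            exact add_mem (Ideal.mem_sup_left h3) (Ideal.mem_sup_right hn)
          simp [hq_eq_zero (pow_ne_zero n hz) h2]
      · right
        push Not at hall
        obtain ⟨F, hF, hFp⟩ := hall
        refine ⟨F, hFp, fun s x hx =>
          mul_mem_Vx ((hdeg F hF).mem_Vx_sub (fun i => (hW i).le) T) hx, fun _ u x hx => ?_⟩
        have := mul_mem_ord (hord F hF) hx
        convert this using 2
        push_cast; ring) ⊥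

theorem key_ineq {α : Type} (d : α → Der (MvPolynomial σ ℂ))
    (c : α → ℝ) (hc : ∀ i, 0 ≤ c i) {c0 : ℝ} (hc0 : 0 < c0) (h0 : ∀ i, c0 ≤ c i)
    (W : σ → ℝ) (hW : ∀ i, 0 < W i) (q : Ideal (MvPolynomial σ ℂ)) (T : Finset σ)
    (hT : ∀ F ∈ supported ℂ (T : Set σ), F ∈ q → F = 0)
    (halg : ∀ j ∉ T, ∃ F, F ≠ 0 ∧ F ∈ q ∧ F ∈ supported ℂ (insert j (T : Set σ)))
    (𝓕 : Set (MvPolynomial σ ℂ)) (hmin : q ∈ (Ideal.span 𝓕).minimalPrimes) {a η : ℝ}
    (hη : 0 < η) (ha : 0 ≤ a) (hdeg : ∀ F ∈ 𝓕, Deg W a F) (hord : ∀ F ∈ 𝓕, F ∈ ord d c hc q η)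
    (e : {i // i ∉ T} → α) {g : {i // i ∉ T} → MvPolynomial σ ℂ}
    (hg : Indep q (fun i => d (e i)) g) :
    η ^ Fintype.card {i // i ∉ T} * ∏ i : {i // i ∉ T}, W i ≤
      a ^ Fintype.card {i // i ∉ T} * ∏ i, c (e i) := by
  have hqp : q.IsPrime := hmin.1.1
  have hgood := key_good d c hc hc0 h0 W hW q T halg 𝓕 hmin ha hdeg hord
  obtain ⟨c1, hc1⟩ := Good.bot_card (A := supported ℂ (T : Set σ)) (κ := Unit)
    (R := MvPolynomial σ ℂ) (x := fun i : {i // i ∉ T} => (X i : MvPolynomial σ ℂ))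
    (W := fun i => W i) (fun i => hW i) (J := (fun _ u => ord d c hc q (η * u))) (a := a) hgood
  have hcpos : ∀ i, 0 < c (e i) := fun i => hc0.trans_le (h0 _)
  have := vol_ineq (fun i : {i // i ∉ T} => W i) (fun i => c (e i)) (fun i => hW i) hcpos
    (Fintype.card Unit) (c := c1) hη ha (fun u S hS => hc1 u _ fun _ =>
      card_le_hq_ord' (A := supported ℂ (T : Set σ)) (d := d) (c := c) (hc := hc) hqp
        (fun z hz => Subtype.ext (hT z z.2 hz)) e hg (η * u) S hS)
  simpa using this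

end Poly

end Vale.Agent.P021
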