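import Vale.Agent.P021.Core

/-!
Choice of the parameters.
-/

namespace Vale.Agent.P021

open Finset Filter

theorem exists_ratios {ν : ℝ} (hν : 2 < ν) : ∃ x ρ1 ρ τ : ℝ, 0 < x ∧ x < 1 ∧ x ^ 2 < ρ1 ∧
    ρ1 < ρ ∧ ρ ≤ 1 ∧ 0 < τ ∧ 1 + (ν - 1) * ρ + 10 * τ ≤ ν * x := by
  have h1 : 0 < ν - 1 := by linarith
  set y := 1 / (ν - 1) with hy
  have hy0 : 0 < y := by positivity
  have hy1 : y < 1 := by rw [hy, div_lt_one h1]; linarith
  have hyy : (ν - 1) * y = 1 := by rw [hy]; field_simp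
  set x := (1 + y) / 2 with hx
  have hx1 : x < 1 := by linarith
  have hxy : y < x := by linarith
  set γ := (1 - x) * ((ν - 1) * x - 1) with hγ
  have hγ0 : 0 < γ := mul_pos (by linarith) (by nlinarith)
  have key : 1 + (ν - 1) * (x ^ 2 + γ * y / 2) + 10 * (γ / 20) = ν * x := by
    have : (ν - 1) * (γ * y / 2) = γ / 2 := by
      rw [show (ν - 1) * (γ * y / 2) = γ * ((ν - 1) * y) / 2 by ring, hyy]; ring
    rw [mul_add, this, hγ]; ring
  have hγy : 0 < γ * y := by positivity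
  refine ⟨x, x ^ 2 + γ * y / 4, x ^ 2 + γ * y / 2, γ / 20, by linarith, hx1, by linarith,
    by linarith, ?_, by linarith, key.le⟩
  by_contra h
  push Not at h
  nlinarith

theorem exists_dims {ν x ρ1 ρ τ ω : ℝ} (hν : 0 < ν) (hx : 0 < x) (hx1 : x < 1) (h1 : x ^ 2 < ρ1)
    (hρ : 0 < ρ) (hτ : 0 < τ) : ∃ (m K : ℕ) (lam : ℝ), 0 < lam ∧
      ν * x ^ (m + 1) * lam ≤ τ / ν / 2 ∧ 1 ≤ K ∧ 54 * K ≤ τ * lam ∧
      ω < K * ρ1 ^ (m + 1) * lam ∧ ω ≤ ρ * lam := by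
  set s := τ / ν / 2 / ν with hs
  have hs0 : 0 < s := by positivity
  have t1 : Tendsto (fun m : ℕ => s * (1 / x) ^ (m + 1)) atTop atTop :=
    ((tendsto_pow_atTop_atTop_of_one_lt (one_lt_one_div hx hx1)).comp
      (tendsto_add_atTop_nat 1)).const_mul_atTop hs0
  have t2 : Tendsto (fun m : ℕ => τ / 108 * s ^ 2 * (ρ1 / x ^ 2) ^ (m + 1)) atTop atTop :=
    ((tendsto_pow_atTop_atTop_of_one_lt ((one_lt_div (by positivity)).2 h1)).comp
      (tendsto_add_atTop_nat 1)).const_mul_atTop (by positivity)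
  obtain ⟨m, ⟨hm1, hm2⟩, hm3⟩ := (((t1.eventually_ge_atTop (54 / τ)).and
    (t1.eventually_ge_atTop (ω / ρ))).and (t2.eventually_gt_atTop ω)).exists
  set lam := s * (1 / x) ^ (m + 1) with hlam
  have hlam0 : 0 < lam := by positivity
  have h2 : 1 ≤ τ * lam / 54 := by
    rw [div_le_iff₀ hτ] at hm1
    linarith
  have h3 : (⌊τ * lam / 54⌋₊ : ℝ) ≤ τ * lam / 54 := Nat.floor_le (by linarith)
  have h4 : 1 ≤ ⌊τ * lam / 54⌋₊ := Nat.le_floor (by exact_mod_cast h2)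
  have h5 : τ * lam / 108 ≤ ⌊τ * lam / 54⌋₊ := by
    have h6 := Nat.lt_floor_add_one (τ * lam / 54)
    have h7 : (1 : ℝ) ≤ ⌊τ * lam / 54⌋₊ := by exact_mod_cast h4
    linarith
  have hρ1 : 0 < ρ1 := lt_trans (by positivity) h1
  refine ⟨m, ⌊τ * lam / 54⌋₊, lam, hlam0, le_of_eq ?_, h4, by linarith, ?_, ?_⟩
  · rw [hlam, hs, one_div, inv_pow]
    field_simp
  · refine hm3.trans_le ?_
    calc τ / 108 * s ^ 2 * (ρ1 / x ^ 2) ^ (m + 1) = τ * lam / 108 * ρ1 ^ (m + 1) * lam := by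
          rw [hlam, one_div, inv_pow, div_pow ρ1, ← pow_mul, mul_comm 2, pow_mul]
          field_simp
      _ ≤ _ := by gcongr
  · rw [div_le_iff₀ hρ] at hm2
    linarith

theorem exists_seq {α : Type} (L : α → ℝ) (h : ∀ T, ∃ a, T < L a) (T0 Λ : ℝ) (hT0 : 0 < T0)
    (hΛ : 1 ≤ Λ) : ∃ s : ℕ → α, (∀ j, T0 < L (s j)) ∧ ∀ i j, i < j → Λ * L (s i) < L (s j) := by
  choose f hf using h
  let s : ℕ → α := fun j => Nat.rec (f T0) (fun _ a => f (Λ * L a)) j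
  have h0 : T0 < L (s 0) := hf T0
  have h1 : ∀ j, Λ * L (s j) < L (s (j + 1)) := fun j => hf _
  have h2 : ∀ j, T0 < L (s j) := by
    intro j
    induction j with
    | zero => exact h0
    | succ j ih => have := h1 j; nlinarith
  refine ⟨s, h2, fun i j hij => ?_⟩
  induction j, hij using Nat.le_induction with
  | base => exact h1 i
  | succ j _ ih =>
    have h3 := h1 j
    have h4 := h2 j
    nlinarith

theorem card_simplex_ge {ι : Type} [Fintype ι] (W : ι → ℝ) (hW : ∀ i, 0 < W i) {s : ℝ}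
    (hs : 0 < s) : s ^ Fintype.card ι ≤
      ((simplex W hW s).card : ℝ) * ((Fintype.card ι).factorial * ∏ i, W i) := by
  obtain ⟨S, h1, h2⟩ := simplex_lower W hW hs
  refine h2.trans ?_
  have : 0 < ∏ i, W i := prod_pos fun i _ => hW i
  gcongr
  exact fun e he => mem_simplex.2 (h1 e he).le

theorem card_simplex_le {ι : Type} [Fintype ι] (W : ι → ℝ) (hW : ∀ i, 0 < W i) {s : ℝ}
    (hs : 0 ≤ s) : ((simplex W hW s).card : ℝ) * ((Fintype.card ι).factorial * ∏ i, W i) ≤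
      (s + ∑ i, W i) ^ Fintype.card ι :=
  simplex_upper W hW hs _ fun _ he => mem_simplex.1 he

theorem eventually_card_ratio {ι : Type} [Fintype ι] (W g : ι → ℝ) (hW : ∀ i, 0 < W i)
    (hg : ∀ i, 0 < g i) {y ε : ℝ} (hy : 0 ≤ y)
    (h : y ^ Fintype.card ι * ∏ i, W i < ε * ∏ i, g i) :
    ∀ᶠ D : ℝ in atTop, ((simplex g hg (y * D)).card : ℝ) ≤ ε * (simplex W hW D).card := by
  set n := Fintype.card ι with hn
  have hP1 : 0 < ∏ i, W i := prod_pos fun i _ => hW i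
  have hP2 : 0 < ∏ i, g i := prod_pos fun i _ => hg i
  have hε : 0 < ε := (mul_pos_iff_of_pos_right hP2).1 (lt_of_le_of_lt (by positivity) h)
  have t1 : Tendsto (fun D : ℝ => (y + (∑ i, g i) / D) ^ n * ∏ i, W i) atTop
      (nhds ((y + 0) ^ n * ∏ i, W i)) :=
    (((tendsto_const_nhds.div_atTop tendsto_id).const_add y).pow n).mul_const _
  rw [add_zero] at t1
  filter_upwards [t1.eventually (gt_mem_nhds h), eventually_gt_atTop 0] with D h1 hD
  have h2 := card_simplex_ge W hW hD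
  have h3 := card_simplex_le g hg (s := y * D) (by positivity)
  rw [← hn] at h2 h3
  have e : y * D + ∑ i, g i = (y + (∑ i, g i) / D) * D := by field_simp
  rw [e, mul_pow] at h3
  have hf : (0 : ℝ) < n.factorial := by exact_mod_cast n.factorial_pos
  refine le_of_mul_le_mul_right ?_ (show 0 < n.factorial * (∏ i, g i) * ∏ i, W i by positivity)
  calc _ = ((simplex g hg (y * D)).card * (n.factorial * ∏ i, g i)) * ∏ i, W i := by ring
    _ ≤ ((y + (∑ i, g i) / D) ^ n * D ^ n) * ∏ i, W i := by gcongr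
    _ = ((y + (∑ i, g i) / D) ^ n * ∏ i, W i) * D ^ n := by ring
    _ ≤ (ε * ∏ i, g i) * ((simplex W hW D).card * (n.factorial * ∏ i, W i)) := by gcongr
    _ = _ := by ring

theorem eventually_card_le_exp {ι : Type} [Fintype ι] (W : ι → ℝ) (hW : ∀ i, 0 < W i) {τ : ℝ}
    (hτ : 0 < τ) : ∀ᶠ D : ℝ in atTop, ((simplex W hW D).card : ℝ) ≤ Real.exp (2 * τ * D) := by
  set n := Fintype.card ι with hn
  have hP1 : 0 < ∏ i, W i := prod_pos fun i _ => hW i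
  have hS : 0 ≤ ∑ i, W i := sum_nonneg fun i _ => (hW i).le
  have t1 : Tendsto (fun D : ℝ => Real.exp (τ * D)) atTop atTop :=
    Real.tendsto_exp_atTop.comp (tendsto_id.const_mul_atTop hτ)
  filter_upwards [t1.eventually_ge_atTop (Real.exp (τ * ∑ i, W i) / (τ ^ n * ∏ i, W i)),
    eventually_ge_atTop 0] with D h1 hD
  have h3 := card_simplex_le W hW hD
  rw [← hn] at h3
  have h4 := Real.pow_div_factorial_le_exp (τ * (D + ∑ i, W i)) (by positivity) n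
  have hf : (0 : ℝ) < n.factorial := by exact_mod_cast n.factorial_pos
  rw [div_le_iff₀ hf, mul_add τ, Real.exp_add, ← mul_add, mul_pow] at h4
  rw [div_le_iff₀ (by positivity)] at h1
  refine le_of_mul_le_mul_right ?_ (show 0 < τ ^ n * (n.factorial * ∏ i, W i) by positivity)
  calc _ = τ ^ n * ((simplex W hW D).card * (n.factorial * ∏ i, W i)) := by ring
    _ ≤ τ ^ n * (D + ∑ i, W i) ^ n := by gcongr
    _ ≤ Real.exp (τ * D) * Real.exp (τ * ∑ i, W i) * n.factorial := h4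
    _ ≤ Real.exp (τ * D) * (Real.exp (τ * D) * (τ ^ n * ∏ i, W i)) * n.factorial := by gcongr
    _ = _ := by rw [show 2 * τ * D = τ * D + τ * D by ring, Real.exp_add]; ring

theorem gamma_le {m K A : ℕ} {τ ℓ lam D : ℝ} (hK : 1 ≤ K) (hlam : 0 < lam)
    (hK' : 54 * K ≤ τ * lam) (hℓ : 0 < ℓ) (hD : 0 ≤ D) (hA : (A : ℝ) ≤ D / ℓ)
    (h1 : m * Real.log (2 * K + 3) + Real.log (12 * (8 * K + 1)) + m ≤ τ * ℓ)
    (h2 : 2 ≤ Real.exp (τ * D)) :
    ((2 * K + 3) ^ (m * A) * (12 * (8 * K + 1)) ^ A * Real.exp (D / lam * (6 * (8 * K + 1))) *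
      (2 * (A + 1) ^ m) : ℝ) ≤ Real.exp (3 * τ * D) := by
  have hK1 : (1 : ℝ) ≤ K := by exact_mod_cast hK
  have hA0 : (0 : ℝ) ≤ A := Nat.cast_nonneg A
  have e1 : (2 * K + 3 : ℝ) ^ (m * A) = Real.exp (A * (m * Real.log (2 * K + 3))) := by
    rw [← mul_assoc, ← Nat.cast_mul, Real.exp_nat_mul, Real.exp_log (by linarith), mul_comm A m]
  have e2 : (12 * (8 * K + 1) : ℝ) ^ A = Real.exp (A * Real.log (12 * (8 * K + 1))) := by
    rw [Real.exp_nat_mul, Real.exp_log (by linarith)]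
  have e3 : (A + 1 : ℝ) ^ m ≤ Real.exp (A * m) := by
    rw [mul_comm, Real.exp_nat_mul]
    exact pow_le_pow_left₀ (by linarith) (Real.add_one_le_exp _) m
  have e4 : D / lam * (6 * (8 * K + 1)) ≤ τ * D := by
    rw [div_mul_eq_mul_div, div_le_iff₀ hlam]
    nlinarith
  have e5 : A * (m * Real.log (2 * K + 3) + Real.log (12 * (8 * K + 1)) + m) ≤ τ * D := by
    have h3 : 0 ≤ τ * ℓ := by
      have := Real.log_nonneg (show (1 : ℝ) ≤ 2 * K + 3 by linarith)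
      have := Real.log_nonneg (show (1 : ℝ) ≤ 12 * (8 * K + 1) by linarith)
      refine le_trans ?_ h1
      positivity
    calc _ ≤ A * (τ * ℓ) := by gcongr
      _ ≤ D / ℓ * (τ * ℓ) := by gcongr
      _ = _ := by field_simp
  rw [e1, e2]
  calc _ ≤ Real.exp (A * (m * Real.log (2 * K + 3))) *
        Real.exp (A * Real.log (12 * (8 * K + 1))) * Real.exp (τ * D) *
        (Real.exp (τ * D) * Real.exp (A * m)) := by gcongr
    _ ≤ _ := by
      simp only [← Real.exp_add]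
      rw [Real.exp_le_exp]
      nlinarith

theorem final_num {ν x ρ τ κ ω D Γ : ℝ} {N NG : ℕ} (hν : 0 < ν) (hx1 : x < 1) (hτ : 0 < τ)
    (hgap : 1 + (ν - 1) * ρ + 10 * τ ≤ ν * x) (hD : 0 < D) (hκω : κ / ω ≤ τ) (hN : (0 : ℝ) < N)
    (hD1 : (NG : ℝ) ≤ τ / ν * N) (hD2 : (N : ℝ) ≤ Real.exp (2 * τ * D)) (hΓ0 : 0 ≤ Γ)
    (hΓ : Γ ≤ Real.exp (3 * τ * D))
    (hcore : Real.exp (ν * x * D * (N - NG)) ≤
      (Real.exp ((1 + τ + κ / ω + (ν - 1) * ρ) * D) * N * Γ) ^ N) : False := by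
  have h5 : Real.exp (ν * x * D * (N - NG)) ≤ Real.exp ((1 + (ν - 1) * ρ + 7 * τ) * D) ^ N := by
    refine hcore.trans (pow_le_pow_left₀ (by positivity) ?_ N)
    calc _ ≤ Real.exp ((1 + τ + τ + (ν - 1) * ρ) * D) * Real.exp (2 * τ * D) *
          Real.exp (3 * τ * D) := by gcongr
      _ = _ := by simp only [← Real.exp_add]; congr 1; ring
  rw [← Real.exp_nat_mul, Real.exp_le_exp] at h5
  have h6 : ν * x * D * NG ≤ τ * D * N := by
    calc ν * x * D * NG ≤ ν * 1 * D * (τ / ν * N) := by gcongr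
      _ = _ := by field_simp
  have h7 : 0 < τ * D * N := by positivity
  have h8 : (1 + (ν - 1) * ρ + 10 * τ) * (D * N) ≤ ν * x * (D * N) := by gcongr
  nlinarith

theorem contra_of_params {m K : ℕ} {ν x ρ1 ρ τ κ ω lam η ℓ : ℝ} (p : Fin m → ℤ) (q : Fin m → ℕ)
    (hν : 1 ≤ ν) (hx : 0 < x) (hx1 : x < 1) (hτ : 0 < τ)
    (hgap : 1 + (ν - 1) * ρ + 10 * τ ≤ ν * x) (hκω' : κ / ω ≤ τ)
    (hlam1 : ν * x ^ (m + 1) * lam ≤ τ / ν / 2) (hK1 : 1 ≤ K) (hK2 : 54 * K ≤ τ * lam)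
    (hℓ3 : m * Real.log (2 * K + 3) + Real.log (12 * (8 * K + 1)) + m ≤ τ * ℓ)
    (hκ : 1 ≤ κ) (hω : 0 < ω) (hκω : κ ≤ ν * ω) (hη : 0 < η) (hη1 : η ≤ 1)
    (hρ1 : 0 < ρ1) (hρ : ρ1 + (m + 1) * η ≤ ρ) (hρ' : ρ ≤ 1) (hlam : ω ≤ ρ * lam)
    (hlam0 : 0 < lam) (hvol : ω < K * ρ1 ^ (m + 1) * lam) (hℓ : 0 < ℓ)
    (hL : ∀ j, ℓ ≤ Real.log (q j))
    (hsep0 : ∀ j, ω < η ^ (m + 1) * Real.log (q j))
    (hsep : ∀ i j, i < j → Real.log (q i) < η ^ (m + 1) * Real.log (q j))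
    (happ : ∀ j, |Real.pi - p j / q j| ≤ Real.exp (-(ν * Real.log (q j))))
    (hden : ∀ j, 6 * (ν * Real.log (q j) / κ + 1) ≤ τ * Real.log (q j)) : False := by
  have hν0 : 0 < ν := by linarith
  have hL0 : ∀ j, 0 < Real.log (q j) := fun j => hℓ.trans_le (hL j)
  have hWpos := cons_pos hlam0 hL0
  have hgpos : ∀ i, 0 < (Fin.cons 1 fun j => ν * Real.log (q j) : Fin (m + 1) → ℝ) i :=
    cons_pos one_pos fun j => mul_pos hν0 (hL0 j)
  have ev1 := eventually_card_ratio _ _ hWpos hgpos (y := ν * x) (ε := τ / ν) (by positivity) (by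
    have hP : 0 < ∏ j, Real.log (q j) := prod_pos fun j _ => hL0 j
    simp only [Fintype.card_fin, Fin.prod_univ_succ, Fin.cons_zero, Fin.cons_succ, one_mul,
      prod_mul_distrib, prod_const, card_univ]
    calc (ν * x) ^ (m + 1) * (lam * ∏ j, Real.log (q j))
        = (ν * x ^ (m + 1) * lam) * (ν ^ m * ∏ j, Real.log (q j)) := by ring
      _ ≤ (τ / ν / 2) * (ν ^ m * ∏ j, Real.log (q j)) := by gcongr
      _ < _ := mul_lt_mul_of_pos_right (half_lt_self (div_pos hτ hν0)) (by positivity))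
  have ev2 := eventually_card_le_exp _ hWpos hτ
  have ev3 : ∀ᶠ D : ℝ in atTop, 2 ≤ Real.exp (τ * D) :=
    (Real.tendsto_exp_atTop.comp (tendsto_id.const_mul_atTop hτ)).eventually_ge_atTop 2
  obtain ⟨D, ⟨⟨hD1, hD2⟩, hD3⟩, hD⟩ := (((ev1.and ev2).and ev3).and (eventually_gt_atTop 0)).exists
  have hcore := core_ineq (D := D) (G := ν * x * D) p q hν hκ hω hκω hη hη1 hρ1 hρ hρ' hlam hlam0
    hvol hℓ hL hL0 hsep0 hsep happ hden hτ.le hD.le (by positivity) rfl rfl rfl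
  have hΓ := gamma_le (m := m) (A := ⌊D / ℓ⌋₊) hK1 hlam0 hK2 hℓ hD.le
    (Nat.floor_le (by positivity)) hℓ3 hD3
  have hN0 := card_simplex_ge _ hWpos hD
  refine final_num hν0 hx1 hτ hgap hD hκω' ?_ hD1 hD2 (by positivity) hΓ hcore
  rcases Nat.eq_zero_or_pos (simplex (Fin.cons lam fun j => Real.log (q j)) hWpos D).card
    with h | h
  · rw [h, Nat.cast_zero, zero_mul] at hN0
    exact absurd hN0 (not_le.2 (pow_pos hD _))
  · exact_mod_cast h

theorem no_good_approx {ν : ℝ} (hν : 2 < ν)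
    (h : ∀ T : ℝ, ∃ a : ℤ × ℕ, T < Real.log a.2 ∧
      |Real.pi - a.1 / a.2| ≤ Real.exp (-(ν * Real.log a.2))) : False := by
  obtain ⟨x, ρ1, ρ, τ, hx, hx1, hρ1, hρ, hρ', hτ, hgap⟩ := exists_ratios hν
  have hν0 : 0 < ν := by linarith
  have hρ10 : 0 < ρ1 := lt_trans (by positivity) hρ1
  obtain ⟨κ, hκ⟩ : ∃ κ, κ = 12 * ν / τ + 1 := ⟨_, rfl⟩
  have hκ1 : 1 ≤ κ := by
    have : 0 ≤ 12 * ν / τ := by positivity
    linarith
  obtain ⟨ω, hω⟩ : ∃ ω, ω = κ / τ + κ := ⟨_, rfl⟩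
  have hω0 : 0 < ω := by rw [hω]; positivity
  obtain ⟨m, K, lam, hlam0, hlam1, hK1, hK2, hvol, hlam2⟩ :=
    exists_dims (ω := ω) hν0 hx hx1 hρ1 (hρ10.trans hρ) hτ
  obtain ⟨η, hη⟩ : ∃ η, η = (ρ - ρ1) / (m + 1) := ⟨_, rfl⟩
  have hη0 : 0 < η := hη ▸ div_pos (by linarith) (by positivity)
  have hη1 : η ≤ 1 := by
    rw [hη, div_le_one (by positivity)]
    have : (0 : ℝ) ≤ m := Nat.cast_nonneg m
    linarith
  have hηp : 0 < η ^ (m + 1) := pow_pos hη0 _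
  have hηp1 : η ^ (m + 1) ≤ 1 := pow_le_one₀ hη0.le hη1
  obtain ⟨ℓ, hℓ1, hℓ2, hℓ3⟩ : ∃ ℓ, ω / η ^ (m + 1) ≤ ℓ ∧ 12 / τ ≤ ℓ ∧
      (m * Real.log (2 * K + 3) + Real.log (12 * (8 * K + 1)) + m) / τ ≤ ℓ :=
    ⟨max (max _ _) _, (le_max_left _ _).trans (le_max_left _ _),
      (le_max_right _ _).trans (le_max_left _ _), le_max_right _ _⟩
  have hℓ0 : 0 < ℓ := lt_of_lt_of_le (by positivity) hℓ2
  obtain ⟨s, hs1, hs2⟩ := exists_seq
    (fun a : {a : ℤ × ℕ // |Real.pi - a.1 / a.2| ≤ Real.exp (-(ν * Real.log a.2))} =>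
      Real.log a.1.2) (fun T => by obtain ⟨a, h1, h2⟩ := h T; exact ⟨⟨a, h2⟩, h1⟩) ℓ
    (1 / η ^ (m + 1)) hℓ0 (one_le_one_div hηp hηp1)
  rw [div_le_iff₀ hηp] at hℓ1
  rw [div_le_iff₀ hτ] at hℓ2 hℓ3
  refine contra_of_params (κ := κ) (ω := ω) (η := η) (ℓ := ℓ) (fun j : Fin m => (s j).1.1)
    (fun j : Fin m => (s j).1.2) (by linarith) hx hx1 hτ hgap ?_ hlam1 hK1 hK2 (by linarith)
    hκ1 hω0 ?_ hη0 hη1 hρ10 ?_ hρ' hlam2 hlam0 hvol hℓ0 (fun j => (hs1 j).le) (fun j => ?_)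
    (fun i j hij => ?_) (fun j => (s j).2) (fun j => ?_)
  · rw [div_le_iff₀ hω0, hω, mul_add, mul_div_cancel₀ _ hτ.ne']
    have : 0 ≤ τ * κ := by positivity
    linarith
  · have : 0 ≤ κ / τ := by positivity
    nlinarith
  · rw [hη, mul_div_cancel₀ _ (by positivity)]; linarith
  · nlinarith [hs1 j]
  · have := hs2 i j hij
    rwa [one_div, inv_mul_lt_iff₀ hηp] at this
  · have h1 := hs1 j
    generalize Real.log ((s j).1.2 : ℝ) = L at h1 ⊢
    have h2 : 0 < L := hℓ0.trans h1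
    have h3 : ν * L / κ ≤ τ / 12 * L := by
      rw [div_le_iff₀ (by linarith), hκ]
      have : τ / 12 * L * (12 * ν / τ + 1) = ν * L + τ / 12 * L := by field_simp
      rw [this]
      have : 0 ≤ τ / 12 * L := by positivity
      linarith
    nlinarith

end Vale.Agent.P021
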