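import Vale.Agent.P021.HF

/-!
Order filtrations defined by words of derivations.
-/

namespace Vale.Agent.P021

open Module MvPolynomial

/-- weight of an exponent vector -/
noncomputable def wt {ι : Type} [Fintype ι] (W : ι → ℝ) (e : ι →₀ ℕ) : ℝ := ∑ i, W i * (e i : ℝ)

theorem wt_add {ι : Type} [Fintype ι] (W : ι → ℝ) (e e' : ι →₀ ℕ) :
    wt W (e + e') = wt W e + wt W e' := by
  simp [wt, mul_add, Finset.sum_add_distrib]

theorem wt_zero {ι : Type} [Fintype ι] (W : ι → ℝ) : wt W 0 = 0 := by simp [wt]

theorem wt_single {ι : Type} [Fintype ι] (W : ι → ℝ) (i : ι) (n : ℕ) :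
    wt W (Finsupp.single i n) = W i * n := by
  classical
  unfold wt
  rw [Finset.sum_eq_single i]
  · simp
  · intro j _ hj
    simp [hj.symm]
  · simp

theorem wt_nonneg {ι : Type} [Fintype ι] {W : ι → ℝ} (hW : ∀ i, 0 ≤ W i) (e : ι →₀ ℕ) :
    0 ≤ wt W e :=
  Finset.sum_nonneg fun i _ => mul_nonneg (hW i) (Nat.cast_nonneg _)

/-- derivations of a complex algebra -/
abbrev Der (R : Type) [CommRing R] [Algebra ℂ R] : Type := Derivation ℂ R R

section Ord
variable {R : Type} [CommRing R] [Algebra ℂ R] {α : Type}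

/-- apply a word of derivations, head first -/
def app (d : α → Der R) : List α → R → R
  | [], f => f
  | i :: w, f => app d w (d i f)

/-- cost of a word -/
def wcost (c : α → ℝ) (w : List α) : ℝ := (w.map c).sum

@[simp] theorem wcost_nil (c : α → ℝ) : wcost c [] = 0 := rfl

@[simp] theorem wcost_cons (c : α → ℝ) (i : α) (w : List α) :
    wcost c (i :: w) = c i + wcost c w := by simp [wcost]

theorem wcost_append (c : α → ℝ) (w w' : List α) :
    wcost c (w ++ w') = wcost c w + wcost c w' := by simp [wcost]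

theorem wcost_nonneg {c : α → ℝ} (hc : ∀ i, 0 ≤ c i) (w : List α) : 0 ≤ wcost c w := by
  induction w with
  | nil => simp
  | cons i w ih => rw [wcost_cons]; exact add_nonneg (hc i) ih

theorem app_add (d : α → Der R) (w : List α) (f g : R) :
    app d w (f + g) = app d w f + app d w g := by
  induction w generalizing f g with
  | nil => rfl
  | cons i w ih => simp only [app, map_add, ih]

theorem app_zero (d : α → Der R) (w : List α) : app d w 0 = 0 := by
  induction w with
  | nil => rfl
  | cons i w ih => simp only [app, map_zero, ih]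

theorem app_append (d : α → Der R) (w w' : List α) (f : R) :
    app d (w ++ w') f = app d w' (app d w f) := by
  induction w generalizing f with
  | nil => rfl
  | cons i w ih => simp only [List.cons_append, app, ih]

theorem app_sum (d : α → Der R) (w : List α) {β : Type} (S : Finset β) (f : β → R) :
    app d w (∑ b ∈ S, f b) = ∑ b ∈ S, app d w (f b) := by
  classical
  induction S using Finset.induction_on with
  | empty => simp [app_zero]
  | insert b S hb ih => rw [Finset.sum_insert hb, Finset.sum_insert hb, app_add, ih]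

/-- order at least `s` -/
def OrdP (d : α → Der R) (c : α → ℝ) (q : Ideal R) (s : ℝ) (f : R) : Prop :=
  ∀ w, wcost c w < s → app d w f ∈ q

variable {d : α → Der R} {c : α → ℝ} {q : Ideal R}

theorem OrdP.deriv {s : ℝ} {f : R} (h : OrdP d c q s f) (i : α) :
    OrdP d c q (s - c i) (d i f) := fun w hw =>
  h (i :: w) (by rw [wcost_cons]; linarith)

theorem OrdP.mul_aux (w : List α) : ∀ (s s' : ℝ) (f g : R), OrdP d c q s f → OrdP d c q s' g →
    wcost c w < s + s' → app d w (f * g) ∈ q := by
  induction w with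
  | nil =>
    intro s s' f g hf hg h
    simp only [wcost_nil] at h
    by_cases hs : 0 < s
    · exact q.mul_mem_right g (hf [] hs)
    · exact q.mul_mem_left f (hg [] (by simp only [wcost_nil]; linarith))
  | cons i w ih =>
    intro s s' f g hf hg h
    rw [wcost_cons] at h
    simp only [app, Derivation.leibniz, smul_eq_mul, app_add]
    refine add_mem (ih s (s' - c i) f _ hf (hg.deriv i) (by linarith)) ?_
    rw [mul_comm]
    exact ih (s - c i) s' _ g (hf.deriv i) hg (by linarith)

/-- the order filtration -/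
def ord (d : α → Der R) (c : α → ℝ) (hc : ∀ i, 0 ≤ c i) (q : Ideal R) (s : ℝ) :
    Ideal R where
  carrier := {f | OrdP d c q s f}
  add_mem' := fun {f g} hf hg w hw => by
    rw [app_add]; exact add_mem (hf w hw) (hg w hw)
  zero_mem' := fun w _ => by rw [app_zero]; exact zero_mem _
  smul_mem' := fun g f hf w hw =>
    OrdP.mul_aux w 0 s g f (fun w' hw' => absurd (wcost_nonneg hc w') (not_le.2 hw')) hf
      (by rwa [zero_add])

variable {hc : ∀ i, 0 ≤ c i}

theorem mem_ord {s : ℝ} {f : R} :
    f ∈ ord d c hc q s ↔ ∀ w, wcost c w < s → app d w f ∈ q := Iff.rfl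

theorem mem_ord_of_nonpos {s : ℝ} (hs : s ≤ 0) (f : R) : f ∈ ord d c hc q s :=
  fun w hw => absurd (wcost_nonneg hc w) (not_le.2 (hw.trans_le hs))

theorem ord_zero : ord d c hc q 0 = ⊤ :=
  eq_top_iff.2 fun f _ => mem_ord_of_nonpos le_rfl f

theorem ord_anti {s s' : ℝ} (h : s ≤ s') : ord d c hc q s' ≤ ord d c hc q s :=
  fun _ hf w hw => hf w (hw.trans_le h)

theorem mul_mem_ord {s s' : ℝ} {f g : R} (hf : f ∈ ord d c hc q s) (hg : g ∈ ord d c hc q s') :
    f * g ∈ ord d c hc q (s + s') := fun w hw => OrdP.mul_aux w s s' f g hf hg hw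

theorem pow_mem_ord {s : ℝ} {f : R} (hf : f ∈ ord d c hc q s) (n : ℕ) :
    f ^ n ∈ ord d c hc q (s * n) := by
  induction n with
  | zero => exact mem_ord_of_nonpos (by simp) _
  | succ n ih =>
    have := mul_mem_ord ih hf
    rw [pow_succ]
    convert this using 2
    push_cast; ring

theorem prod_mem_ord {β : Type} (S : Finset β) (s : β → ℝ) (f : β → R)
    (h : ∀ b ∈ S, f b ∈ ord d c hc q (s b)) : ∏ b ∈ S, f b ∈ ord d c hc q (∑ b ∈ S, s b) := by
  classical
  induction S using Finset.induction_on with
  | empty => exact mem_ord_of_nonpos (by simp) _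
  | insert b S hb ih =>
    rw [Finset.sum_insert hb, Finset.prod_insert hb]
    exact mul_mem_ord (h b (Finset.mem_insert_self b S))
      (ih fun b' hb' => h b' (Finset.mem_insert_of_mem hb'))

theorem app_mem_ord {s : ℝ} {f : R} (hf : f ∈ ord d c hc q s) (w : List α) :
    app d w f ∈ ord d c hc q (s - wcost c w) := fun w' hw' => by
  rw [← app_append]
  exact hf _ (by rw [wcost_append]; linarith)

theorem mem_ord_of_deriv {s : ℝ} {f : R} (h0 : f ∈ q)
    (h : ∀ i, d i f ∈ ord d c hc q (s - c i)) : f ∈ ord d c hc q s := by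
  intro w hw
  cases w with
  | nil => exact h0
  | cons i w => exact h i w (by rw [wcost_cons] at hw; linarith)

theorem mem_ord_of_le {c0 : ℝ} (h0 : ∀ i, c0 ≤ c i) {f : R} (hf : f ∈ q) :
    f ∈ ord d c hc q c0 :=
  mem_ord_of_deriv hf fun i => mem_ord_of_nonpos (by linarith [h0 i]) _

theorem exists_pow_mem_ord {c0 : ℝ} (hc0 : 0 < c0) (h0 : ∀ i, c0 ≤ c i) {f : R} (hf : f ∈ q)
    (s : ℝ) : ∃ n : ℕ, f ^ n ∈ ord d c hc q s := by
  obtain ⟨n, hn⟩ := exists_nat_ge (s / c0)
  refine ⟨n, ord_anti ?_ (pow_mem_ord (mem_ord_of_le h0 hf) n)⟩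
  rw [div_le_iff₀ hc0] at hn
  linarith

theorem deriv_mem_pow (D : Der R) (n : ℕ) {f : R} (hf : f ∈ q ^ (n + 1)) :
    D f ∈ q ^ n := by
  induction n generalizing f with
  | zero => simp
  | succ n ih =>
    rw [pow_succ] at hf
    refine Submodule.mul_induction_on hf ?_ ?_
    · intro x hx y hy
      rw [Derivation.leibniz, smul_eq_mul, smul_eq_mul]
      refine add_mem (Ideal.mul_mem_right _ _ hx) ?_
      rw [pow_succ, mul_comm y]
      exact Ideal.mul_mem_mul (ih hx) hy
    · intro x y hx hy
      rw [map_add]; exact add_mem hx hy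

theorem app_mem_of_pow (w : List α) : ∀ (n : ℕ) {f : R}, f ∈ q ^ n → w.length < n →
    app d w f ∈ q := by
  induction w with
  | nil =>
    intro n f hf hn
    exact Ideal.pow_le_self (by simp at hn; omega) hf
  | cons i w ih =>
    intro n f hf hn
    obtain ⟨n, rfl⟩ : ∃ k, n = k + 1 := ⟨n - 1, by simp at hn; omega⟩
    exact ih n (deriv_mem_pow (d i) n hf) (by simp at hn; omega)

theorem deriv_aeval {ι : Type} [Fintype ι] (D : Der R) (g : ι → R)
    (p : MvPolynomial ι ℂ) :
    D (aeval g p) = ∑ l, aeval g (pderiv l p) * D (g l) := by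
  classical
  induction p using MvPolynomial.induction_on with
  | C a => simp
  | add p q hp hq => simp [hp, hq, add_mul, Finset.sum_add_distrib]
  | mul_X p i hp =>
    simp only [map_mul, aeval_X, Derivation.leibniz, smul_eq_mul, hp, map_add, add_mul,
      Finset.sum_add_distrib, Finset.mul_sum, pderiv_X, Pi.single_apply]
    congr 1
    · rw [Finset.sum_eq_single i]
      · simp
      · intro j _ hj
        simp [hj.symm]
      · simp
    · exact Finset.sum_congr rfl fun l _ => by ring

theorem aeval_monomial_mem {ι : Type} {g : ι → R} (hg : ∀ l, g l ∈ q) (β : ι →₀ ℕ) (z : ℂ) :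
    aeval g (monomial β z) ∈ q ^ β.degree := by
  rw [aeval_monomial]
  refine Ideal.mul_mem_left _ _ ?_
  rw [Finsupp.prod, Finsupp.degree_apply, ← Finset.prod_pow_eq_pow_sum]
  exact Ideal.prod_mem_prod fun i _ => Ideal.pow_mem_pow (hg i) _

/-- the coefficient produced by a word on a monomial -/
noncomputable def kap {ι : Type} : List ι → (ι →₀ ℕ) → ℕ
  | [], β => by classical exact if β = 0 then 1 else 0
  | i :: w, β => β i * kap w (β - Finsupp.single i 1)

theorem degree_sub_single {ι : Type} {β : ι →₀ ℕ} {i : ι} (h : β i ≠ 0) :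
    (β - Finsupp.single i 1).degree + 1 = β.degree := by
  conv_rhs => rw [← Finsupp.sub_add_single_one_cancel h]
  rw [map_add, Finsupp.degree_single]

theorem app_monomial {ι : Type} [Fintype ι] [DecidableEq ι] (e : ι → α) {g : ι → R}
    (hg : ∀ l, g l ∈ q) (γ : R)
    (hd : ∀ i l, d (e i) (g l) - (if i = l then γ else 0) ∈ q) (w : List ι) :
    ∀ (β : ι →₀ ℕ) (z : R), w.length ≤ β.degree →
      app d (w.map e) (z * aeval g (monomial β (1 : ℂ))) - kap w β * γ ^ w.length * z ∈ q := by
  induction w with
  | nil =>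
    intro β z _
    by_cases h : β = 0
    · simp [app, kap, h]
    · have h1 := aeval_monomial_mem hg β (1 : ℂ)
      have h2 : β.degree ≠ 0 := by rwa [Ne, Finsupp.degree_eq_zero_iff]
      simp only [List.map_nil, app, kap, h, if_false, Nat.cast_zero, zero_mul, sub_zero]
      exact q.mul_mem_left _ (Ideal.pow_le_self h2 h1)
  | cons i w ih =>
    intro β z hlen
    simp only [List.length_cons] at hlen
    have key : d (e i) (z * aeval g (monomial β (1 : ℂ))) -
        (β i * γ * z) * aeval g (monomial (β - Finsupp.single i 1) (1 : ℂ)) ∈ q ^ β.degree := by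
      rw [Derivation.leibniz, smul_eq_mul, smul_eq_mul, deriv_aeval]
      have e1 : (β i * γ * z) * aeval g (monomial (β - Finsupp.single i 1) (1 : ℂ)) =
          z * ∑ l, aeval g (pderiv l (monomial β (1 : ℂ))) * (if i = l then γ else 0) := by
        rw [Finset.sum_eq_single i]
        · rw [pderiv_monomial, aeval_monomial, aeval_monomial]
          simp
          ring
        · intro j _ hj
          simp [hj.symm]
        · simp
      rw [e1, add_sub_right_comm, ← mul_sub, ← Finset.sum_sub_distrib]
      refine add_mem (Ideal.mul_mem_left _ _ (Ideal.sum_mem _ fun l _ => ?_))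
        (Ideal.mul_mem_right _ _ (aeval_monomial_mem hg β 1))
      rw [← mul_sub, pderiv_monomial]
      by_cases hl : β l = 0
      · simp [hl]
      · rw [← degree_sub_single hl, pow_succ]
        exact Ideal.mul_mem_mul (aeval_monomial_mem hg _ _) (hd i l)
    have e2 : d (e i) (z * aeval g (monomial β (1 : ℂ))) =
        (d (e i) (z * aeval g (monomial β (1 : ℂ))) -
        (β i * γ * z) * aeval g (monomial (β - Finsupp.single i 1) (1 : ℂ))) +
        (β i * γ * z) * aeval g (monomial (β - Finsupp.single i 1) (1 : ℂ)) := by ring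
    simp only [List.map_cons, app, kap, List.length_cons]
    rw [e2, app_add, add_sub_assoc]
    refine add_mem (app_mem_of_pow _ _ key (by simp; omega)) ?_
    by_cases hi : β i = 0
    · simp [hi, app_zero]
    · have := ih (β - Finsupp.single i 1) (β i * γ * z) (by
        have := degree_sub_single hi; omega)
      convert this using 2
      push_cast; ring

theorem kap_unique {ι : Type} (w : List ι) : ∀ β β' : ι →₀ ℕ, kap w β ≠ 0 → kap w β' ≠ 0 →
    β = β' := by
  induction w with
  | nil =>
    intro β β' h h'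
    simp only [kap, ne_eq, ite_eq_right_iff, one_ne_zero, imp_false, not_not] at h h'
    rw [h, h']
  | cons i w ih =>
    intro β β' h h'
    simp only [kap, ne_eq, mul_eq_zero, not_or] at h h'
    rw [← Finsupp.sub_add_single_one_cancel h.1, ← Finsupp.sub_add_single_one_cancel h'.1,
      ih _ _ h.2 h'.2]

theorem exists_word {ι : Type} [Fintype ι] (W : ι → ℝ) (n : ℕ) :
    ∀ β : ι →₀ ℕ, β.degree = n →
      ∃ w : List ι, w.length = n ∧ kap w β ≠ 0 ∧ wcost W w = wt W β := by
  induction n with
  | zero =>
    intro β h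
    rw [Finsupp.degree_eq_zero_iff] at h
    exact ⟨[], rfl, by simp [kap, h], by simp [h, wt_zero]⟩
  | succ n ih =>
    intro β h
    have hne : β ≠ 0 := by rintro rfl; simp at h
    obtain ⟨i, hi⟩ : ∃ i, β i ≠ 0 := by
      by_contra hcon
      push Not at hcon
      exact hne (Finsupp.ext hcon)
    obtain ⟨w, h1, h2, h3⟩ := ih (β - Finsupp.single i 1) (by
      have := degree_sub_single hi; omega)
    refine ⟨i :: w, by simp [h1], by simp [kap, hi, h2], ?_⟩
    rw [wcost_cons, h3]
    conv_rhs => rw [← Finsupp.sub_add_single_one_cancel hi, wt_add, wt_single]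
    simp [add_comm]

theorem card_le_hq_ord {A : Type} [CommRing A] [IsDomain A] [Algebra A R] (hq' : q.IsPrime)
    (hA : ∀ z : A, algebraMap A R z ∈ q → z = 0)
    {ι : Type} [Fintype ι] [DecidableEq ι] (e : ι → α) {g : ι → R}
    (hg : ∀ l, g l ∈ q) {γ : R} (hγ : γ ∉ q)
    (hd : ∀ i l, d (e i) (g l) - (if i = l then γ else 0) ∈ q) (s : ℝ)
    (S : Finset (ι →₀ ℕ)) (hS : ∀ β ∈ S, wt (fun i => c (e i)) β < s) :
    (S.card : Cardinal) ≤ hq A (ord d c hc q s) := by
  classical
  have hli : LinearIndependent A (fun β : S =>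
      Ideal.Quotient.mk (ord d c hc q s) (aeval g (monomial β.1 (1 : ℂ)))) := by
    rw [Fintype.linearIndependent_iff]
    intro z hz
    by_contra hcon
    push Not at hcon
    obtain ⟨β0, hβ0, hmin⟩ := Finset.exists_min_image
      (Finset.univ.filter fun β : S => z β ≠ 0) (fun β => β.1.degree)
      (by obtain ⟨β, hβ⟩ := hcon; exact ⟨β, by simpa using hβ⟩)
    simp only [Finset.mem_filter, Finset.mem_univ, true_and] at hβ0 hmin
    obtain ⟨w, hw1, hw2, hw3⟩ := exists_word (fun i => c (e i)) _ β0.1 rfl
    have hmem : ∑ β : S, algebraMap A R (z β) * aeval g (monomial β.1 (1 : ℂ)) ∈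
        ord d c hc q s := by
      rw [← Ideal.Quotient.eq_zero_iff_mem, ← hz, map_sum]
      refine Finset.sum_congr rfl fun β _ => ?_
      rw [← Algebra.smul_def]
      rfl
    have h1 := hmem (w.map e) (by
      have : wcost c (w.map e) = wcost (fun i => c (e i)) w := by
        simp [wcost, Function.comp_def]
      rw [this, hw3]; exact hS _ β0.2)
    rw [app_sum] at h1
    have h2 : ∑ β : S, (app d (w.map e) (algebraMap A R (z β) * aeval g (monomial β.1 (1 : ℂ)))
        - kap w β.1 * γ ^ w.length * algebraMap A R (z β)) ∈ q := by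
      refine Ideal.sum_mem _ fun β _ => ?_
      by_cases hβ : z β = 0
      · simp [hβ, app_zero]
      · exact app_monomial e hg γ hd w β.1 _ (by rw [hw1]; exact hmin β hβ)
    rw [Finset.sum_sub_distrib] at h2
    have h3 := sub_mem h1 h2
    rw [sub_sub_cancel, Finset.sum_eq_single β0] at h3
    · rcases hq'.mem_or_mem h3 with h4 | h4
      · rcases hq'.mem_or_mem h4 with h5 | h5
        · have hu : IsUnit ((kap w β0.1 : ℕ) : R) := by
            have : ((kap w β0.1 : ℕ) : R) = algebraMap ℂ R (kap w β0.1 : ℕ) := by simp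
            rw [this]
            exact (IsUnit.mk0 _ (Nat.cast_ne_zero.2 hw2)).map _
          exact hq'.ne_top (Ideal.eq_top_of_isUnit_mem _ h5 hu)
        · exact hγ (hq'.mem_of_pow_mem _ h5)
      · exact hβ0 (hA _ h4)
    · intro β _ hβ
      have : kap w β.1 = 0 := by
        by_contra h
        exact hβ (Subtype.ext (kap_unique w _ _ h hw2))
      simp [this]
    · simp
  have := hli.cardinal_le_rank
  simpa [hq] using this

end Ord

end Vale.Agent.P021
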