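import Vale.Agent.P021.Ord

/-!
Lattice point counts in simplices.
-/

namespace Vale.Agent.P021

open Finset

theorem tele_upper (n : ℕ) (X w : ℝ) (hw : 0 ≤ w) (M : ℕ) (h : 0 ≤ X - M * w + w) :
    (n + 1) * w * ∑ v ∈ range M, (X - v * w) ^ n + (X - M * w + w) ^ (n + 1) ≤
      (X + w) ^ (n + 1) := by
  induction M with
  | zero => simp
  | succ M ih =>
    have e : X - ((M + 1 : ℕ) : ℝ) * w + w = X - M * w := by push_cast; ring
    rw [e] at h ⊢
    have h1 := ih (by linarith)
    have h2 := pow_add_mul_le_add_pow h (b := w) (by linarith) (n + 1)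
    simp only [Nat.add_sub_cancel, Nat.cast_add, Nat.cast_one] at h2
    rw [sum_range_succ, mul_add]
    nlinarith

theorem pow_sub_pow_le' (n : ℕ) {Y Z : ℝ} (hZ : 0 ≤ Z) (h : Z ≤ Y) :
    Y ^ (n + 1) ≤ Z ^ (n + 1) + (n + 1) * (Y - Z) * Y ^ n := by
  have h1 := abs_pow_sub_pow_le Y Z (n + 1)
  rw [abs_of_nonneg (sub_nonneg.2 h), abs_of_nonneg hZ, abs_of_nonneg (hZ.trans h),
    max_eq_left h] at h1
  simp only [Nat.add_sub_cancel, Nat.cast_add, Nat.cast_one] at h1
  have h2 := le_abs_self (Y ^ (n + 1) - Z ^ (n + 1))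
  nlinarith

theorem tele_lower (n : ℕ) (s w : ℝ) (hs : 0 ≤ s) (hw : 0 ≤ w) (M : ℕ)
    (h : ∀ v < M, (v : ℝ) * w < s) :
    s ^ (n + 1) ≤ (n + 1) * w * ∑ v ∈ range M, (s - v * w) ^ n +
      (max (s - M * w) 0) ^ (n + 1) := by
  induction M with
  | zero => simp [hs]
  | succ M ih =>
    have h1 := ih fun v hv => h v (by omega)
    have h2 : 0 < s - M * w := by linarith [h M (by omega)]
    rw [max_eq_left h2.le] at h1
    have h3 := pow_sub_pow_le' n (Y := s - M * w) (Z := max (s - ((M + 1 : ℕ) : ℝ) * w) 0)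
      (le_max_right _ _) (max_le (by push_cast; linarith) h2.le)
    have h4 : s - M * w - max (s - ((M + 1 : ℕ) : ℝ) * w) 0 ≤ w := by
      have := le_max_left (s - ((M + 1 : ℕ) : ℝ) * w) 0
      push_cast at this ⊢
      linarith
    have h5 : ((n : ℝ) + 1) * (s - M * w - max (s - ((M + 1 : ℕ) : ℝ) * w) 0) * (s - M * w) ^ n ≤
        (n + 1) * w * (s - M * w) ^ n := by gcongr
    rw [sum_range_succ, mul_add]
    linarith

theorem simplex_upper_fin (n : ℕ) : ∀ (W : Fin n → ℝ) (_ : ∀ i, 0 < W i) (s : ℝ) (_ : 0 ≤ s)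
    (S : Finset (Fin n → ℕ)) (_ : ∀ e ∈ S, ∑ i, W i * e i ≤ s),
    (S.card : ℝ) * (n.factorial * ∏ i, W i) ≤ (s + ∑ i, W i) ^ n := by
  induction n with
  | zero =>
    intro W _ s _ S _
    have : S.card ≤ 1 := card_le_one.2 fun a _ b _ => Subsingleton.elim a b
    simpa using this
  | succ n ih =>
    intro W hW s hs S hS
    set w := W 0 with hw
    have hw0 : 0 < w := hW 0
    have hnn : ∀ e : Fin (n + 1) → ℕ, 0 ≤ ∑ i : Fin n, W i.succ * e i.succ := fun e =>
      sum_nonneg fun i _ => mul_nonneg (hW _).le (Nat.cast_nonneg _)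
    have hM : ∀ e ∈ S, e 0 ∈ range (⌊s / w⌋₊ + 1) := by
      intro e he
      have h1 := hS e he
      rw [Fin.sum_univ_succ] at h1
      rw [mem_range, Nat.lt_succ_iff]
      apply Nat.le_floor
      rw [le_div_iff₀ hw0]
      linarith [hnn e]
    have hfl : (⌊s / w⌋₊ : ℝ) * w ≤ s := by
      rw [← le_div_iff₀ hw0]; exact Nat.floor_le (by positivity)
    rw [card_eq_sum_card_fiberwise (f := fun e : Fin (n + 1) → ℕ => e 0) (s := S)
      (t := range (⌊s / w⌋₊ + 1)) (fun e he => mem_coe.2 (hM e (mem_coe.1 he)))]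
    have hfib : ∀ v ∈ range (⌊s / w⌋₊ + 1),
        ((S.filter fun e => e 0 = v).card : ℝ) * (n.factorial * ∏ i : Fin n, W i.succ) ≤
          (s + ∑ i : Fin n, W i.succ - v * w) ^ n := by
      intro v hv
      have hv' : (v : ℝ) * w ≤ s := by
        refine le_trans ?_ hfl
        have : (v : ℝ) ≤ ⌊s / w⌋₊ := by exact_mod_cast Nat.lt_succ_iff.1 (mem_range.1 hv)
        gcongr
      have h1 := ih (fun i => W i.succ) (fun i => hW _) (s - v * w) (by linarith)
        ((S.filter fun e => e 0 = v).image Fin.tail) (by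
          intro e he
          obtain ⟨e, he', rfl⟩ := mem_image.1 he
          obtain ⟨h1, h2⟩ := mem_filter.1 he'
          have h3 := hS e h1
          rw [Fin.sum_univ_succ, h2] at h3
          simp only [Fin.tail]
          linarith)
      rw [card_image_of_injOn] at h1
      · convert h1 using 2; ring
      · intro e he e' he' h
        have h1 := (mem_filter.1 (mem_coe.1 he)).2
        have h2 := (mem_filter.1 (mem_coe.1 he')).2
        rw [← Fin.cons_self_tail e, ← Fin.cons_self_tail e', h, h1, h2]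
    have hsum : 0 ≤ ∑ i : Fin n, W i.succ := sum_nonneg fun i _ => (hW _).le
    have ht := tele_upper n (s + ∑ i : Fin n, W i.succ) w hw0.le (⌊s / w⌋₊ + 1) (by
      push_cast; linarith)
    have hp : 0 ≤ (s + ∑ i : Fin n, W i.succ - ((⌊s / w⌋₊ + 1 : ℕ) : ℝ) * w + w) ^ (n + 1) := by
      apply pow_nonneg; push_cast; linarith
    have hsum2 := sum_le_sum hfib
    rw [← sum_mul] at hsum2
    rw [Fin.prod_univ_succ, Fin.sum_univ_succ, Nat.factorial_succ]
    push_cast at *
    calc _ = (n + 1) * w * ((∑ v ∈ range (⌊s / w⌋₊ + 1),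
          ((S.filter fun e => e 0 = v).card : ℝ)) * (n.factorial * ∏ i : Fin n, W i.succ)) := by
          ring
      _ ≤ (n + 1) * w * ∑ v ∈ range (⌊s / w⌋₊ + 1), (s + ∑ i : Fin n, W i.succ - v * w) ^ n := by
          gcongr
      _ ≤ (s + ∑ i : Fin n, W i.succ + w) ^ (n + 1) := by linarith
      _ = _ := by ring

theorem simplex_lower_fin (n : ℕ) : ∀ (W : Fin n → ℝ) (_ : ∀ i, 0 < W i) (s : ℝ) (_ : 0 < s),
    ∃ S : Finset (Fin n → ℕ), (∀ e ∈ S, ∑ i, W i * e i < s) ∧
      s ^ n ≤ (S.card : ℝ) * (n.factorial * ∏ i, W i) := by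
  induction n with
  | zero =>
    intro W _ s hs
    exact ⟨{0}, by simpa using hs, by simp⟩
  | succ n ih =>
    intro W hW s hs
    set w := W 0 with hw
    have hw0 : 0 < w := hW 0
    set M := ⌈s / w⌉₊ with hM
    have hv : ∀ v < M, (v : ℝ) * w < s := by
      intro v hv
      rw [← lt_div_iff₀ hw0]
      exact Nat.lt_ceil.1 hv
    have hMs : s ≤ M * w := by
      rw [← div_le_iff₀ hw0]; exact Nat.le_ceil _
    have hex : ∀ v : ℕ, ∃ S : Finset (Fin n → ℕ), v < M →
        (∀ e ∈ S, ∑ i, W i.succ * e i < s - v * w) ∧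
        (s - v * w) ^ n ≤ (S.card : ℝ) * (n.factorial * ∏ i : Fin n, W i.succ) := by
      intro v
      by_cases h : v < M
      · obtain ⟨S, hS⟩ := ih (fun i => W i.succ) (fun i => hW _) (s - v * w)
          (by linarith [hv v h])
        exact ⟨S, fun _ => hS⟩
      · exact ⟨∅, fun h' => absurd h' h⟩
    choose T hT using hex
    refine ⟨((range M).sigma T).image (fun p => (Fin.cons p.1 p.2 : Fin (n + 1) → ℕ)), ?_, ?_⟩
    · intro e he
      obtain ⟨⟨v, e⟩, h, rfl⟩ := mem_image.1 he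
      obtain ⟨h1, h2⟩ := mem_sigma.1 h
      have := (hT v (mem_range.1 h1)).1 e h2
      rw [Fin.sum_univ_succ]
      simp only [Fin.cons_zero, Fin.cons_succ]
      linarith
    · rw [card_image_of_injective, card_sigma]
      · have ht := tele_lower n s w hs.le hw0.le M hv
        rw [max_eq_right (by linarith), zero_pow (by omega), add_zero] at ht
        have h2 := sum_le_sum fun v (hv : v ∈ range M) => (hT v (mem_range.1 hv)).2
        rw [← sum_mul] at h2
        rw [Fin.prod_univ_succ, Nat.factorial_succ]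
        push_cast
        calc _ ≤ _ := ht
          _ ≤ (n + 1) * w * ((∑ v ∈ range M, ((T v).card : ℝ)) *
            (n.factorial * ∏ i : Fin n, W i.succ)) := by gcongr
          _ = _ := by ring
      · rintro ⟨v, e⟩ ⟨v', e'⟩ h
        obtain ⟨h1, h2⟩ := Fin.cons_inj.1 h
        dsimp only at h1 h2
        subst h1 h2
        rfl

variable {ι : Type} [Fintype ι]

theorem simplex_upper (W : ι → ℝ) (hW : ∀ i, 0 < W i) {s : ℝ} (hs : 0 ≤ s)
    (S : Finset (ι →₀ ℕ)) (hS : ∀ e ∈ S, wt W e ≤ s) :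
    (S.card : ℝ) * ((Fintype.card ι).factorial * ∏ i, W i) ≤
      (s + ∑ i, W i) ^ Fintype.card ι := by
  classical
  set σ := (Fintype.equivFin ι).symm
  have h := simplex_upper_fin _ (fun i => W (σ i)) (fun i => hW _) s hs
    (S.image fun e i => e (σ i)) (by
      intro e he
      obtain ⟨e, he', rfl⟩ := mem_image.1 he
      rw [σ.sum_comp (fun i => W i * (e i : ℝ))]
      exact hS e he')
  rw [card_image_of_injective, σ.sum_comp W, σ.prod_comp W] at h
  · exact h
  · intro e e' h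
    ext i
    have := congrFun h (σ.symm i)
    simpa using this

theorem simplex_lower (W : ι → ℝ) (hW : ∀ i, 0 < W i) {s : ℝ} (hs : 0 < s) :
    ∃ S : Finset (ι →₀ ℕ), (∀ e ∈ S, wt W e < s) ∧
      s ^ Fintype.card ι ≤ (S.card : ℝ) * ((Fintype.card ι).factorial * ∏ i, W i) := by
  classical
  set σ := (Fintype.equivFin ι).symm
  obtain ⟨S, h1, h2⟩ := simplex_lower_fin _ (fun i => W (σ i)) (fun i => hW _) s hs
  refine ⟨S.image fun e => Finsupp.equivFunOnFinite.symm fun i => e (σ.symm i), ?_, ?_⟩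
  · intro e he
    obtain ⟨e, he', rfl⟩ := mem_image.1 he
    have := h1 e he'
    unfold wt
    rw [← σ.sum_comp]
    simpa using this
  · rw [card_image_of_injective, ← σ.prod_comp W]
    · exact h2
    · intro e e' h
      have h' := Finsupp.equivFunOnFinite.symm.injective h
      ext i
      have := congrFun h' (σ i)
      simpa using this

theorem finite_wt_le (W : ι → ℝ) (hW : ∀ i, 0 < W i) (s : ℝ) :
    {e : ι →₀ ℕ | wt W e ≤ s}.Finite := by
  classical
  have : {e : ι →₀ ℕ | wt W e ≤ s} ⊆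
      Finsupp.equivFunOnFinite.symm '' {f : ι → ℕ | ∀ i, f i ∈ Set.Iic ⌊s / W i⌋₊} := by
    intro e he
    refine ⟨e, fun i => ?_, by simp⟩
    apply Nat.le_floor
    rw [le_div_iff₀ (hW i), mul_comm]
    exact le_trans (single_le_sum (f := fun i => W i * (e i : ℝ))
      (fun j _ => mul_nonneg (hW j).le (Nat.cast_nonneg _)) (mem_univ i)) he
  exact (Set.Finite.image _ (Set.Finite.pi' fun i => Set.finite_Iic _)).subset this

/-- the lattice points of a simplex -/
noncomputable def simplex (W : ι → ℝ) (hW : ∀ i, 0 < W i) (s : ℝ) : Finset (ι →₀ ℕ) :=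
  (finite_wt_le W hW s).toFinset

theorem mem_simplex {W : ι → ℝ} {hW : ∀ i, 0 < W i} {s : ℝ} {e : ι →₀ ℕ} :
    e ∈ simplex W hW s ↔ wt W e ≤ s := by simp [simplex]

theorem le_of_forall_pow_le {n : ℕ} {x y a c : ℝ}
    (h : ∀ u : ℕ, 0 < u → x * (u : ℝ) ^ n ≤ y * (a * u + c) ^ n) : x ≤ y * a ^ n := by
  have h1 : Filter.Tendsto (fun u : ℕ => y * (a + c / u) ^ n) Filter.atTop
      (nhds (y * (a + 0) ^ n)) :=
    ((tendsto_const_div_atTop_nhds_zero_nat c).const_add a |>.pow n).const_mul y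
  rw [add_zero] at h1
  refine ge_of_tendsto h1 ?_
  filter_upwards [Filter.eventually_gt_atTop 0] with u hu
  have hu' : (0 : ℝ) < u := by exact_mod_cast hu
  have h2 := h u hu
  have e : a * u + c = (a + c / u) * u := by field_simp
  rw [e, mul_pow, ← mul_assoc] at h2
  exact le_of_mul_le_mul_right h2 (by positivity)

theorem vol_ineq (W W' : ι → ℝ) (hW : ∀ i, 0 < W i) (hW' : ∀ i, 0 < W' i) (K : ℕ) {t a c : ℝ}
    (ht : 0 < t) (ha : 0 ≤ a)
    (h : ∀ (u : ℕ) (S : Finset (ι →₀ ℕ)), (∀ β ∈ S, wt W' β < t * u) →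
      K * S.card ≤ (simplex W hW (a * u + c)).card) :
    K * t ^ Fintype.card ι * ∏ i, W i ≤ a ^ Fintype.card ι * ∏ i, W' i := by
  set N := Fintype.card ι with hN
  have hP1 : 0 < ∏ i, W i := prod_pos fun i _ => hW i
  have hP2 : 0 < ∏ i, W' i := prod_pos fun i _ => hW' i
  rw [mul_comm (a ^ N)]
  refine le_of_forall_pow_le (c := max c 0 + ∑ i, W i) fun u hu => ?_
  have hu' : (0 : ℝ) < u := by exact_mod_cast hu
  obtain ⟨S, hS1, hS2⟩ := simplex_lower W' hW' (s := t * u) (by positivity)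
  have h4 : (K : ℝ) * S.card ≤ (simplex W hW (a * u + c)).card := by exact_mod_cast h u S hS1
  have h5 := simplex_upper W hW (s := a * u + max c 0) (by have := le_max_right c 0; positivity)
    (simplex W hW (a * u + c))
    (fun e he => (mem_simplex.1 he).trans (by linarith [le_max_left c 0]))
  rw [← hN] at hS2 h5
  generalize ((simplex W hW (a * u + c)).card : ℝ) = Y at h4 h5
  calc K * t ^ N * (∏ i, W i) * (u : ℝ) ^ N
      = K * (t * u) ^ N * ∏ i, W i := by ring
    _ ≤ K * (S.card * (N.factorial * ∏ i, W' i)) * ∏ i, W i := by gcongr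
    _ = (∏ i, W' i) * ((K * S.card) * (N.factorial * ∏ i, W i)) := by ring
    _ ≤ (∏ i, W' i) * (Y * (N.factorial * ∏ i, W i)) := by gcongr
    _ ≤ (∏ i, W' i) * (a * u + max c 0 + ∑ i, W i) ^ N := by gcongr
    _ = _ := by rw [add_assoc]

end Vale.Agent.P021
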