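import Vale.Agent.P021.KI

/-!
The structure of a persistent component (product theorem).
-/

namespace Vale.Agent.P021

open MvPolynomial Finset

section Supp
variable {σ : Type}

theorem mem_supported_iff {s : Set σ} {F : MvPolynomial σ ℂ} :
    F ∈ supported ℂ s ↔ ∀ e ∈ F.support, ∀ i, e i ≠ 0 → i ∈ s := by
  rw [mem_supported]
  constructor
  · intro h e he i hi
    exact h (mem_coe.2 ((mem_vars_iff_mem_support i).2 ⟨e, he, Finsupp.mem_support_iff.2 hi⟩))
  · intro h i hi
    obtain ⟨e, he, hi'⟩ := (mem_vars_iff_mem_support i).1 (mem_coe.1 hi)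
    exact h e he i (Finsupp.mem_support_iff.1 hi')

theorem mem_support_pderiv {F : MvPolynomial σ ℂ} {i : σ} {e : σ →₀ ℕ} :
    e ∈ (pderiv i F).support ↔ e + Finsupp.single i 1 ∈ F.support := by
  rw [mem_support_iff, mem_support_iff, coeff_pderiv]
  have : ((e i : ℂ) + 1) ≠ 0 := Nat.cast_add_one_ne_zero _
  simp [this]

theorem pderiv_mem_supported {s : Set σ} {F : MvPolynomial σ ℂ} (h : F ∈ supported ℂ s) (i : σ) :
    pderiv i F ∈ supported ℂ s := by
  rw [mem_supported_iff] at h ⊢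
  intro e he l hl
  exact h _ (mem_support_pderiv.1 he) l (by simp [hl])

theorem pderiv_eq_zero_of_supported {s : Set σ} {F : MvPolynomial σ ℂ} (h : F ∈ supported ℂ s)
    {i : σ} (hi : i ∉ s) : pderiv i F = 0 :=
  pderiv_eq_zero_of_notMem_vars fun h' => hi (mem_supported.1 h (mem_coe.2 h'))

theorem apply_eq_zero_of_pderiv {F : MvPolynomial σ ℂ} {i : σ} (h : pderiv i F = 0)
    {e : σ →₀ ℕ} (he : e ∈ F.support) : e i = 0 := by
  by_contra hi
  have : e - Finsupp.single i 1 ∈ (pderiv i F).support := by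
    rw [mem_support_pderiv, Finsupp.sub_add_single_one_cancel hi]; exact he
  simp [h] at this

theorem coeff_X_mul_pderiv (F : MvPolynomial σ ℂ) (i : σ) (e : σ →₀ ℕ) :
    coeff e (X i * pderiv i F) = e i * coeff e F := by
  classical
  rw [coeff_X_mul']
  split_ifs with h
  · have h' := Finsupp.mem_support_iff.1 h
    rw [coeff_pderiv, Finsupp.sub_add_single_one_cancel h', mul_comm]
    congr 1
    obtain ⟨k, hk⟩ := Nat.exists_eq_succ_of_ne_zero h'
    simp [hk]
  · simp [Finsupp.notMem_support_iff.1 h]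

theorem exists_X_sub_C_mem {q : Ideal (MvPolynomial σ ℂ)} (hqp : q.IsPrime) {j : σ}
    {F : MvPolynomial σ ℂ} (hF0 : F ≠ 0) (hFq : F ∈ q) (hF : F ∈ supported ℂ {j}) :
    ∃ z : ℂ, X j - C z ∈ q := by
  have : ∃ p : Polynomial ℂ, Polynomial.aeval (X j : MvPolynomial σ ℂ) p = F := by
    rw [supported_eq_adjoin_X, Set.image_singleton, Algebra.adjoin_singleton_eq_range_aeval] at hF
    exact hF
  obtain ⟨p, rfl⟩ := this
  have hp : p ≠ 0 := by rintro rfl; simp at hF0
  rw [← Polynomial.C_leadingCoeff_mul_prod_multiset_X_sub_C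
    (IsAlgClosed.card_roots_eq_natDegree (p := p)), map_mul, map_multiset_prod] at hFq
  rcases hqp.mem_or_mem hFq with h | h
  · exfalso
    refine hqp.ne_top (Ideal.eq_top_of_isUnit_mem _ h ?_)
    rw [Polynomial.aeval_C]
    exact (IsUnit.mk0 _ (Polynomial.leadingCoeff_ne_zero.2 hp)).map _
  · obtain ⟨x, hx, hxq⟩ := (hqp.multiset_prod_mem_iff_exists_mem _).1 h
    simp only [Multiset.map_map, Multiset.mem_map] at hx
    obtain ⟨z, _, rfl⟩ := hx
    exact ⟨z, by simpa using hxq⟩

theorem exists_min_poly (mo : MonomialOrder σ) (Q : Set (MvPolynomial σ ℂ))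
    (h : ∃ F ∈ Q, F ≠ 0) :
    ∃ F ∈ Q, F ≠ 0 ∧ ∀ G ∈ Q, (∀ e ∈ G.support, mo.toSyn e < mo.toSyn (mo.degree F)) → G = 0 := by
  obtain ⟨F, ⟨hF, hF0⟩, hmin⟩ := (InvImage.wf (fun F : MvPolynomial σ ℂ => mo.toSyn (mo.degree F))
    (wellFounded_lt (α := mo.syn))).has_min {F | F ∈ Q ∧ F ≠ 0} h
  refine ⟨F, hF, hF0, fun G hG hlt => ?_⟩
  by_contra hG0
  exact hmin G ⟨hG, hG0⟩ (hlt _ (mo.degree_mem_support hG0))

theorem pderiv_lt (mo : MonomialOrder σ) (F : MvPolynomial σ ℂ) (i : σ) :
    ∀ e ∈ (pderiv i F).support, mo.toSyn e < mo.toSyn (mo.degree F) := by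
  intro e he
  refine lt_of_lt_of_le (mo.toSyn_strictMono ?_) (mo.le_degree (mem_support_pderiv.1 he))
  refine lt_of_le_of_ne le_self_add fun h => ?_
  simpa using congrArg (fun f : σ →₀ ℕ => f i) h

theorem eigen_contra {F : MvPolynomial σ ℂ} {i j : σ} (hij : j ≠ i) {b : ℂ}
    (h : X i * pderiv i F + pderiv j F - C b * F = 0) : pderiv j F = 0 := by
  have hc : ∀ e : σ →₀ ℕ, e i * coeff e F +
      coeff (e + Finsupp.single j 1) F * (e j + 1) - b * coeff e F = 0 := by
    intro e
    have := congrArg (coeff e) h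
    rwa [coeff_sub, coeff_add, coeff_X_mul_pderiv, coeff_pderiv, coeff_C_mul, coeff_zero] at this
  by_contra hne
  have hF0 : F ≠ 0 := by rintro rfl; simp at hne
  obtain ⟨e, he, hmax⟩ := exists_max_image F.support (fun e => e j) (support_nonempty.2 hF0)
  have he' := mem_support_iff.1 he
  have h1 : coeff (e + Finsupp.single j 1) F = 0 := by
    by_contra h1
    have := hmax _ (mem_support_iff.2 h1)
    simp at this
  have h2 : (e i : ℂ) = b := by
    have := hc e
    rw [h1, zero_mul, add_zero, ← sub_mul] at this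
    exact sub_eq_zero.1 ((mul_eq_zero.1 this).resolve_right he')
  have h3 : e j = 0 := by
    by_contra h3
    have := hc (e - Finsupp.single j 1)
    rw [Finsupp.sub_add_single_one_cancel h3] at this
    have e1 : (e - Finsupp.single j 1 : σ →₀ ℕ) i = e i := by simp [hij]
    rw [e1, h2, add_sub_cancel_left] at this
    have h4 : (((e - Finsupp.single j 1 : σ →₀ ℕ) j : ℂ) + 1) ≠ 0 :=
      Nat.cast_add_one_ne_zero _
    exact he' ((mul_eq_zero.1 this).resolve_right h4)
  apply hne
  ext e'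
  rw [coeff_zero]
  by_contra h4
  have := hmax _ (mem_support_pderiv.1 (mem_support_iff.2 h4))
  simp [h3] at this

theorem sub_aeval_mem_span (g : σ → MvPolynomial σ ℂ) (I : Ideal (MvPolynomial σ ℂ))
    (hg : ∀ i, X i - g i ∈ I) (F : MvPolynomial σ ℂ) : F - aeval g F ∈ I := by
  induction F using MvPolynomial.induction_on with
  | C z => simp
  | add f f' h h' =>
    rw [map_add, add_sub_add_comm]; exact add_mem h h'
  | mul_X f i h =>
    have : f * X i - aeval g (f * X i) = (f - aeval g f) * X i + aeval g f * (X i - g i) := by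
      rw [map_mul, aeval_X]; ring
    rw [this]
    exact add_mem (I.mul_mem_right _ h) (I.mul_mem_left _ (hg i))

end Supp

variable {m : ℕ}

/-- the polynomial ring; the variable `0` is the multiplicative coordinate -/
abbrev RR (m : ℕ) : Type := MvPolynomial (Fin (m + 1)) ℂ

/-- partial derivative -/
noncomputable def pd (i : Fin (m + 1)) : Der (RR m) := pderiv i

/-- the invariant vector fields -/
noncomputable def dd (i : Fin (m + 1)) : Der (RR m) :=
  if i = 0 then (X 0 : RR m) • pd 0 + ∑ j : Fin m, pd j.succ else pd i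

theorem dd_of_ne {i : Fin (m + 1)} (h : i ≠ 0) (F : RR m) : dd i F = pderiv i F := by
  rw [dd, if_neg h]; rfl

theorem dd_zero (F : RR m) : dd 0 F = X 0 * pderiv 0 F + ∑ j : Fin m, pderiv j.succ F := by
  rw [dd, if_pos rfl, Derivation.add_apply, Derivation.smul_apply, smul_eq_mul]
  congr 1
  have := congrFun (map_sum (Derivation.coeFnAddMonoidHom (R := ℂ) (A := RR m) (M := RR m))
    (fun j : Fin m => pd j.succ) univ) F
  rw [Finset.sum_apply] at this
  exact this

/-- restriction to `y = 1` -/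
noncomputable def res (F : RR m) : RR m := aeval (fun i => if i = 0 then 1 else X i) F

theorem sub_res_mem (F : RR m) : F - res F ∈ Ideal.span {(X 0 - 1 : RR m)} := by
  refine sub_aeval_mem_span _ _ (fun i => ?_) F
  split_ifs with h
  · rw [h]; exact Ideal.mem_span_singleton_self _
  · simp

theorem res_mem_supported (F : RR m) : res F ∈ supported ℂ {i | i ≠ 0} := by
  unfold res
  induction F using MvPolynomial.induction_on with
  | C z => rw [algHom_C]; exact Subalgebra.algebraMap_mem _ _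
  | add f f' h h' => rw [map_add]; exact add_mem h h'
  | mul_X f i h =>
    rw [map_mul, aeval_X]
    refine mul_mem h ?_
    split_ifs with hi
    · exact one_mem _
    · exact X_mem_supported.2 hi

theorem exists_greedy (q : Ideal (RR m)) (hq1 : q ≠ ⊤) :
    ∃ T : Finset (Fin (m + 1)), (∀ F ∈ supported ℂ (T : Set (Fin (m + 1))), F ∈ q → F = 0) ∧
      ∀ j ∉ T, ∃ F, (F ∈ q ∧ F ∈ supported ℂ (insert j {i | i ∈ T ∧ i < j})) ∧ F ≠ 0 := by
  have key : ∀ k : ℕ, ∃ T : Finset (Fin (m + 1)), (∀ i ∈ T, i.val < k) ∧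
      (∀ F ∈ supported ℂ (T : Set (Fin (m + 1))), F ∈ q → F = 0) ∧
      ∀ j ∉ T, j.val < k →
        ∃ F, (F ∈ q ∧ F ∈ supported ℂ (insert j {i | i ∈ T ∧ i < j})) ∧ F ≠ 0 := by
    intro k
    induction k with
    | zero =>
      refine ⟨∅, by simp, fun F hF hFq => ?_, by simp⟩
      rw [coe_empty, supported_empty, Algebra.mem_bot] at hF
      obtain ⟨z, rfl⟩ := hF
      by_contra h
      exact hq1 (Ideal.eq_top_of_isUnit_mem _ hFq
        ((IsUnit.mk0 z (by rintro rfl; simp at h)).map _))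
    | succ k ih =>
      obtain ⟨T, h1, h2, h3⟩ := ih
      by_cases hk : k < m + 1
      · by_cases hc : ∀ F ∈ supported ℂ (insert (⟨k, hk⟩ : Fin (m + 1)) (T : Set (Fin (m + 1)))),
            F ∈ q → F = 0
        · refine ⟨insert ⟨k, hk⟩ T, ?_, by rwa [coe_insert], ?_⟩
          · intro i hi
            rcases mem_insert.1 hi with rfl | hi
            · simp
            · exact (h1 i hi).trans (Nat.lt_succ_self k)
          · intro j hj hjk
            rw [mem_insert, not_or] at hj
            have hjk' : j.val < k := lt_of_le_of_ne (Nat.lt_succ_iff.1 hjk)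
              fun h => hj.1 (Fin.ext h)
            obtain ⟨F, ⟨hF1, hF2⟩, hF3⟩ := h3 j hj.2 hjk'
            refine ⟨F, ⟨hF1, supported_mono (Set.insert_subset_insert ?_) hF2⟩, hF3⟩
            exact fun i hi => ⟨mem_insert_of_mem hi.1, hi.2⟩
        · refine ⟨T, fun i hi => (h1 i hi).trans (Nat.lt_succ_self k), h2, fun j hj hjk => ?_⟩
          rcases Nat.lt_succ_iff_lt_or_eq.1 hjk with h | h
          · exact h3 j hj h
          · push Not at hc
            obtain ⟨F, hF1, hF2, hF3⟩ := hc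
            obtain rfl : j = ⟨k, hk⟩ := Fin.ext h
            refine ⟨F, ⟨hF2, supported_mono (Set.insert_subset_insert ?_) hF1⟩, hF3⟩
            exact fun i hi => ⟨hi, h1 i hi⟩
      · exact ⟨T, fun i hi => (h1 i hi).trans (Nat.lt_succ_self k), h2,
          fun j hj _ => h3 j hj (by have := j.2; omega)⟩
  obtain ⟨T, _, h2, h3⟩ := key (m + 1)
  exact ⟨T, h2, fun j hj => h3 j hj j.2⟩

theorem indep_swap {q : Ideal (RR m)} (hqp : q.IsPrime) {T : Finset (Fin (m + 1))}
    (G : {i // i ∉ T} → RR m) (hG : ∀ l, G l ∈ q) (j : {i // i ∉ T}) (i : Fin (m + 1))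
    (ha : ∀ l l' : {i // i ∉ T}, l'.1 ≠ 0 → l' ≠ l → pderiv l'.1 (G l) = 0)
    (hb : ∀ l, dd l.1 (G l) ∉ q) (hc : dd i (G j) ∉ q)
    (hd : ∀ l : {i // i ∉ T}, l.1 = 0 → l ≠ j → dd i (G l) ∈ q) :
    Indep q (fun l => dd (if l = j then i else l.1)) G := by
  refine ⟨hG, fun v hv => ?_⟩
  have single : ∀ (D : Der (RR m)) (l : {i // i ∉ T}), ∑ l, D (G l) * v l ∈ q →
      (∀ l', l' ≠ l → D (G l') * v l' ∈ q) → D (G l) ∉ q → v l ∈ q := by
    intro D l h1 h2 h3
    rw [← add_sum_erase _ _ (mem_univ l)] at h1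
    have h4 := (Ideal.add_mem_iff_left _ (Ideal.sum_mem _ fun l' hl' =>
      h2 l' (ne_of_mem_erase hl'))).1 h1
    exact (hqp.mem_or_mem h4).resolve_left h3
  have h1 : ∀ l : {i // i ∉ T}, l.1 ≠ 0 → l ≠ j → v l ∈ q := by
    intro l hl0 hlj
    have := hv l
    simp only [if_neg hlj] at this
    refine single _ l this (fun l' hl' => ?_) (hb l)
    rw [dd_of_ne hl0, ha l' l hl0 hl'.symm, zero_mul]
    exact zero_mem _
  have h2 : v j ∈ q := by
    have := hv j
    simp only [if_true] at this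
    refine single _ j this (fun l' hl' => ?_) hc
    by_cases h0 : l'.1 = 0
    · exact q.mul_mem_right _ (hd l' h0 hl')
    · exact q.mul_mem_left _ (h1 l' h0 hl')
  intro l
  by_cases hlj : l = j
  · rw [hlj]; exact h2
  by_cases hl0 : l.1 = 0
  · have := hv l
    simp only [if_neg hlj] at this
    refine single _ l this (fun l' hl' => q.mul_mem_left _ ?_) (hb l)
    by_cases hl'j : l' = j
    · rw [hl'j]; exact h2
    · exact h1 l' (fun h => hl' (Subtype.ext (h.trans hl0.symm))) hl'j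
  · exact h1 l hl0 hlj

theorem struct_thm (c W : Fin (m + 1) → ℝ) (hcpos : ∀ i, 0 < c i) (hW : ∀ i, i ≠ 0 → W i = c i)
    (hW0 : c 0 ≤ W 0) {η a : ℝ} (hη : 0 < η) (hη1 : η ≤ 1) (ha : 0 < a)
    (hsep : ∀ i j, i < j → c i < η ^ (m + 1) * c j)
    {q : Ideal (RR m)} {𝓕 : Set (RR m)} (hmin : q ∈ (Ideal.span 𝓕).minimalPrimes)
    (hdeg : ∀ F ∈ 𝓕, Deg W a F)
    (hord : ∀ F ∈ 𝓕, F ∈ ord dd c (fun i => (hcpos i).le) q (η * a))
    {pt : Fin (m + 1) → ℂ} (hpt : pt 0 = 1) (hq : ∀ F ∈ q, eval pt F = 0)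
    {P : RR m} (hPq : P ∈ q) (hP : res P ≠ 0) :
    X 0 - 1 ∈ q ∧ ∃ j, j ≠ 0 ∧ X j - C (pt j) ∈ q := by
  have hqp : q.IsPrime := hmin.1.1
  have hy : (X 0 : RR m) ∉ q := fun h => by simpa [hpt] using hq _ h
  have hpoint : ∀ j z, X j - C z ∈ q → X j - C (pt j) ∈ q := by
    intro j z h
    have := hq _ h
    simp only [map_sub, eval_X, eval_C, sub_eq_zero] at this
    rwa [this]
  have hcW : ∀ i, c i ≤ W i := fun i => by
    by_cases h : i = 0
    · rw [h]; exact hW0
    · rw [hW i h]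
  have hWpos : ∀ i, 0 < W i := fun i => (hcpos i).trans_le (hcW i)
  obtain ⟨i0, _, hi0⟩ := exists_min_image univ c univ_nonempty
  obtain ⟨T, hT, hT'⟩ := exists_greedy q hqp.ne_top
  have halg : ∀ j ∉ T, ∃ F, F ≠ 0 ∧ F ∈ q ∧ F ∈ supported ℂ (insert j (T : Set (Fin (m + 1)))) := by
    intro j hj
    obtain ⟨F, ⟨h1, h2⟩, h3⟩ := hT' j hj
    exact ⟨F, h3, h1, supported_mono (Set.insert_subset_insert fun i hi => hi.1) h2⟩
  set mo : MonomialOrder (Fin (m + 1)) := MonomialOrder.lex
  choose F hF hF0 hFmin using fun j : {i // i ∉ T} => exists_min_poly mo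
    {F | F ∈ q ∧ F ∈ supported ℂ (insert j.1 {i | i ∈ T ∧ i < j.1})} (hT' j.1 j.2)
  have F1 : ∀ j i, pderiv i (F j) ∈ q → pderiv i (F j) = 0 := fun j i h =>
    hFmin j _ ⟨h, pderiv_mem_supported (hF j).2 i⟩ (pderiv_lt mo _ i)
  have F2 : ∀ j, pderiv j.1 (F j) ≠ 0 := by
    intro j h
    refine hF0 j (hT _ (mem_supported_iff.2 fun e he i hi => ?_) (hF j).1)
    rcases mem_supported_iff.1 (hF j).2 e he i hi with rfl | h'
    · exact absurd (apply_eq_zero_of_pderiv h he) hi
    · exact h'.1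
  have F3 : ∀ (j : {i // i ∉ T}) i, i ≠ j.1 → ¬ (i ∈ T ∧ i < j.1) → pderiv i (F j) = 0 :=
    fun j i h1 h2 => pderiv_eq_zero_of_supported (hF j).2 (by
      rintro (h | h)
      · exact h1 h
      · exact h2 h)
  have swap : ∀ (G : {i // i ∉ T} → RR m) (j : {i // i ∉ T}) (i : Fin (m + 1)), i < j.1 →
      ¬ Indep q (fun l => dd (if l = j then i else l.1)) G := by
    intro G j i hij hind
    have hj0 : j.1 ≠ 0 := (lt_of_le_of_lt (Fin.zero_le i) hij).ne'
    have h1 := key_ineq dd c (fun i => (hcpos i).le) (hcpos i0) (fun i => hi0 i (mem_univ i))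
      W hWpos q T hT halg 𝓕 hmin (mul_pos hη ha) ha.le hdeg hord _ hind
    set N := Fintype.card {i // i ∉ T} with hN
    have hNle : N ≤ m + 1 := by
      have := Fintype.card_subtype_le (fun i : Fin (m + 1) => i ∉ T)
      rwa [Fintype.card_fin] at this
    rw [← mul_prod_erase _ _ (mem_univ j), ← mul_prod_erase _ _ (mem_univ j), if_pos rfl,
      hW _ hj0, mul_pow] at h1
    have h2 : ∏ l ∈ univ.erase j, c (if l = j then i else l.1) ≤ ∏ l ∈ univ.erase j, W l.1 := by
      refine prod_le_prod (fun l _ => (hcpos _).le) fun l hl => ?_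
      rw [if_neg (ne_of_mem_erase hl)]
      exact hcW _
    have h3 : 0 < ∏ l ∈ univ.erase j, W l.1 := prod_pos fun l _ => hWpos _
    have h4 : η ^ (m + 1) ≤ η ^ N := pow_le_pow_of_le_one hη.le hη1 hNle
    have h5 := hsep i j.1 hij
    have h6 : 0 < a ^ N := pow_pos ha N
    have h7 := hcpos i
    have h8 := hcpos j.1
    generalize ∏ l ∈ univ.erase j, c (if l = j then i else l.1) = Y at h1 h2
    generalize ∏ l ∈ univ.erase j, W l.1 = Z at h1 h2 h3
    have h9 : a ^ N * (c i * Y) < η ^ N * a ^ N * (c j.1 * Z) :=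
      calc a ^ N * (c i * Y) ≤ a ^ N * (c i * Z) := by gcongr
        _ < a ^ N * ((η ^ (m + 1) * c j.1) * Z) := by gcongr
        _ ≤ a ^ N * ((η ^ N * c j.1) * Z) := by gcongr
        _ = _ := by ring
    linarith
  have hoff : ∀ l l' : {i // i ∉ T}, l' ≠ l → pderiv l'.1 (F l) = 0 := fun l l' h =>
    F3 l _ (fun h' => h (Subtype.ext h')) (fun h' => l'.2 h'.1)
  by_cases h0 : (0 : Fin (m + 1)) ∈ T
  · exfalso
    have hne : ∀ l : {i // i ∉ T}, l.1 ≠ 0 := fun l h => l.2 (h ▸ h0)
    obtain ⟨j, hj⟩ : ∃ j, j ∉ T := by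
      by_contra hcon
      push Not at hcon
      have : P = 0 := hT P (mem_supported_iff.2 fun _ _ i _ => hcon i) hPq
      rw [this] at hP
      exact hP (map_zero _)
    set j' : {i // i ∉ T} := ⟨j, hj⟩
    have hall : ∀ i, i < j → dd i (F j') ∈ q := by
      intro i hij
      by_contra hcon
      exact swap F j' i hij (indep_swap hqp F (fun l => (hF l).1) j' i
        (fun l l' _ h => hoff l l' h)
        (fun l h => F2 l (F1 l _ (by rwa [dd_of_ne (hne l)] at h))) hcon
        (fun l h => absurd h (hne l)))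
    have hj0 : j ≠ 0 := hne j'
    have hD : dd 0 (F j') = X 0 * pderiv 0 (F j') + pderiv j (F j') := by
      rw [dd_zero]
      congr 1
      obtain ⟨k, rfl⟩ := Fin.exists_succ_eq.2 hj0
      refine sum_eq_single k (fun l _ hl => ?_) (by simp)
      by_cases h : l.succ ∈ T ∧ l.succ < k.succ
      · exact F1 _ _ (by rw [← dd_of_ne (Fin.succ_ne_zero l)]; exact hall _ h.2)
      · exact F3 j' _ (fun h' => hl (Fin.succ_injective _ h')) h
    have hDq := hall 0 (Fin.pos_iff_ne_zero.2 hj0)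
    rw [hD] at hDq
    have hG : X 0 * pderiv 0 (F j') + pderiv j (F j') -
        C ((mo.degree (F j') 0 : ℕ) : ℂ) * F j' = 0 := by
      refine hFmin j' _ ⟨sub_mem hDq (q.mul_mem_left _ (hF j').1), ?_⟩ ?_
      · refine sub_mem (add_mem (mul_mem (X_mem_supported.2 ?_)
          (pderiv_mem_supported (hF j').2 _)) (pderiv_mem_supported (hF j').2 _))
          (mul_mem (Subalgebra.algebraMap_mem _ _) (hF j').2)
        exact Or.inr ⟨h0, Fin.pos_iff_ne_zero.2 hj0⟩
      · intro e he
        by_cases h1 : e ∈ (pderiv j (F j')).support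
        · exact pderiv_lt mo _ _ e h1
        rw [mem_support_iff, coeff_sub, coeff_add, coeff_X_mul_pderiv, coeff_C_mul,
          notMem_support_iff.1 h1, add_zero, ← sub_mul] at he
        refine lt_of_le_of_ne (mo.le_degree (mem_support_iff.2 (right_ne_zero_of_mul he))) ?_
        intro h
        rw [mo.toSyn.injective h, sub_self, zero_mul] at he
        exact he rfl
    exact F2 j' (eigen_contra hj0 hG)
  · have hy1 : (X 0 - 1 : RR m) ∈ q := by
      obtain ⟨z, hz⟩ := exists_X_sub_C_mem hqp (hF0 ⟨0, h0⟩) (hF ⟨0, h0⟩).1 (j := 0)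
        (supported_mono (by
          rintro i (h | h)
          · exact h
          · exact absurd h.2 (Fin.not_lt_zero _)) (hF ⟨0, h0⟩).2)
      have := hpoint _ _ hz
      rwa [hpt, map_one] at this
    refine ⟨hy1, ?_⟩
    obtain ⟨j, hj0, hj⟩ : ∃ j, j ≠ 0 ∧ j ∉ T := by
      by_contra hcon
      push Not at hcon
      refine hP (hT _ (supported_mono (fun i hi => hcon i hi) (res_mem_supported P)) ?_)
      have := sub_mem hPq ((Ideal.span_singleton_le_iff_mem q).2 hy1 (sub_res_mem P))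
      rwa [sub_sub_cancel] at this
    set j' : {i // i ∉ T} := ⟨j, hj⟩
    set G : {i // i ∉ T} → RR m := fun l => if l.1 = 0 then X 0 - 1 else F l with hG
    have hGj : G j' = F j' := if_neg hj0
    have hall : ∀ i ∈ T, i < j → pderiv i (F j') ∈ q := by
      intro i hi hij
      have hi0 : i ≠ 0 := fun h => h0 (h ▸ hi)
      by_contra hcon
      refine swap G j' i hij (indep_swap hqp G (fun l => ?_) j' i (fun l l' h h' => ?_)
        (fun l => ?_) (by rwa [hGj, dd_of_ne hi0]) (fun l h _ => ?_))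
      · simp only [hG]
        split_ifs
        · exact hy1
        · exact (hF l).1
      · simp only [hG]
        split_ifs
        · simp [pderiv_X_of_ne h.symm]
        · exact hoff l l' h'
      · simp only [hG]
        split_ifs with h
        · rw [h, dd_zero]
          simpa [pderiv_X_of_ne (Fin.succ_ne_zero _).symm] using hy
        · rw [dd_of_ne h]
          exact fun h' => F2 l (F1 l _ h')
      · simp only [hG, if_pos h]
        rw [dd_of_ne hi0]
        simp [pderiv_X_of_ne hi0.symm]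
    obtain ⟨z, hz⟩ := exists_X_sub_C_mem hqp (hF0 j') (hF j').1 (j := j)
      (mem_supported_iff.2 fun e he i hi => by
        rcases mem_supported_iff.1 (hF j').2 e he i hi with h | h
        · exact h
        · exact absurd (apply_eq_zero_of_pderiv (F1 _ _ (hall i h.1 h.2)) he) hi)
    exact ⟨j, hj0, hpoint _ _ hz⟩

end Vale.Agent.P021
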